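import Vale.Agent.helper1.Gsh.CyclicTop
import Vale.Agent.helper3.Gsh.Aperiodic

/-!
Languages recognised by a finite group `G` with an abelian normal subgroup `N` and an element `g`
such that every letter is sent to `N` or to the coset `g N` have generalized star height at most one.
-/

set_option linter.unusedSectionVars false
set_option linter.unusedSimpArgs false
set_option linter.style.haveILetI false
set_option linter.unusedVariables false

namespace Vale.Agent.helper1.Gsh

open Vale.Agent.helper5.GSH Vale.Agent.helper3.Gsh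

variable {α : Type} [DecidableEq α] (P : α → Bool)

/-- The number of positions where `y` is read at a phase congruent to `t` modulo `n`. -/
def pn (n t : ℕ) (y : α) : ℕ → List α → ℕ
  | _, [] => 0
  | τ, z :: w => (if z = y ∧ τ % n = t then 1 else 0) + pn n t y (τ + stp P z) w

lemma pn_eq_ic (n t : ℕ) (y : α) (τ : ℕ) (w : List α) :
    (pn P n t y τ w : ℤ) = ic P y (fun i => if i % n = t then 1 else 0) τ w := by
  induction w generalizing τ with
  | nil => simp [pn, ic]
  | cons z w ih =>
    simp only [pn, ic, Nat.cast_add, ih]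
    congr 1
    by_cases h : z = y
    · simp [h]
    · simp [h]

lemma az_pn [Fintype α] (n : ℕ) (hn : 0 < n) (t : ℕ) (y : α) (τ : ℕ) :
    AZ (fun w : List α => (pn P n t y τ w : ℤ)) := by
  have h1 := az_ic P y n hn (f := fun i => if i % n = t then 1 else 0)
    (by intro i; simp) τ
  simpa only [pn_eq_ic] using h1

section phi

variable {A : Type}

/-- The product along a word of values depending on the phase and the letter. -/
def phiN [Monoid A] (c : ℕ → α → A) : ℕ → List α → A
  | _, [] => 1
  | τ, y :: w => c τ y * phiN c (τ + stp P y) w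

lemma phiN_eq [Fintype α] [CommGroup A] {n : ℕ} (hn : 0 < n) (c : ℕ → α → A)
    (hc : ∀ t y, c (t + n) y = c t y) (τ : ℕ) (w : List α) :
    phiN P c τ w = ∏ q : Fin n × α, c q.1.1 q.2 ^ pn P n q.1.1 q.2 τ w := by
  classical
  induction w generalizing τ with
  | nil => simp [phiN, pn]
  | cons y w ih =>
    simp only [phiN, pn, pow_add]
    rw [Finset.prod_mul_distrib, ih]
    congr 1
    rw [Finset.prod_eq_single ((⟨τ % n, Nat.mod_lt _ hn⟩ : Fin n), y)]
    · simp only [and_self, if_true, pow_one]
      exact (per_mod (n := n) (cf := fun t => c t y) (fun i => hc i y)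
        (by simp)).symm
    · rintro ⟨⟨t, ht⟩, z⟩ _ hne
      have : ¬ (y = z ∧ τ % n = t) := by
        rintro ⟨rfl, rfl⟩
        exact hne rfl
      simp [this]
    · intro h
      exact absurd (Finset.mem_univ _) h

end phi

variable {G : Type} [Group G]

lemma tele_cyc (N : Subgroup G) (g' : α → G) (gen : G)
    (hm : ∀ t y, gen ^ t * g' y * (gen ^ (t + stp P y))⁻¹ ∈ N) (τ : ℕ) (w : List α) :
    gen ^ τ * wval g' w =
      (phiN (A := N) P (fun t y => ⟨gen ^ t * g' y * (gen ^ (t + stp P y))⁻¹, hm t y⟩) τ w : N).1 *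
        gen ^ (τ + (w.filter P).length) := by
  induction w generalizing τ with
  | nil => simp [phiN]
  | cons y w ih =>
    simp only [phiN, wval_cons, Subgroup.coe_mul]
    rw [mul_assoc _ (phiN _ _ _ _ : N).1]
    have e : τ + ((y :: w).filter P).length = τ + stp P y + (w.filter P).length := by
      by_cases h : P y = true
      · simp [List.filter_cons, h, stp]
        omega
      · have h' : P y = false := by simpa using h
        simp [List.filter_cons, h', stp]
    rw [e, ← ih]
    group

lemma cnt_filter [Fintype α] (w : List α) :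
    cnt (Finset.univ.filter (fun y => P y = true)) w = (w.filter P).length := by
  induction w with
  | nil => rfl
  | cons y w ih =>
    simp only [cnt, ih, Finset.mem_filter, Finset.mem_univ, true_and]
    by_cases h : P y = true
    · simp [List.filter_cons, h]
      omega
    · have h' : P y = false := by simpa using h
      simp [List.filter_cons, h']

/-- The value of a word in the group is accessible. -/
theorem acc_wval_cyc [Fintype α] [Finite G] (N : Subgroup G) [N.Normal]
    (hN : ∀ a ∈ N, ∀ b ∈ N, a * b = b * a) (gen : G) (g' : α → G)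
    (hg : ∀ y, g' y ∈ N ∨ gen⁻¹ * g' y ∈ N) :
    Acc (fun w : List α => wval g' w) := by
  classical
  letI inst : CommGroup N :=
    { (inferInstance : Group N) with mul_comm := fun a b => Subtype.ext (hN a a.2 b b.2) }
  set P : α → Bool := fun y => decide (g' y ∉ N) with hP
  set n := orderOf gen with hn
  have hn0 : 0 < n := orderOf_pos gen
  have hm : ∀ t y, gen ^ t * g' y * (gen ^ (t + stp P y))⁻¹ ∈ N := by
    intro t y
    by_cases h : g' y ∈ N
    · have e1 : stp P y = 0 := by simp [stp, hP, h]
      rw [e1, add_zero]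
      exact Subgroup.Normal.conj_mem inferInstance _ h _
    · have e1 : stp P y = 1 := by simp [stp, hP, h]
      have h2 := (hg y).resolve_left h
      rw [e1]
      have e2 : gen ^ t * g' y * (gen ^ (t + 1))⁻¹ =
          gen ^ (t + 1) * (gen⁻¹ * g' y) * (gen ^ (t + 1))⁻¹ := by
        rw [pow_succ]
        group
      rw [e2]
      exact Subgroup.Normal.conj_mem inferInstance _ h2 _
  set e := Nat.card N with he
  haveI : NeZero e := ⟨Nat.card_pos.ne'⟩
  haveI : NeZero n := ⟨hn0.ne'⟩
  have h1 : Acc (fun (w : List α) (q : Fin n × α) => (pn P n q.1.1 q.2 0 w : ZMod e)) :=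
    Acc.pi (fun q => by
      have := az_pn P n hn0 q.1.1 q.2 0 e
      simpa using this)
  have h2 : Acc (fun w : List α =>
      (cnt (Finset.univ.filter (fun y => P y = true)) w : ZMod n)) := acc_cnt_zmod n _
  have h3 := h2.pair h1
  refine Acc.factor h3 ?_
  intro w w' h
  simp only [Prod.mk.injEq] at h
  obtain ⟨h4, h5⟩ := h
  have h6 := tele_cyc P N g' gen hm 0 w
  have h7 := tele_cyc P N g' gen hm 0 w'
  have hc : ∀ t y, (⟨gen ^ (t + n) * g' y * (gen ^ (t + n + stp P y))⁻¹, hm (t + n) y⟩ : N) =
      ⟨gen ^ t * g' y * (gen ^ (t + stp P y))⁻¹, hm t y⟩ := by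
    intro t y
    apply Subtype.ext
    have e1 : gen ^ (t + n) = gen ^ t := by
      rw [pow_add, hn, pow_orderOf_eq_one, mul_one]
    have e2 : gen ^ (t + n + stp P y) = gen ^ (t + stp P y) := by
      have : t + n + stp P y = t + stp P y + n := by omega
      rw [this, pow_add, hn, pow_orderOf_eq_one, mul_one]
    simp only [e1, e2]
  have h8 : phiN (A := N) P (fun t y => ⟨gen ^ t * g' y * (gen ^ (t + stp P y))⁻¹, hm t y⟩) 0 w =
      phiN (A := N) P (fun t y => ⟨gen ^ t * g' y * (gen ^ (t + stp P y))⁻¹, hm t y⟩) 0 w' := by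
    rw [phiN_eq P hn0 _ hc, phiN_eq P hn0 _ hc]
    apply Finset.prod_congr rfl
    intro q _
    have h9 := congrFun h5 q
    rw [ZMod.natCast_eq_natCast_iff] at h9
    have h10 : ∀ m : N, m ^ e = 1 := fun m => pow_card_eq_one'
    rw [pow_eq_pow_mod _ (h10 _), pow_eq_pow_mod (pn P n q.1.1 q.2 0 w') (h10 _), h9]
  have h11 : gen ^ (w.filter P).length = gen ^ (w'.filter P).length := by
    rw [cnt_filter, cnt_filter, ZMod.natCast_eq_natCast_iff] at h4
    rw [pow_eq_pow_mod _ (pow_orderOf_eq_one gen), pow_eq_pow_mod (w'.filter P).length (pow_orderOf_eq_one gen)]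
    rw [← hn]
    exact congrArg _ h4
  simp only [zero_add, pow_zero, one_mul] at h6 h7
  rw [h6, h7, h8, h11]

/-- The theorem for languages. -/
theorem gshLe_of_cyclic_top [Fintype α] [Finite G] (N : Subgroup G) [N.Normal]
    (hN : ∀ a ∈ N, ∀ b ∈ N, a * b = b * a) (gen : G) (φ : FreeMonoid α →* G)
    (hφ : ∀ y : α, φ (FreeMonoid.of y) ∈ N ∨ gen⁻¹ * φ (FreeMonoid.of y) ∈ N) (S : Set G) :
    GshLe 1 {w : List α | φ (FreeMonoid.ofList w) ∈ S} := by
  classical
  have h1 := acc_wval_cyc N hN gen (fun a => φ (FreeMonoid.of a)) hφ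
  have e : ∀ w : List α, φ (FreeMonoid.ofList w) = wval (fun a => φ (FreeMonoid.of a)) w := by
    intro w
    induction w with
    | nil => simp [FreeMonoid.ofList_nil]
    | cons x w ih =>
      rw [FreeMonoid.ofList_cons, map_mul, ih, wval_cons]
  have h3 := (h1.comp (fun x => x ∈ S)) True
  convert h3 using 1
  ext w
  simp [e]

end Vale.Agent.helper1.Gsh
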