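import Vale.Agent.helper1.Gsh.PrimeTop
import Vale.Agent.helper3.Gsh.Aperiodic

/-!
Languages recognised by a finite group with an abelian normal subgroup whose quotient is an
elementary abelian `p`-group have generalized star height at most one.
-/

set_option linter.unusedSectionVars false
set_option linter.unusedSimpArgs false
set_option linter.style.haveILetI false
set_option linter.unusedVariables false

namespace Vale.Agent.helper1.Gsh

open Vale.Agent.helper5.GSH Vale.Agent.helper3.Gsh

variable {α : Type} [Fintype α] [DecidableEq α] {p : ℕ} [Fact p.Prime]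

/-- The next vector of letter counts. -/
def vnext (σ : α → ZMod p) (y : α) : α → ZMod p := σ + Pi.single y 1

/-- The number of positions where `x` is read while the vector of letter counts is `ρ`. -/
def vc (ρ : α → ZMod p) (x : α) : (α → ZMod p) → List α → ℕ
  | _, [] => 0
  | σ, y :: w => (if y = x ∧ σ = ρ then 1 else 0) + vc ρ x (vnext σ y) w

/-- The linear form with coefficients `c`. -/
def chr (c σ : α → ZMod p) : ZMod p := ∑ y, c y * σ y

lemma chr_next (c σ : α → ZMod p) (y : α) : chr c (vnext σ y) = chr c σ + c y := by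
  classical
  simp only [chr, vnext, Pi.add_apply, mul_add, Finset.sum_add_distrib]
  congr 1
  rw [Finset.sum_eq_single y]
  · simp
  · intro b _ hb
    simp [Pi.single_eq_of_ne hb]
  · intro h
    exact absurd (Finset.mem_univ _) h

lemma chr_add_left (c e d : α → ZMod p) : chr (c + e) d = chr c d + chr e d := by
  simp [chr, add_mul, Finset.sum_add_distrib]

lemma chr_sub_right (c σ ρ : α → ZMod p) : chr c (σ - ρ) = chr c σ - chr c ρ := by
  simp [chr, mul_sub, Finset.sum_sub_distrib]

lemma chr_single (a : ZMod p) (y : α) (d : α → ZMod p) :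
    chr (Pi.single y a) d = a * d y := by
  classical
  simp only [chr]
  rw [Finset.sum_eq_single y]
  · simp
  · intro b _ hb
    simp [Pi.single_eq_of_ne hb]
  · intro h
    exact absurd (Finset.mem_univ _) h

lemma card_kernel {d : α → ZMod p} (hd : d ≠ 0) :
    haveI : NeZero p := ⟨(Fact.out : p.Prime).ne_zero⟩
    p * (Finset.univ.filter (fun c : α → ZMod p => chr c d = 0)).card =
      Fintype.card (α → ZMod p) := by
  classical
  haveI : NeZero p := ⟨(Fact.out : p.Prime).ne_zero⟩
  obtain ⟨y₀, hy₀⟩ : ∃ y, d y ≠ 0 := by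
    by_contra h
    push Not at h
    exact hd (funext h)
  have h1 : ∀ r : ZMod p, (Finset.univ.filter (fun c : α → ZMod p => chr c d = r)).card =
      (Finset.univ.filter (fun c : α → ZMod p => chr c d = 0)).card := by
    intro r
    apply Finset.card_equiv (Equiv.addRight (Pi.single y₀ (-r / d y₀) : α → ZMod p))
    intro c
    simp only [Finset.mem_filter, Finset.mem_univ, true_and, Equiv.coe_addRight]
    rw [chr_add_left, chr_single]
    have e : -r / d y₀ * d y₀ = -r := by field_simp
    rw [e]
    constructor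
    · intro h
      rw [h]
      ring
    · intro h
      have : chr c d = chr c d + -r + r := by ring
      rw [this, h]
      ring
  have h2 := Finset.card_eq_sum_card_fiberwise (f := fun c : α → ZMod p => chr c d)
    (s := Finset.univ) (t := Finset.univ) (fun _ _ => Finset.mem_univ _)
  rw [Finset.card_univ] at h2
  rw [h2, Finset.sum_congr rfl (fun r _ => h1 r)]
  simp [ZMod.card]

lemma count_forms (σ ρ : α → ZMod p) :
    haveI : NeZero p := ⟨(Fact.out : p.Prime).ne_zero⟩
    p * (Finset.univ.filter (fun c : α → ZMod p => chr c σ = chr c ρ)).card =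
      Fintype.card (α → ZMod p) +
        Fintype.card (α → ZMod p) * (p - 1) * (if σ = ρ then 1 else 0) := by
  classical
  haveI : NeZero p := ⟨(Fact.out : p.Prime).ne_zero⟩
  have hp : 1 ≤ p := (Fact.out : p.Prime).one_lt.le
  by_cases h : σ = ρ
  · subst h
    simp only [Finset.filter_true, if_true, Finset.card_univ, mul_one]
    generalize Fintype.card (α → ZMod p) = K
    have h3 : p - 1 + 1 = p := by omega
    calc p * K = (p - 1 + 1) * K := by rw [h3]
      _ = K + K * (p - 1) := by ring
  · have h2 := card_kernel (d := σ - ρ) (sub_ne_zero.mpr h)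
    simp only [if_neg h, mul_zero, add_zero]
    rw [← h2]
    congr 2
    ext c
    simp [chr_sub_right, sub_eq_zero]

/-- The identity relating the counts at a vector to the counts at phases of linear forms. -/
lemma vc_identity (ρ : α → ZMod p) (x : α) (σ : α → ZMod p) (w : List α) :
    haveI : NeZero p := ⟨(Fact.out : p.Prime).ne_zero⟩
    p * ∑ c : α → ZMod p, pc c (chr c ρ) x (chr c σ) w =
      Fintype.card (α → ZMod p) * cnt {x} w +
        Fintype.card (α → ZMod p) * (p - 1) * vc ρ x σ w := by
  classical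
  haveI : NeZero p := ⟨(Fact.out : p.Prime).ne_zero⟩
  induction w generalizing σ with
  | nil => simp [pc, vc, cnt]
  | cons y w ih =>
    simp only [pc, vc, cnt, Finset.sum_add_distrib, mul_add, ← chr_next, ih]
    have h1 : p * ∑ c : α → ZMod p, (if chr c σ = chr c ρ ∧ y = x then 1 else 0) =
        Fintype.card (α → ZMod p) * (if y ∈ ({x} : Finset α) then 1 else 0) +
          Fintype.card (α → ZMod p) * (p - 1) * (if y = x ∧ σ = ρ then 1 else 0) := by
      by_cases hy : y = x
      · simp only [hy, and_true, true_and, Finset.mem_singleton, if_true, mul_one]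
        rw [Finset.sum_boole]
        have := count_forms σ ρ
        simp only [Nat.cast_id]
        rw [this]
      · simp [hy]
    rw [h1]
    ring

theorem az_vc (ρ : α → ZMod p) (x : α) (σ : α → ZMod p) :
    AZ (fun w : List α => (vc ρ x σ w : ℤ)) := by
  classical
  haveI : NeZero p := ⟨(Fact.out : p.Prime).ne_zero⟩
  have hp : 1 < p := (Fact.out : p.Prime).one_lt
  have hK : 0 < Fintype.card (α → ZMod p) := Fintype.card_pos
  apply AZ.cancel (c := Fintype.card (α → ZMod p) * (p - 1)) (Nat.mul_pos hK (by omega))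
  have h1 := (AZ.finset_sum (Finset.univ : Finset (α → ZMod p))
    (fun c _ => az_pc c x (chr c σ) (chr c ρ))).const_mul (p : ℤ)
  have h2 := h1.sub ((AZ.of_cnt {x}).const_mul (Fintype.card (α → ZMod p) : ℤ))
  convert h2 using 2 with w
  have h3 := congrArg (fun n : ℕ => (n : ℤ)) (vc_identity ρ x σ w)
  simp only [Nat.cast_add, Nat.cast_mul, Nat.cast_sum] at h3
  rw [h3]
  push_cast
  ring

/-- The vector of letter counts at the end of a word. -/
def endV : (α → ZMod p) → List α → (α → ZMod p)
  | σ, [] => σ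
  | σ, y :: w => endV (vnext σ y) w

lemma endV_apply (σ : α → ZMod p) (w : List α) (y : α) :
    endV σ w y = σ y + (cnt {y} w : ZMod p) := by
  induction w generalizing σ with
  | nil => simp [endV, cnt]
  | cons x w ih =>
    simp only [endV, cnt, ih, vnext, Pi.add_apply]
    by_cases h : y = x
    · subst h
      simp only [Pi.single_eq_same, Finset.mem_singleton, if_true]
      push_cast
      ring
    · have h' : x ≠ y := fun e => h e.symm
      simp [Pi.single_eq_of_ne h, h']

lemma acc_endV (σ : α → ZMod p) : Acc (fun w : List α => endV σ w) := by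
  haveI : NeZero p := ⟨(Fact.out : p.Prime).ne_zero⟩
  have h1 : Acc (fun (w : List α) (y : α) => σ y + (cnt {y} w : ZMod p)) :=
    Acc.pi (fun y => (Acc.const _).add (acc_cnt_zmod p {y}))
  convert h1 using 2 with w
  funext y
  exact endV_apply σ w y

lemma exists_ubar' {U : Type} [CommGroup U] (u : α → U) (hu : ∀ y, u y ^ p = 1) :
    ∃ ub : (α → ZMod p) → U, ∀ σ x, ub (vnext σ x) = ub σ * u x := by
  classical
  haveI : NeZero p := ⟨(Fact.out : p.Prime).ne_zero⟩
  have hp1 : 1 < p := (Fact.out : p.Prime).one_lt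
  haveI : Fact (1 < p) := ⟨hp1⟩
  refine ⟨fun σ => ∏ y, u y ^ (σ y).val, ?_⟩
  intro σ x
  have h1 : ∀ (r : ZMod p) (v : U), v ^ p = 1 → v ^ (r + 1).val = v ^ r.val * v := by
    intro r v hv
    rw [ZMod.val_add, ZMod.val_one, ← pow_eq_pow_mod _ hv, pow_succ]
  have h : ∀ y, u y ^ ((vnext σ x) y).val = u y ^ (σ y).val * (if y = x then u x else 1) := by
    intro y
    by_cases hy : y = x
    · subst hy
      simp only [vnext, Pi.add_apply, Pi.single_eq_same, if_true]
      exact h1 _ _ (hu y)
    · simp [vnext, Pi.single_eq_of_ne hy, hy]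
  simp only [h]
  rw [Finset.prod_mul_distrib, Finset.prod_ite_eq']
  simp

variable {G : Type} [Group G]

lemma exists_tau' (N : Subgroup G) [N.Normal] (hp : ∀ g : G, g ^ p ∈ N)
    (hc : ∀ g h : G, g * h * g⁻¹ * h⁻¹ ∈ N) (g : α → G) :
    ∃ τ : (α → ZMod p) → G, ∀ σ x, τ σ * g x * (τ (vnext σ x))⁻¹ ∈ N := by
  have hpow : ∀ u : G ⧸ N, u ^ p = 1 := by
    intro u
    obtain ⟨x, rfl⟩ := QuotientGroup.mk_surjective u
    rw [← QuotientGroup.mk_pow, QuotientGroup.eq_one_iff]
    exact hp x
  have hcomm : ∀ a b : G ⧸ N, a * b = b * a := by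
    intro a b
    obtain ⟨x, rfl⟩ := QuotientGroup.mk_surjective a
    obtain ⟨y, rfl⟩ := QuotientGroup.mk_surjective b
    rw [← QuotientGroup.mk_mul, ← QuotientGroup.mk_mul, QuotientGroup.eq]
    have := hc y x
    have e : (x * y)⁻¹ * (y * x) = y⁻¹ * x⁻¹ * y * x := by group
    rw [e]
    have h2 := hc y⁻¹ x⁻¹
    simpa using h2
  have hex : ∃ ub : (α → ZMod p) → G ⧸ N, ∀ σ x, ub (vnext σ x) = ub σ * ((g x : G) : G ⧸ N) := by
    letI inst : CommGroup (G ⧸ N) := { (inferInstance : Group (G ⧸ N)) with mul_comm := hcomm }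
    exact exists_ubar' (U := G ⧸ N) (fun y => ((g y : G) : G ⧸ N)) (fun y => hpow _)
  obtain ⟨ub, hub⟩ := hex
  refine ⟨fun σ => (ub σ).out, ?_⟩
  intro σ x
  rw [← QuotientGroup.eq_one_iff, QuotientGroup.mk_mul, QuotientGroup.mk_mul, QuotientGroup.mk_inv,
    QuotientGroup.out_eq', QuotientGroup.out_eq', hub, mul_inv_cancel]

section phi

variable {A : Type}

/-- The product along a word of values depending on the count vector and the letter. -/
def phiP [Monoid A] (c : (α → ZMod p) → α → A) : (α → ZMod p) → List α → A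
  | _, [] => 1
  | σ, y :: w => c σ y * phiP c (vnext σ y) w

lemma phiP_eq [CommGroup A] (c : (α → ZMod p) → α → A) (σ : α → ZMod p) (w : List α) :
    haveI : NeZero p := ⟨(Fact.out : p.Prime).ne_zero⟩
    phiP c σ w = ∏ q : (α → ZMod p) × α, c q.1 q.2 ^ vc q.1 q.2 σ w := by
  classical
  haveI : NeZero p := ⟨(Fact.out : p.Prime).ne_zero⟩
  induction w generalizing σ with
  | nil => simp [phiP, vc]
  | cons y w ih =>
    simp only [phiP, vc, pow_add]
    rw [Finset.prod_mul_distrib, ih]
    congr 1
    rw [Finset.prod_eq_single (σ, y)]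
    · simp
    · rintro ⟨ρ, x⟩ _ hne
      have : ¬ (y = x ∧ σ = ρ) := by
        rintro ⟨rfl, rfl⟩
        exact hne rfl
      simp [this]
    · intro h
      exact absurd (Finset.mem_univ _) h

end phi

lemma tele' (N : Subgroup G) (g : α → G) (τ : (α → ZMod p) → G)
    (hτ : ∀ σ x, τ σ * g x * (τ (vnext σ x))⁻¹ ∈ N) (σ : α → ZMod p) (w : List α) :
    τ σ * wval g w =
      (phiP (A := N) (fun σ x => ⟨τ σ * g x * (τ (vnext σ x))⁻¹, hτ σ x⟩) σ w : N).1 *
        τ (endV σ w) := by
  induction w generalizing σ with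
  | nil => simp [phiP, endV]
  | cons y w ih =>
    simp only [phiP, endV, wval_cons, Subgroup.coe_mul]
    rw [mul_assoc _ (phiP _ _ _ : N).1, ← ih]
    group

/-- The value of a word in the group is accessible. -/
theorem acc_wval' [Finite G] (N : Subgroup G) [N.Normal] (hN : ∀ a ∈ N, ∀ b ∈ N, a * b = b * a)
    (hp : ∀ g : G, g ^ p ∈ N) (hc : ∀ g h : G, g * h * g⁻¹ * h⁻¹ ∈ N) (g : α → G) :
    Acc (fun w : List α => wval g w) := by
  classical
  haveI : NeZero p := ⟨(Fact.out : p.Prime).ne_zero⟩
  obtain ⟨τ, hτ⟩ := exists_tau' N hp hc g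
  letI inst : CommGroup N :=
    { (inferInstance : Group N) with mul_comm := fun a b => Subtype.ext (hN a a.2 b b.2) }
  set e := Nat.card N with he
  haveI : NeZero e := ⟨Nat.card_pos.ne'⟩
  have h1 : Acc (fun (w : List α) (q : (α → ZMod p) × α) =>
      (vc q.1 q.2 (0 : α → ZMod p) w : ZMod e)) :=
    Acc.pi (fun q => by
      have := az_vc q.1 q.2 (0 : α → ZMod p) e
      simpa using this)
  have h3 := (acc_endV (α := α) (0 : α → ZMod p)).pair h1
  refine Acc.factor h3 ?_
  intro w w' h
  simp only [Prod.mk.injEq] at h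
  obtain ⟨h4, h5⟩ := h
  have h6 := tele' N g τ hτ 0 w
  have h7 := tele' N g τ hτ 0 w'
  have h8 : phiP (A := N) (fun σ x => ⟨τ σ * g x * (τ (vnext σ x))⁻¹, hτ σ x⟩) 0 w =
      phiP (A := N) (fun σ x => ⟨τ σ * g x * (τ (vnext σ x))⁻¹, hτ σ x⟩) 0 w' := by
    rw [phiP_eq, phiP_eq]
    apply Finset.prod_congr rfl
    intro q _
    have h9 := congrFun h5 q
    rw [ZMod.natCast_eq_natCast_iff] at h9
    have h10 : ∀ m : N, m ^ e = 1 := fun m => pow_card_eq_one'
    rw [pow_eq_pow_mod _ (h10 _), pow_eq_pow_mod (vc q.1 q.2 0 w') (h10 _), h9]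
  apply mul_left_cancel (a := τ 0)
  rw [h6, h7, h8, h4]

/-- The theorem for languages. -/
theorem gshLe_of_abelian_elementary [Finite G] (N : Subgroup G) [N.Normal]
    (hN : ∀ a ∈ N, ∀ b ∈ N, a * b = b * a) (hp : ∀ g : G, g ^ p ∈ N)
    (hc : ∀ g h : G, g * h * g⁻¹ * h⁻¹ ∈ N)
    (φ : FreeMonoid α →* G) (S : Set G) :
    GshLe 1 {w : List α | φ (FreeMonoid.ofList w) ∈ S} := by
  classical
  have h1 := acc_wval' N hN hp hc (fun a => φ (FreeMonoid.of a))
  have e : ∀ w : List α, φ (FreeMonoid.ofList w) = wval (fun a => φ (FreeMonoid.of a)) w := by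
    intro w
    induction w with
    | nil => simp [FreeMonoid.ofList_nil]
    | cons x w ih =>
      rw [FreeMonoid.ofList_cons, map_mul, ih, wval_cons]
  have h3 := (h1.comp (fun x => x ∈ S)) True
  convert h3 using 1
  ext w
  simp [e]

end Vale.Agent.helper1.Gsh
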