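import Vale.Agent.helper1.Gsh.Sw4Pat

/-!
Words in a ring of characteristic `p`, when products of five elements `φ x - 1` vanish: the value of
a word is a polynomial in subword counts of length at most four.
-/

set_option linter.unusedSectionVars false
set_option linter.unusedSimpArgs false
set_option linter.style.haveILetI false
set_option linter.unusedVariables false

namespace Vale.Agent.helper1.Gsh

open Vale.Agent.helper5.GSH Vale.Agent.helper3.Gsh

section counts

variable {α : Type} [DecidableEq α] [Fintype α] (P : ℕ) [Fact P.Prime]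

lemma two_ne (hP : 5 ≤ P) : (2 : ZMod P) ≠ 0 := by
  intro h
  have h1 : ((2 : ℕ) : ZMod P) = 0 := by exact_mod_cast h
  have := Nat.le_of_dvd (by norm_num) ((ZMod.natCast_eq_zero_iff 2 P).mp h1)
  omega

lemma three_ne (hP : 5 ≤ P) : (3 : ZMod P) ≠ 0 := by
  intro h
  have h1 : ((3 : ℕ) : ZMod P) = 0 := by exact_mod_cast h
  have := Nat.le_of_dvd (by norm_num) ((ZMod.natCast_eq_zero_iff 3 P).mp h1)
  omega

lemma odd_of_five (hP : 5 ≤ P) : Odd P :=
  (Fact.out : P.Prime).odd_of_ne_two (by omega)

/-- Every subword count of length at most four, modulo a prime at least five, is accessible. -/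
theorem acc_sw_le_four (hP : 5 ≤ P) (u : List α) (hu : u.length ≤ 4) :
    Acc (fun w : List α => ((sw w u : ℕ) : ZMod P)) := by
  haveI : NeZero P := ⟨(Fact.out : P.Prime).ne_zero⟩
  match u, hu with
  | [c1, c2, c3, c4], _ =>
    have h := acc_four P (odd_of_five P hP) (two_ne P hP) (three_ne P hP) c1 c2 c3 c4
    simpa [Bq, zw] using h
  | [], _ => exact acc_sw_le_three P _ (by simp)
  | [c1], _ => exact acc_sw_le_three P _ (by simp)
  | [c1, c2], _ => exact acc_sw_le_three P _ (by simp)
  | [c1, c2, c3], _ => exact acc_sw_le_three P _ (by simp)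
  | a :: b :: c :: d :: e :: u, hu => simp at hu; omega

end counts

section ring

variable {α : Type} [DecidableEq α] [Fintype α] {A : Type} [Ring A]

/-- The terms of the expansion of the value of a word. -/
def T1 (x : α → A) (w : List α) : A := ∑ c, ((sw w [c] : ℕ) : A) * x c
def T2 (x : α → A) (w : List α) : A := ∑ c, ∑ d, ((sw w [c, d] : ℕ) : A) * (x c * x d)
def T3 (x : α → A) (w : List α) : A := ∑ c, ∑ d, ∑ e, ((sw w [c, d, e] : ℕ) : A) * (x c * x d * x e)
def T4 (x : α → A) (w : List α) : A :=
  ∑ c, ∑ d, ∑ e, ∑ f, ((sw w [c, d, e, f] : ℕ) : A) * (x c * x d * x e * x f)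

lemma T1_cons (x : α → A) (z : α) (w : List α) : T1 x (z :: w) = T1 x w + x z := by
  classical
  simp only [T1, sw_cons_cons, sw_nil_right]
  push_cast
  simp only [add_mul, Finset.sum_add_distrib]
  congr 1
  simp [ite_mul]

lemma T2_cons (x : α → A) (z : α) (w : List α) : T2 x (z :: w) = T2 x w + x z * T1 x w := by
  classical
  simp only [T2, T1, sw_cons_cons]
  push_cast
  simp only [add_mul, Finset.sum_add_distrib]
  congr 1
  rw [Finset.mul_sum]
  rw [Finset.sum_eq_single z]
  · apply Finset.sum_congr rfl
    intro d _
    simp only [if_true]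
    rw [← mul_assoc, ← mul_assoc, (Nat.cast_commute _ _).eq]
  · intro b _ hb
    have : ¬ z = b := fun h => hb h.symm
    simp [this]
  · intro h
    exact absurd (Finset.mem_univ _) h

lemma T3_cons (x : α → A) (z : α) (w : List α) : T3 x (z :: w) = T3 x w + x z * T2 x w := by
  classical
  simp only [T3, T2, sw_cons_cons]
  push_cast
  simp only [add_mul, Finset.sum_add_distrib]
  congr 1
  rw [Finset.mul_sum]
  rw [Finset.sum_eq_single z]
  · apply Finset.sum_congr rfl
    intro d _
    rw [Finset.mul_sum]
    apply Finset.sum_congr rfl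
    intro e _
    simp only [if_true]
    rw [mul_assoc (x z) (x d) (x e), ← mul_assoc, ← mul_assoc, (Nat.cast_commute _ _).eq]
    simp only [mul_assoc]
  · intro b _ hb
    have : ¬ z = b := fun h => hb h.symm
    simp [this]
  · intro h
    exact absurd (Finset.mem_univ _) h

lemma T4_cons (x : α → A) (z : α) (w : List α) : T4 x (z :: w) = T4 x w + x z * T3 x w := by
  classical
  simp only [T4, T3, sw_cons_cons]
  push_cast
  simp only [add_mul, Finset.sum_add_distrib]
  congr 1
  rw [Finset.mul_sum]
  rw [Finset.sum_eq_single z]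
  · apply Finset.sum_congr rfl
    intro d _
    rw [Finset.mul_sum]
    apply Finset.sum_congr rfl
    intro e _
    rw [Finset.mul_sum]
    apply Finset.sum_congr rfl
    intro f _
    simp only [if_true]
    simp only [mul_assoc]
    rw [← mul_assoc, ← mul_assoc, (Nat.cast_commute _ _).eq]
    simp only [mul_assoc]
  · intro b _ hb
    have : ¬ z = b := fun h => hb h.symm
    simp [this]
  · intro h
    exact absurd (Finset.mem_univ _) h

lemma mul_T4_zero (x : α → A) (hx : ∀ a b c d e, x a * x b * x c * x d * x e = 0) (z : α)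
    (w : List α) : x z * T4 x w = 0 := by
  simp only [T4, Finset.mul_sum]
  apply Finset.sum_eq_zero
  intro c _
  apply Finset.sum_eq_zero
  intro d _
  apply Finset.sum_eq_zero
  intro e _
  apply Finset.sum_eq_zero
  intro f _
  rw [← mul_assoc, ← (Nat.cast_commute _ (x z)).eq, mul_assoc]
  have h := hx z c d e f
  have h2 : x z * (x c * x d * x e * x f) = x z * x c * x d * x e * x f := by
    simp only [mul_assoc]
  rw [h2, h, mul_zero]

/-- The value of a word in a ring. -/
lemma wval_expansion (g : α → A) (hx : ∀ a b c d e, (g a - 1) * (g b - 1) * (g c - 1) * (g d - 1) * (g e - 1) = 0)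
    (w : List α) :
    wval g w = 1 + T1 (fun a => g a - 1) w + T2 (fun a => g a - 1) w + T3 (fun a => g a - 1) w +
      T4 (fun a => g a - 1) w := by
  induction w with
  | nil => simp [wval, T1, T2, T3, T4, sw_nil_left]
  | cons z w ih =>
    rw [wval_cons, ih, T1_cons, T2_cons, T3_cons, T4_cons]
    have h0 : (g z - 1) * T4 (fun a => g a - 1) w = 0 := mul_T4_zero (fun a => g a - 1) hx z w
    have e : g z = 1 + (g z - 1) := by abel
    generalize g z - 1 = y at h0 e ⊢
    rw [e]
    simp only [add_mul, mul_add, one_mul, mul_one]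
    rw [h0]
    abel

end ring

section main

variable {α : Type} [DecidableEq α] [Fintype α] (P : ℕ) [Fact P.Prime] {A : Type} [Ring A]
  [CharP A P]

/-- The theorem for rings of characteristic `P`. -/
theorem gshLe_of_ring (hP : 5 ≤ P) (φ : FreeMonoid α →* A)
    (hφ : ∀ a b c d e : α, (φ (FreeMonoid.of a) - 1) * (φ (FreeMonoid.of b) - 1) *
      (φ (FreeMonoid.of c) - 1) * (φ (FreeMonoid.of d) - 1) * (φ (FreeMonoid.of e) - 1) = 0)
    (S : Set A) : GshLe 1 {w : List α | φ (FreeMonoid.ofList w) ∈ S} := by
  classical
  haveI : NeZero P := ⟨(Fact.out : P.Prime).ne_zero⟩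
  have e : ∀ w : List α, φ (FreeMonoid.ofList w) = wval (fun a => φ (FreeMonoid.of a)) w := by
    intro w
    induction w with
    | nil => simp [FreeMonoid.ofList_nil, wval]
    | cons x w ih =>
      rw [FreeMonoid.ofList_cons, map_mul, ih, wval_cons]
  have h1 : Acc (fun (w : List α) (u : {u : List α // u.length ≤ 4}) =>
      ((sw w u.1 : ℕ) : ZMod P)) := by
    haveI : Finite {u : List α // u.length ≤ 4} := (List.finite_length_le α 4).to_subtype
    haveI : Fintype {u : List α // u.length ≤ 4} := Fintype.ofFinite _
    exact Acc.pi (fun u => acc_sw_le_four P hP u.1 u.2)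
  haveI : Finite ({u : List α // u.length ≤ 4} → ZMod P) := by
    haveI : Finite {u : List α // u.length ≤ 4} := (List.finite_length_le α 4).to_subtype
    infer_instance
  have h2 : Acc (fun w : List α => φ (FreeMonoid.ofList w) ∈ S) := by
    refine Acc.factor h1 ?_
    intro w w' h
    have hcast : ∀ u : List α, u.length ≤ 4 → ((sw w u : ℕ) : A) = ((sw w' u : ℕ) : A) := by
      intro u hu
      have h3 := congrFun h ⟨u, hu⟩
      simp only at h3
      rw [ZMod.natCast_eq_natCast_iff] at h3
      exact (CharP.natCast_eq_natCast A P).mpr h3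
    have h4 : φ (FreeMonoid.ofList w) = φ (FreeMonoid.ofList w') := by
      rw [e, e, wval_expansion _ hφ, wval_expansion _ hφ]
      have e1 : T1 (fun a => φ (FreeMonoid.of a) - 1) w = T1 (fun a => φ (FreeMonoid.of a) - 1) w' := by
        simp only [T1]
        apply Finset.sum_congr rfl
        intro c _
        rw [hcast _ (by simp)]
      have e2 : T2 (fun a => φ (FreeMonoid.of a) - 1) w = T2 (fun a => φ (FreeMonoid.of a) - 1) w' := by
        simp only [T2]
        apply Finset.sum_congr rfl
        intro c _
        apply Finset.sum_congr rfl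
        intro d _
        rw [hcast _ (by simp)]
      have e3 : T3 (fun a => φ (FreeMonoid.of a) - 1) w = T3 (fun a => φ (FreeMonoid.of a) - 1) w' := by
        simp only [T3]
        apply Finset.sum_congr rfl
        intro c _
        apply Finset.sum_congr rfl
        intro d _
        apply Finset.sum_congr rfl
        intro e _
        rw [hcast _ (by simp)]
      have e4 : T4 (fun a => φ (FreeMonoid.of a) - 1) w = T4 (fun a => φ (FreeMonoid.of a) - 1) w' := by
        simp only [T4]
        apply Finset.sum_congr rfl
        intro c _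
        apply Finset.sum_congr rfl
        intro d _
        apply Finset.sum_congr rfl
        intro e _
        apply Finset.sum_congr rfl
        intro f _
        rw [hcast _ (by simp)]
      rw [e1, e2, e3, e4]
    simp only [h4]
  have h3 := h2 True
  convert h3 using 1
  ext w
  simp

end main

end Vale.Agent.helper1.Gsh
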