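import Vale.Agent.helper1.Gsh.FourPat
import Vale.Agent.helper1.Gsh.PrimeFour

/-!
Subword counts of length at most four modulo every integer; words in rings whose characteristic is
not zero, when products of five elements `φ x - 1` vanish.
-/

set_option linter.unusedSectionVars false
set_option linter.unusedSimpArgs false
set_option linter.style.haveILetI false
set_option linter.unusedVariables false

namespace Vale.Agent.helper1.Gsh

open Vale.Agent.helper5.GSH Vale.Agent.helper3.Gsh

section counts

variable {α : Type} [DecidableEq α] [Fintype α]

/-- Every subword count of length at most four, modulo every integer, is accessible. -/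
theorem acc_sw_le_four_all (n : ℕ) [NeZero n] (u : List α) (hu : u.length ≤ 4) :
    Acc (fun w : List α => ((sw w u : ℕ) : ZMod n)) := by
  match u, hu with
  | [c1, c2, c3, c4], _ =>
    have h := az_four c1 c2 c3 c4 n
    simpa [zw] using h
  | [], _ => exact acc_sw_le_three n _ (by simp)
  | [c1], _ => exact acc_sw_le_three n _ (by simp)
  | [c1, c2], _ => exact acc_sw_le_three n _ (by simp)
  | [c1, c2, c3], _ => exact acc_sw_le_three n _ (by simp)
  | a :: b :: c :: d :: e :: u, hu => simp at hu; omega

variable (n : ℕ) {A : Type} [Ring A] [CharP A n]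

/-- The theorem for rings of positive characteristic. -/
theorem gshLe_of_ring_all (hn : 0 < n) (φ : FreeMonoid α →* A)
    (hφ : ∀ a b c d e : α, (φ (FreeMonoid.of a) - 1) * (φ (FreeMonoid.of b) - 1) *
      (φ (FreeMonoid.of c) - 1) * (φ (FreeMonoid.of d) - 1) * (φ (FreeMonoid.of e) - 1) = 0)
    (S : Set A) : GshLe 1 {w : List α | φ (FreeMonoid.ofList w) ∈ S} := by
  classical
  haveI : NeZero n := ⟨hn.ne'⟩
  have e : ∀ w : List α, φ (FreeMonoid.ofList w) = wval (fun a => φ (FreeMonoid.of a)) w := by
    intro w
    induction w with
    | nil => simp [FreeMonoid.ofList_nil, wval]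
    | cons x w ih =>
      rw [FreeMonoid.ofList_cons, map_mul, ih, wval_cons]
  have h1 : Acc (fun (w : List α) (u : {u : List α // u.length ≤ 4}) =>
      ((sw w u.1 : ℕ) : ZMod n)) := by
    haveI : Finite {u : List α // u.length ≤ 4} := (List.finite_length_le α 4).to_subtype
    haveI : Fintype {u : List α // u.length ≤ 4} := Fintype.ofFinite _
    exact Acc.pi (fun u => acc_sw_le_four_all n u.1 u.2)
  haveI : Finite ({u : List α // u.length ≤ 4} → ZMod n) := by
    haveI : Finite {u : List α // u.length ≤ 4} := (List.finite_length_le α 4).to_subtype
    infer_instance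
  have h2 : Acc (fun w : List α => φ (FreeMonoid.ofList w) ∈ S) := by
    refine Acc.factor h1 ?_
    intro w w' h
    have hcast : ∀ u : List α, u.length ≤ 4 → ((sw w u : ℕ) : A) = ((sw w' u : ℕ) : A) := by
      intro u hu
      have h3 := congrFun h ⟨u, hu⟩
      simp only at h3
      rw [ZMod.natCast_eq_natCast_iff] at h3
      exact (CharP.natCast_eq_natCast A n).mpr h3
    have h4 : φ (FreeMonoid.ofList w) = φ (FreeMonoid.ofList w') := by
      rw [e, e, wval_expansion _ hφ, wval_expansion _ hφ]
      have e1 : T1 (fun a => φ (FreeMonoid.of a) - 1) w = T1 (fun a => φ (FreeMonoid.of a) - 1) w' := by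
        simp only [T1]
        apply Finset.sum_congr rfl
        intro c _
        rw [hcast _ (by simp)]
      have e2 : T2 (fun a => φ (FreeMonoid.of a) - 1) w = T2 (fun a => φ (FreeMonoid.of a) - 1) w' := by
        simp only [T2]
        apply Finset.sum_congr rfl
        intro c _
        apply Finset.sum_congr rfl
        intro d _
        rw [hcast _ (by simp)]
      have e3 : T3 (fun a => φ (FreeMonoid.of a) - 1) w = T3 (fun a => φ (FreeMonoid.of a) - 1) w' := by
        simp only [T3]
        apply Finset.sum_congr rfl
        intro c _
        apply Finset.sum_congr rfl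
        intro d _
        apply Finset.sum_congr rfl
        intro e _
        rw [hcast _ (by simp)]
      have e4 : T4 (fun a => φ (FreeMonoid.of a) - 1) w = T4 (fun a => φ (FreeMonoid.of a) - 1) w' := by
        simp only [T4]
        apply Finset.sum_congr rfl
        intro c _
        apply Finset.sum_congr rfl
        intro d _
        apply Finset.sum_congr rfl
        intro e _
        apply Finset.sum_congr rfl
        intro f _
        rw [hcast _ (by simp)]
      rw [e1, e2, e3, e4]
    simp only [h4]
  have h3 := h2 True
  convert h3 using 1
  ext w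
  simp

end counts

end Vale.Agent.helper1.Gsh
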