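import Vale.Agent.helper1.Gsh.PolyWords
import Vale.Agent.helper1.Gsh.FourGeneral

/-!
Languages recognised by finite groups of nilpotency class at most four have generalized star height
at most one.
-/

set_option linter.unusedSectionVars false
set_option linter.unusedSimpArgs false
set_option linter.style.haveILetI false
set_option linter.unusedVariables false

namespace Vale.Agent.helper1.Gsh

open Vale.Agent.helper5.GSH

section general

variable {α : Type} [DecidableEq α] [Fintype α] {G : Type} [Group G] [Finite G]

/-- If the subword counts of length at most `c`, modulo the order of a finite group of class at most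
`c`, are accessible, then so is the value of a word. -/
theorem acc_prod_of_counts (c : ℕ) (hc : (⊤ : Subgroup G).lowerCentralSeries c = ⊥) (g : α → G)
    (hacc : ∀ u : List α, u.length ≤ c → Acc (fun w : List α => ((sw w u : ℕ) : ZMod (Nat.card G)))) :
    Acc (fun w : List α => (w.map g).prod) := by
  classical
  haveI : NeZero (Nat.card G) := ⟨Nat.card_pos.ne'⟩
  obtain ⟨L, hL, he⟩ := normal_form c hc g
  haveI : Finite {u : List α // u.length ≤ c} := (List.finite_length_le α c).to_subtype
  haveI : Fintype {u : List α // u.length ≤ c} := Fintype.ofFinite _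
  have h1 : Acc (fun (w : List α) (u : {u : List α // u.length ≤ c}) =>
      ((sw w u.1 : ℕ) : ZMod (Nat.card G))) := Acc.pi (fun u => hacc u.1 u.2)
  haveI : Finite ({u : List α // u.length ≤ c} → ZMod (Nat.card G)) := inferInstance
  refine Acc.factor h1 ?_
  intro w w' h
  rw [he, he]
  have hn : ∀ a : G, a ^ Nat.card G = 1 := fun a => pow_card_eq_one'
  have hcongr : ∀ p ∈ L, p.1 ^ sw w p.2 = p.1 ^ sw w' p.2 := by
    intro p hp
    have h2 := congrFun h ⟨p.2, hL p hp⟩
    have h3 := (ZMod.natCast_eq_natCast_iff _ _ _).mp h2
    rw [pow_eq_pow_mod _ (hn p.1), pow_eq_pow_mod (sw w' p.2) (hn p.1), h3]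
  simp only [lprod]
  congr 1
  exact List.map_congr_left hcongr

/-- A language recognised by a finite group of class at most four has generalized star height at
most one. -/
theorem gshLe_of_classFour (hG : (⊤ : Subgroup G).lowerCentralSeries 4 = ⊥) (φ : FreeMonoid α →* G)
    (S : Set G) : GshLe 1 {w : List α | φ (FreeMonoid.ofList w) ∈ S} := by
  classical
  haveI : NeZero (Nat.card G) := ⟨Nat.card_pos.ne'⟩
  have h1 := acc_prod_of_counts 4 hG (fun a => φ (FreeMonoid.of a))
    (fun u hu => acc_sw_le_four_all (Nat.card G) u hu)
  have e : ∀ w : List α, φ (FreeMonoid.ofList w) = (w.map fun a => φ (FreeMonoid.of a)).prod := by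
    intro w
    induction w with
    | nil => simp [FreeMonoid.ofList_nil]
    | cons x w ih =>
      rw [FreeMonoid.ofList_cons, map_mul, ih]
      simp
  have h2 := (h1.comp (fun x => x ∈ S)) True
  convert h2 using 1
  ext w
  simp [e]

end general

end Vale.Agent.helper1.Gsh
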