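import Vale.Agent.helper3.Gsh.Machine

/-!
A counter on top of a finite carrier automaton: the counter moves by one only when the carrier
enters a distinguished state. If a word that closes a loop of the carrier without moving the counter
must fix the state it started from, the resulting automaton has all its fibers of star height one.
-/

namespace Vale.Agent.helper1.Gsh

open Vale.Agent.helper5.GSH Vale.Agent.helper3.Gsh

variable {α S : Type}

/-- The word `v` repeated `k` times. -/
def vrep (v : List α) : ℕ → List α
  | 0 => []
  | k + 1 => v ++ vrep v k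

lemma vrep_add (v : List α) (a b : ℕ) : vrep v (a + b) = vrep v a ++ vrep v b := by
  induction a with
  | zero => simp [vrep]
  | succ a ih =>
    rw [show a + 1 + b = (a + b) + 1 by omega]
    simp only [vrep, ih, List.append_assoc]

lemma iterate_run' (δ' : S → α → S) (v : List α) (k : ℕ) (q : S) :
    (fun s => run δ' s v)^[k] q = run δ' q (vrep v k) := by
  induction k generalizing q with
  | zero => rfl
  | succ k ih =>
    simp only [Function.iterate_succ, Function.comp, vrep, run_append]
    exact ih _

/-- One step of the automaton with a counter. -/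
def cStep (δ : S → α → S) (inc : S → α → Bool) (M : ℕ) (q : S × ZMod M) (x : α) : S × ZMod M :=
  (δ q.1 x, if inc q.1 x then q.2 + 1 else q.2)

/-- The number of moves of the counter along a word. -/
def incCount (δ : S → α → S) (inc : S → α → Bool) : S → List α → ℕ
  | _, [] => 0
  | s, x :: w => (if inc s x then 1 else 0) + incCount δ inc (δ s x) w

variable (δ : S → α → S) (inc : S → α → Bool) {M : ℕ}

lemma incCount_append (s : S) (u v : List α) :
    incCount δ inc s (u ++ v) = incCount δ inc s u + incCount δ inc (run δ s u) v := by
  induction u generalizing s with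
  | nil => simp [incCount]
  | cons x u ih =>
    simp only [List.cons_append, incCount, run_cons, ih]
    omega

lemma run_cStep (s : S) (y : ZMod M) (w : List α) :
    run (cStep δ inc M) (s, y) w = (run δ s w, y + (incCount δ inc s w : ZMod M)) := by
  induction w generalizing s y with
  | nil => simp [incCount]
  | cons x w ih =>
    simp only [run_cons, incCount]
    by_cases hx : inc s x
    · simp only [cStep, hx, if_true, ih]
      push_cast
      simp only [Prod.mk.injEq, true_and]
      ring
    · have hx' : inc s x = false := by simpa using hx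
      simp only [cStep, hx', Bool.false_eq_true, if_false, ih]
      simp

variable [DecidableEq S] {δ inc}

omit [DecidableEq S] in
lemma no_cross {s₀ : S} (hs₀ : ∀ s x, inc s x = true → δ s x = s₀) (w : List α) (s : S) (Y : ℕ)
    (hav : Avoids (cStep δ inc M) (s₀, (0 : ZMod M)) (s, (Y : ZMod M)) w) {C : ℕ} (hC : M ∣ C)
    (hY : Y < C) : Y + incCount δ inc s w < C := by
  induction w generalizing s Y with
  | nil => simpa [incCount] using hY
  | cons x w ih =>
    have hnext := hav.2
    simp only [incCount]
    by_cases hx : inc s x
    · simp only [cStep, hx, if_true] at hnext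
      have e : (Y : ZMod M) + 1 = ((Y + 1 : ℕ) : ZMod M) := by push_cast; rfl
      rw [e] at hnext
      have hne : Y + 1 ≠ C := by
        intro h
        apply hnext.ne
        rw [hs₀ s x hx, h, (ZMod.natCast_eq_zero_iff C M).mpr hC]
      have := ih (δ s x) (Y + 1) hnext (by omega)
      simp only [hx, if_true]
      omega
    · have hx' : inc s x = false := by simpa using hx
      simp only [cStep, hx', Bool.false_eq_true, if_false] at hnext
      have := ih (δ s x) Y hnext hY
      simp only [hx', Bool.false_eq_true, if_false]
      omega

omit [DecidableEq S] in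
lemma avoids_left {δ' : S × ZMod M → α → S × ZMod M} {b q : S × ZMod M} {u v : List α}
    (h : Avoids δ' b q (u ++ v)) : Avoids δ' b q u := by
  induction u generalizing q with
  | nil => exact h.ne
  | cons x u ih => exact ⟨h.1, ih h.2⟩

/-- The counter automaton is valid when loops of the carrier that do not move the counter are
trivial. -/
theorem cStep_valid [NeZero M] {s₀ : S} (hs₀ : ∀ s x, inc s x = true → δ s x = s₀)
    (hC : ∀ (v : List α) (s : S) (k : ℕ), 0 < k → run δ s (vrep v k) = s →
      incCount δ inc s (vrep v k) = 0 → run δ s v = s) :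
    Valid (cStep δ inc M) ((s₀, 0) : S × ZMod M) := by
  intro v q k hk h
  by_cases hq : q = (s₀, 0)
  · rw [hq]
    exact run_dead_base v
  rw [iterate_run'] at h
  obtain ⟨hav, hrun⟩ := (path_iff hq hq _).mpr h
  obtain ⟨s, y⟩ := q
  have hM : 0 < M := NeZero.pos M
  have hY : ((y.val : ℕ) : ZMod M) = y := by simp
  rw [run_cStep] at hrun
  have h1 := congrArg Prod.fst hrun
  have h2 := congrArg Prod.snd hrun
  simp only at h1 h2
  have h3 : ((incCount δ inc s (vrep v k) : ℕ) : ZMod M) = 0 := by simpa using h2
  have h4 : M ∣ incCount δ inc s (vrep v k) := (ZMod.natCast_eq_zero_iff _ M).mp h3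
  have hcount : incCount δ inc s (vrep v k) = 0 := by
    by_contra hne
    have h5 : M ≤ incCount δ inc s (vrep v k) := Nat.le_of_dvd (by omega) h4
    have h6 := no_cross (M := M) hs₀ (vrep v k) s y.val (by rw [hY]; exact hav) (dvd_refl M)
      (ZMod.val_lt y)
    omega
  have hs := hC v s k hk h1 hcount
  obtain ⟨k', rfl⟩ : ∃ k', k = k' + 1 := ⟨k - 1, by omega⟩
  have hav1 : Avoids (cStep δ inc M) ((s₀, 0) : S × ZMod M) (s, y) v := by
    simp only [vrep] at hav
    exact avoids_left hav
  have hne := avoids_run_ne hav1
  rw [(path_iff hq hne v).mp ⟨hav1, rfl⟩, run_cStep, hs]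
  have h7 : incCount δ inc s v = 0 := by
    simp only [vrep, incCount_append] at hcount
    omega
  simp [h7]

/-- The run of the carrier and the number of moves of the counter are accessible. -/
theorem acc_incCount [Fintype α] [DecidableEq α] [Finite S] [NeZero M] {s₀ : S} (hs₀ : ∀ s x, inc s x = true → δ s x = s₀)
    (hC : ∀ (v : List α) (s : S) (k : ℕ), 0 < k → run δ s (vrep v k) = s →
      incCount δ inc s (vrep v k) = 0 → run δ s v = s) (s : S) :
    Acc (fun w : List α => (incCount δ inc s w : ZMod M)) := by
  have h1 := (acc_run_of_valid (α := α) (cStep_valid (M := M) hs₀ hC) (s, 0)).comp Prod.snd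
  convert h1 using 2 with w
  rw [run_cStep]
  simp

theorem acc_run_carrier [Fintype α] [DecidableEq α] [Finite S] {s₀ : S} (hs₀ : ∀ s x, inc s x = true → δ s x = s₀)
    (hC : ∀ (v : List α) (s : S) (k : ℕ), 0 < k → run δ s (vrep v k) = s →
      incCount δ inc s (vrep v k) = 0 → run δ s v = s) (s : S) :
    Acc (fun w : List α => run δ s w) := by
  have h1 := (acc_run_of_valid (α := α) (cStep_valid (M := 1) hs₀ hC) (s, 0)).comp Prod.fst
  convert h1 using 2 with w
  rw [run_cStep]

end Vale.Agent.helper1.Gsh
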