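import Vale.Agent.helper1.Gsh.PrimeTop

/-!
Phases in an arbitrary cyclic group `ℤ/n`, where each letter moves the phase by `0` or by `1`.
The number of positions where a given letter is read at a given phase is accessible modulo every
integer. Primitive blocks of length `n` are counted directly, and the remaining functions of the
phase are reached by induction on `n`.
-/

set_option linter.unusedSectionVars false
set_option linter.unusedSimpArgs false
set_option linter.style.haveILetI false
set_option linter.unusedVariables false

namespace Vale.Agent.helper1.Gsh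

open Vale.Agent.helper5.GSH Vale.Agent.helper3.Gsh

section loops

variable {α S : Type} (δ : S → α → S) (inc : S → α → Bool)

lemma no_inc_all' {v : List α} {s : S} {k : ℕ} (hk : 0 < k)
    (h : run δ s (vrep v k) = s)
    (h0 : incCount δ inc s (vrep v k) = 0) (W R : List α) (n : ℕ)
    (hW : W ++ R = vrep v n) : incCount δ inc s W = 0 := by
  have h1 : ∀ m, run δ s (vrep v (k * m)) = s ∧
      incCount δ inc s (vrep v (k * m)) = 0 := by
    intro m
    induction m with
    | zero => simp [vrep, incCount]
    | succ m ih =>
      rw [Nat.mul_succ, vrep_add, run_append, incCount_append, ih.1, h, h0, ih.2]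
      simp
  have h2 : n ≤ k * n := Nat.le_mul_of_pos_left n hk
  have h3 : vrep v (k * n) = W ++ (R ++ vrep v (k * n - n)) := by
    rw [← List.append_assoc, hW, ← vrep_add]
    congr 1
    omega
  have h4 := (h1 n).2
  rw [h3, incCount_append] at h4
  omega

lemma not_inc_at' {v : List α} {s : S} {k : ℕ} (hk : 0 < k)
    (h : run δ s (vrep v k) = s)
    (h0 : incCount δ inc s (vrep v k) = 0) (A R : List α) (z : α) (n : ℕ)
    (hW : A ++ z :: R = vrep v n) : inc (run δ s A) z = false := by
  have h1 := no_inc_all' δ inc hk h h0 (A ++ [z]) R n (by simpa using hW)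
  rw [incCount_append] at h1
  simp only [incCount] at h1
  by_contra h2
  simp only [Bool.not_eq_false] at h2
  simp [h2] at h1

end loops

variable {α : Type} [DecidableEq α] (P : α → Bool)

/-- The move of the phase. -/
def stp (y : α) : ℕ := if P y then 1 else 0

/-- The sum over the positions of `x` of the function `f` of the phase. -/
def ic (x : α) (f : ℕ → ℤ) : ℕ → List α → ℤ
  | _, [] => 0
  | τ, y :: w => (if y = x then f τ else 0) + ic x f (τ + stp P y) w

variable (x : α)

lemma ic_add (f g : ℕ → ℤ) (τ : ℕ) (w : List α) :
    ic P x (fun t => f t + g t) τ w = ic P x f τ w + ic P x g τ w := by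
  induction w generalizing τ with
  | nil => simp [ic]
  | cons y w ih =>
    simp only [ic, ih]
    by_cases h : y = x <;> simp [h] <;> ring

lemma ic_sub (f g : ℕ → ℤ) (τ : ℕ) (w : List α) :
    ic P x (fun t => f t - g t) τ w = ic P x f τ w - ic P x g τ w := by
  induction w generalizing τ with
  | nil => simp [ic]
  | cons y w ih =>
    simp only [ic, ih]
    by_cases h : y = x <;> simp [h] <;> ring

lemma ic_const_mul (c : ℤ) (f : ℕ → ℤ) (τ : ℕ) (w : List α) :
    ic P x (fun t => c * f t) τ w = c * ic P x f τ w := by
  induction w generalizing τ with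
  | nil => simp [ic]
  | cons y w ih =>
    simp only [ic, ih]
    by_cases h : y = x <;> simp [h] <;> ring

lemma ic_finset_sum {ι : Type} (s : Finset ι) (F : ι → ℕ → ℤ) (τ : ℕ) (w : List α) :
    ic P x (fun t => ∑ i ∈ s, F i t) τ w = ∑ i ∈ s, ic P x (F i) τ w := by
  induction w generalizing τ with
  | nil => simp [ic]
  | cons y w ih =>
    simp only [ic, ih, Finset.sum_add_distrib]
    congr 1
    by_cases h : y = x <;> simp [h]

lemma ic_shift (f : ℕ → ℤ) (τ s : ℕ) (w : List α) :
    ic P x f (τ + s) w = ic P x (fun t => f (t + s)) τ w := by
  induction w generalizing τ with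
  | nil => simp [ic]
  | cons y w ih =>
    simp only [ic]
    have : τ + s + stp P y = (τ + stp P y) + s := by omega
    rw [this, ih]

lemma ic_period {f : ℕ → ℤ} {n : ℕ} (hf : ∀ t, f (t + n) = f t) (τ : ℕ) (w : List α) :
    ic P x f (τ + n) w = ic P x f τ w := by
  rw [ic_shift]
  congr 1
  funext t
  exact hf t

/-! ### Letters that do not move the phase -/

section neutral

variable {n : ℕ} [NeZero n]

/-- The phase carrier. -/
def phStep (τ : ZMod n) (y : α) : ZMod n := τ + (stp P y : ℕ)

lemma phase_run' (τ : ZMod n) (w : List α) :
    run (phStep P) τ w = τ + (((w.filter P).length : ℕ) : ZMod n) := by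
  induction w generalizing τ with
  | nil => simp
  | cons y w ih =>
    rw [run_cons, ih]
    by_cases h : P y = true
    · simp [phStep, stp, h, List.filter_cons]
      ring
    · have h' : P y = false := by simpa using h
      simp [phStep, stp, h', List.filter_cons]

/-- Arrivals at `t` by letters moving the phase, and, when `b` is on, the letter `x` read at `t`. -/
def phInc (t : ZMod n) (b : Bool) (τ : ZMod n) (y : α) : Bool :=
  decide (phStep P τ y = t) && (P y || (b && decide (y = x)))

lemma filter_length_vrep (v : List α) (j : ℕ) :
    ((vrep v j).filter P).length = j * (v.filter P).length := by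
  induction j with
  | zero => simp [vrep]
  | succ j ih =>
    simp only [vrep, List.filter_append, List.length_append, ih]
    ring

/-- The read of number `l` among the letters moving the phase. -/
lemma nth_read (W : List α) (l : ℕ) (hl : l < (W.filter P).length) :
    ∃ A y R, W = A ++ y :: R ∧ P y = true ∧ (A.filter P).length = l := by
  induction W generalizing l with
  | nil => simp at hl
  | cons z W ih =>
    by_cases h : P z = true
    · cases l with
      | zero => exact ⟨[], z, W, rfl, h, by simp⟩
      | succ l =>
        have hl' : l < (W.filter P).length := by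
          simp [List.filter_cons, h] at hl
          omega
        obtain ⟨A, y, R, rfl, h2, h3⟩ := ih l hl'
        exact ⟨z :: A, y, R, rfl, h2, by simp [List.filter_cons, h, h3]⟩
    · have h' : P z = false := by simpa using h
      have hl' : l < (W.filter P).length := by
        simpa [List.filter_cons, h'] using hl
      obtain ⟨A, y, R, rfl, h2, h3⟩ := ih l hl'
      exact ⟨z :: A, y, R, rfl, h2, by simp [List.filter_cons, h', h3]⟩

lemma run_no_move {v : List α} (hv : (v.filter P).length = 0) (τ : ZMod n) :
    run (phStep P) τ v = τ := by
  rw [phase_run', hv]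
  simp

lemma ph_hC (t : ZMod n) (b : Bool) (v : List α) (s : ZMod n) (k : ℕ) (hk : 0 < k)
    (h : run (phStep P) s (vrep v k) = s)
    (h0 : incCount (phStep P) (phInc P x t b) s (vrep v k) = 0) : run (phStep P) s v = s := by
  by_cases hv : (v.filter P).length = 0
  · exact run_no_move P hv s
  exfalso
  have hn : 0 < n := NeZero.pos n
  have hv' : 0 < (v.filter P).length := Nat.pos_of_ne_zero hv
  -- the read of number `l` arrives at `t`
  set l := (t - s - 1).val with hl
  have hl' : l < ((vrep v (l + 1)).filter P).length := by
    rw [filter_length_vrep]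
    nlinarith
  obtain ⟨A, y, R, hW, hy, hA⟩ := nth_read P _ l hl'
  have h1 := not_inc_at' (phStep P) (phInc P x t b) hk h h0 A R y (l + 1) hW.symm
  have h2 : phStep P (run (phStep P) s A) y = t := by
    rw [phase_run', hA]
    simp only [phStep, stp, hy, if_true]
    rw [hl, ZMod.natCast_zmod_val]
    push_cast
    ring
  simp [phInc, h2, hy] at h1

/-- The number of positions where `x` is read at the phase `t`. -/
lemma phInc_diff (t : ZMod n) (hx : P x = false) (τ : ℕ) (w : List α) :
    (incCount (phStep P) (phInc P x t true) (τ : ZMod n) w : ℤ) -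
      incCount (phStep P) (phInc P x t false) (τ : ZMod n) w =
    ic P x (fun i => if (i : ZMod n) = t then 1 else 0) τ w := by
  induction w generalizing τ with
  | nil => simp [incCount, ic]
  | cons y w ih =>
    have e : phStep P (τ : ZMod n) y = ((τ + stp P y : ℕ) : ZMod n) := by
      simp [phStep]
    simp only [incCount, ic, Nat.cast_add, e]
    have ih' := ih (τ + stp P y)
    have key : ((if phInc P x t true (τ : ZMod n) y then 1 else 0 : ℕ) : ℤ) -
        ((if phInc P x t false (τ : ZMod n) y then 1 else 0 : ℕ) : ℤ) =
        if y = x then (if ((τ : ℕ) : ZMod n) = t then 1 else 0) else 0 := by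
      by_cases hy : P y = true
      · have hyx : y ≠ x := by
          rintro rfl
          simp [hx] at hy
        simp [phInc, hy, hyx]
      · have hy' : P y = false := by simpa using hy
        by_cases hyx : y = x
        · subst hyx
          simp [phInc, phStep, stp, hx]
        · simp [phInc, phStep, stp, hy', hyx]
    simp only [Nat.cast_add] at ih'
    linarith

variable [Fintype α]

lemma az_indicator (t : ZMod n) (hx : P x = false) (τ : ℕ) :
    AZ (fun w : List α => ic P x (fun i => if (i : ZMod n) = t then 1 else 0) τ w) := by
  intro M _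
  have hs : ∀ (b : Bool) (s : ZMod n) (y : α), phInc P x t b s y = true → phStep P s y = t := by
    intro b s y h
    simp only [phInc, Bool.and_eq_true, decide_eq_true_eq] at h
    exact h.1
  have h1 := acc_incCount (M := M) (δ := phStep P) (inc := phInc P x t true) (s₀ := t) (hs true)
    (fun v s k hk h h0 => ph_hC P x t true v s k hk h h0) (τ : ZMod n)
  have h2 := acc_incCount (M := M) (δ := phStep P) (inc := phInc P x t false) (s₀ := t) (hs false)
    (fun v s k hk h h0 => ph_hC P x t false v s k hk h h0) (τ : ZMod n)
  have h3 := h1.sub h2
  convert h3 using 2 with w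
  have h4 := phInc_diff P x t hx τ w
  simp only []
  rw [← h4]
  push_cast
  rfl

theorem az_ic_neutral (hx : P x = false) {f : ℕ → ℤ} (hf : ∀ t, f (t + n) = f t) (τ : ℕ) :
    AZ (fun w : List α => ic P x f τ w) := by
  have h1 : f = fun i : ℕ => ∑ t : ZMod n, f t.val * (if (i : ZMod n) = t then 1 else 0) := by
    funext i
    rw [Finset.sum_eq_single (i : ZMod n)]
    · simp only [if_true, mul_one, ZMod.val_natCast]
      exact ((Function.Periodic.map_mod_nat (fun t => hf t)) i).symm
    · intro b _ hb
      simp [Ne.symm hb]
    · intro h
      exact absurd (Finset.mem_univ _) h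
  have h2 : AZ (fun w : List α => ∑ t : ZMod n, f t.val *
      ic P x (fun i => if (i : ZMod n) = t then 1 else 0) τ w) :=
    AZ.finset_sum _ (fun t _ => (az_indicator P x t hx τ).const_mul _)
  convert h2 using 2 with w
  conv_lhs => rw [h1]
  rw [ic_finset_sum]
  apply Finset.sum_congr rfl
  intro t _
  rw [ic_const_mul]

end neutral

/-! ### Letters that move the phase -/

section moving

variable (n : ℕ)

/-- One step of the carrier that remembers the block now being read. -/
def bstep (l : List α) (y : α) : List α :=
  if P y then (if l.length + 1 < n then l ++ [y] else []) else l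

lemma bstep_length_lt (hn : 0 < n) {l : List α} (hl : l.length < n) (y : α) :
    (bstep P n l y).length < n := by
  unfold bstep
  by_cases h1 : P y = true
  · by_cases h2 : l.length + 1 < n
    · simp [h1, h2]
    · simp [h1, h2, hn]
  · simp [h1, hl]

/-- Completions of blocks move the counter, except the blocks declared exempt by `E`. -/
def binc (E : List α → Bool) (l : List α) (y : α) : Bool :=
  P y && decide (n ≤ l.length + 1) && !(E (l ++ [y]))

variable {n}

lemma bstep_dich (v : List α) (l : List α) (hl : l.length < n) :
    (run (bstep P n) l v = l ++ v.filter P ∧ l.length + (v.filter P).length < n) ∨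
      ∀ l' : List α, l'.length = l.length → run (bstep P n) l' v = run (bstep P n) l v := by
  induction v generalizing l with
  | nil =>
    left
    simpa using hl
  | cons y v ih =>
    by_cases h1 : P y = true
    · by_cases h2 : l.length + 1 < n
      · have hb : bstep P n l y = l ++ [y] := by simp [bstep, h1, h2]
        rcases ih (l ++ [y]) (by simpa using h2) with ⟨h3, h4⟩ | h3
        · left
          refine ⟨by rw [run_cons, hb, h3]; simp [List.filter_cons, h1], ?_⟩
          simp only [List.length_append, List.length_cons, List.length_nil] at h4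
          simp only [List.filter_cons, h1, if_true, List.length_cons]
          omega
        · right
          intro l' hl'
          have hb' : bstep P n l' y = l' ++ [y] := by simp [bstep, h1, hl', h2]
          rw [run_cons, run_cons, hb, hb']
          exact h3 _ (by simp [hl'])
      · right
        intro l' hl'
        simp [bstep, h1, h2, hl']
    · have h1' : P y = false := by simpa using h1
      have hb : ∀ l : List α, bstep P n l y = l := by intro l; simp [bstep, h1']
      rcases ih l hl with ⟨h3, h4⟩ | h3
      · left
        simp only [run_cons, hb, h3, List.filter_cons, h1', Bool.false_eq_true, if_false]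
        exact ⟨trivial, h4⟩
      · right
        intro l' hl'
        simp only [run_cons, hb]
        exact h3 l' hl'

lemma run_length (hn : 0 < n) (v : List α) (l : List α) (hl : l.length < n) :
    (run (bstep P n) l v).length < n ∧
      (run (bstep P n) l v).length % n = (l.length + (v.filter P).length) % n := by
  induction v generalizing l with
  | nil => simp [hl]
  | cons y v ih =>
    rw [run_cons]
    obtain ⟨h1, h2⟩ := ih (bstep P n l y) (bstep_length_lt P n hn hl y)
    refine ⟨h1, ?_⟩
    rw [h2]
    by_cases h3 : P y = true
    · by_cases h4 : l.length + 1 < n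
      · have hb : bstep P n l y = l ++ [y] := by simp [bstep, h3, h4]
        rw [hb]
        simp only [List.length_append, List.length_cons, List.length_nil, List.filter_cons, h3,
          if_true]
        congr 1
        omega
      · have hb : bstep P n l y = [] := by simp [bstep, h3, h4]
        rw [hb]
        simp only [List.length_nil, List.filter_cons, h3, if_true, List.length_cons]
        have : l.length + ((v.filter P).length + 1) = n + (v.filter P).length := by omega
        rw [this]
        simp
    · have h3' : P y = false := by simpa using h3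
      have hb : bstep P n l y = l := by simp [bstep, h3']
      rw [hb]
      simp [List.filter_cons, h3']

lemma stationary_b (hn : 0 < n) (v : List α) (l : List α) (hl : l.length < n)
    (hv : n ∣ (v.filter P).length) (k : ℕ) (hk : 0 < k)
    (h : run (bstep P n) l (vrep v k) = l) : run (bstep P n) l v = l := by
  rcases bstep_dich P v l hl with ⟨h1, h2⟩ | h1
  · have h3 : (v.filter P).length = 0 := by
      by_contra h4
      have := Nat.le_of_dvd (Nat.pos_of_ne_zero h4) hv
      omega
    rw [h1, List.length_eq_zero_iff.mp h3]
    simp
  · obtain ⟨h2, h3⟩ := run_length P hn v l hl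
    have h4 : (run (bstep P n) l v).length = l.length := by
      obtain ⟨c, hc⟩ := hv
      rw [hc, Nat.add_mul_mod_self_left, Nat.mod_eq_of_lt hl, Nat.mod_eq_of_lt h2] at h3
      exact h3
    have h5 : ∀ j, run (bstep P n) l (vrep v (j + 1)) = run (bstep P n) l v := by
      intro j
      induction j with
      | zero => simp [vrep]
      | succ j ih =>
        have e : vrep v (j + 1 + 1) = vrep v (j + 1) ++ v := by
          rw [vrep_add]
          simp [vrep]
        rw [e, run_append, ih]
        exact h1 _ h4
    obtain ⟨k', rfl⟩ : ∃ k', k = k' + 1 := ⟨k - 1, by omega⟩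
    rw [← h5 k', h]

/-- The first completion of a block. -/
lemma first_completion (W : List α) (l : List α) (hl : l.length < n)
    (h : n ≤ l.length + (W.filter P).length) :
    ∃ C z D, W = C ++ z :: D ∧ P z = true ∧ l.length + (C.filter P).length + 1 = n ∧
      run (bstep P n) l C = l ++ C.filter P := by
  induction W generalizing l with
  | nil => simp at h; omega
  | cons y W ih =>
    by_cases h1 : P y = true
    · by_cases h2 : l.length + 1 < n
      · have hb : bstep P n l y = l ++ [y] := by simp [bstep, h1, h2]
        obtain ⟨C, z, D, h3, h4, h5, h6⟩ := ih (l ++ [y]) (by simpa using h2) (by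
          simp only [List.filter_cons, h1, if_true, List.length_cons] at h
          simp only [List.length_append, List.length_cons, List.length_nil]
          omega)
        refine ⟨y :: C, z, D, by rw [h3]; rfl, h4, ?_, ?_⟩
        · simp only [List.length_append, List.length_cons, List.length_nil] at h5
          simp only [List.filter_cons, h1, if_true, List.length_cons]
          omega
        · rw [run_cons, hb, h6]
          simp [List.filter_cons, h1]
      · exact ⟨[], y, W, rfl, h1, by simp; omega, by simp⟩
    · have h1' : P y = false := by simpa using h1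
      have hb : bstep P n l y = l := by simp [bstep, h1']
      obtain ⟨C, z, D, h3, h4, h5, h6⟩ := ih l hl (by simpa [List.filter_cons, h1'] using h)
      refine ⟨y :: C, z, D, by rw [h3]; rfl, h4, ?_, ?_⟩
      · simpa [List.filter_cons, h1'] using h5
      · rw [run_cons, hb, h6]
        simp [List.filter_cons, h1']

/-- When no block is exempt, the automaton is good. -/
lemma hC_plain (hn : 0 < n) (v : List α) (l : List α) (hl : l.length < n) (k : ℕ) (hk : 0 < k)
    (h : run (bstep P n) l (vrep v k) = l)
    (h0 : incCount (bstep P n) (binc P n (fun _ => false)) l (vrep v k) = 0) :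
    run (bstep P n) l v = l := by
  by_cases hv : n ∣ (v.filter P).length
  · exact stationary_b P hn v l hl hv k hk h
  exfalso
  have hm : 0 < (v.filter P).length := by
    apply Nat.pos_of_ne_zero
    intro h1
    rw [h1] at hv
    exact hv (dvd_zero n)
  obtain ⟨C, z, D, h1, h2, h3, h4⟩ := first_completion P (vrep v n) l hl (by
    rw [filter_length_vrep]
    nlinarith)
  have h5 := not_inc_at' (bstep P n) (binc P n (fun _ => false)) hk h h0 C D z n h1.symm
  rw [h4] at h5
  simp only [binc, h2, Bool.true_and, Bool.not_false, Bool.and_true, decide_eq_false_iff_not] at h5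
  simp only [List.length_append] at h5
  omega

lemma per_mul {β : Type} {cf : ℕ → β} (hper : ∀ i, cf (i + n) = cf i) (a t : ℕ) :
    cf (a + n * t) = cf a := by
  induction t with
  | zero => simp
  | succ t ih =>
    rw [Nat.mul_succ, ← Nat.add_assoc, hper, ih]

lemma per_mod {β : Type} {cf : ℕ → β} (hper : ∀ i, cf (i + n) = cf i) {a b : ℕ}
    (h : a % n = b % n) : cf a = cf b := by
  rw [← Nat.mod_add_div a n, ← Nat.mod_add_div b n, per_mul hper, per_mul hper, h]

section matching

variable {c₀ : List α} {cf : ℕ → α} (hper : ∀ i, cf (i + n) = cf i)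
  (hc₀ : ∀ i, i < n → c₀[i]? = some (cf i))

include hper hc₀ in
/-- All letters read along a closed run without move of the counter agree with the exempt block. -/
lemma read_match (hn : 0 < n) (v : List α) (l : List α) (hl : l.length < n) (k : ℕ) (hk : 0 < k)
    (hm : 0 < (v.filter P).length)
    (h : run (bstep P n) l (vrep v k) = l)
    (h0 : incCount (bstep P n) (binc P n (fun b => decide (b = c₀))) l (vrep v k) = 0)
    (j : ℕ) (A : List α) (y : α) (R : List α) (hA : A ++ y :: R = vrep v j) (hy : P y = true) :
    y = cf (l.length + (A.filter P).length) := by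
  obtain ⟨hq, hq'⟩ := run_length P hn A l hl
  set q := run (bstep P n) l A with hqdef
  obtain ⟨C, z, D, h1, h2, h3, h4⟩ := first_completion P (y :: (R ++ vrep v n)) q hq (by
    simp only [List.filter_cons, hy, if_true, List.length_cons, List.filter_append,
      List.length_append]
    rw [filter_length_vrep]
    nlinarith)
  have hword : (A ++ C) ++ z :: D = vrep v (j + n) := by
    rw [vrep_add, ← hA]
    simp only [List.append_assoc]
    congr 1
    rw [← h1]
    simp
  have h5 := not_inc_at' (bstep P n) (binc P n (fun b => decide (b = c₀))) hk h h0 (A ++ C) D z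
    (j + n) hword
  rw [run_append, ← hqdef, h4] at h5
  have hcomp : n ≤ (q ++ C.filter P).length + 1 := by
    simp only [List.length_append]
    omega
  simp only [binc, h2, Bool.true_and, hcomp, decide_true, Bool.not_eq_false', decide_eq_true_eq]
    at h5
  have h6 : c₀[q.length]? = some y := by
    rw [← h5]
    cases C with
    | nil =>
      simp only [List.nil_append, List.cons.injEq] at h1
      simp [h1.1]
    | cons c C =>
      simp only [List.cons_append, List.cons.injEq] at h1
      have : c = y := h1.1.symm
      subst this
      simp [List.filter_cons, hy]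
  rw [hc₀ _ hq] at h6
  have h7 : y = cf q.length := (Option.some.inj h6).symm
  rw [h7]
  exact per_mod hper hq'

include hper hc₀ in
lemma hC_exempt (hprim : ∀ m, (∀ i, cf (i + m) = cf i) → n ∣ m)
    (hn : 0 < n) (v : List α) (l : List α) (hl : l.length < n) (k : ℕ) (hk : 0 < k)
    (h : run (bstep P n) l (vrep v k) = l)
    (h0 : incCount (bstep P n) (binc P n (fun b => decide (b = c₀))) l (vrep v k) = 0) :
    run (bstep P n) l v = l := by
  by_cases hv : n ∣ (v.filter P).length
  · exact stationary_b P hn v l hl hv k hk h
  exfalso
  have hm : 0 < (v.filter P).length := by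
    apply Nat.pos_of_ne_zero
    intro h1
    rw [h1] at hv
    exact hv (dvd_zero n)
  apply hv
  apply hprim
  intro i
  set i' := i + n * l.length with hi'
  have hle : l.length ≤ i' := by
    have : l.length ≤ n * l.length := Nat.le_mul_of_pos_left _ hn
    omega
  set t := i' - l.length with ht
  have hl' : t < ((vrep v (t + 1)).filter P).length := by
    rw [filter_length_vrep]
    nlinarith
  obtain ⟨A, y, R, hW, hy, hA⟩ := nth_read P _ t hl'
  have h1 := read_match P hper hc₀ hn v l hl k hk hm h h0 (t + 1) A y R hW.symm hy
  have h2 := read_match P hper hc₀ hn v l hl k hk hm h h0 (1 + (t + 1)) (v ++ A) y R (by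
    rw [vrep_add, hW]
    simp [vrep]) hy
  rw [hA] at h1
  simp only [List.filter_append, List.length_append, hA] at h2
  have e1 : l.length + t = i' := by omega
  have e2 : l.length + ((v.filter P).length + t) = i' + (v.filter P).length := by omega
  rw [e1] at h1
  rw [e2] at h2
  have e3 : cf i' = cf i := per_mul hper i _
  have e4 : cf (i' + (v.filter P).length) = cf (i + (v.filter P).length) := by
    have : i' + (v.filter P).length = i + (v.filter P).length + n * l.length := by omega
    rw [this]
    exact per_mul hper _ _
  rw [← e4, ← h2, h1, e3]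

end matching

/-- The number of completions of the block `c`. -/
def Xc (n : ℕ) (c l : List α) (w : List α) : ℤ :=
  (incCount (bstep P n) (binc P n (fun _ => false)) l w : ℤ) -
    incCount (bstep P n) (binc P n (fun b => decide (b = c))) l w

lemma Xc_nil (c l : List α) : Xc P n c l [] = 0 := by simp [Xc, incCount]

lemma Xc_cons (c l : List α) (y : α) (w : List α) :
    Xc P n c l (y :: w) = (if P y = true ∧ n ≤ l.length + 1 ∧ l ++ [y] = c then 1 else 0) +
      Xc P n c (bstep P n l y) w := by
  simp only [Xc, incCount]
  have key : ((if binc P n (fun _ => false) l y then 1 else 0 : ℕ) : ℤ) -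
      ((if binc P n (fun b => decide (b = c)) l y then 1 else 0 : ℕ) : ℤ) =
      if P y = true ∧ n ≤ l.length + 1 ∧ l ++ [y] = c then 1 else 0 := by
    by_cases h1 : P y = true
    · by_cases h2 : n ≤ l.length + 1
      · by_cases h3 : l ++ [y] = c
        · simp [binc, h1, h2, h3]
        · simp [binc, h1, h2, h3]
      · simp [binc, h1, h2]
    · simp [binc, h1]
  push_cast at key ⊢
  linarith

/-- The sum over the positions of `x` in a list, the phase moving at all letters. -/
def ib (x : α) (f : ℕ → ℤ) : ℕ → List α → ℤ
  | _, [] => 0
  | τ, y :: w => (if y = x then f τ else 0) + ib x f (τ + 1) w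

lemma ib_snoc (f : ℕ → ℤ) (u : List α) (y : α) (τ : ℕ) :
    ib x f τ (u ++ [y]) = ib x f τ u + (if y = x then f (τ + u.length) else 0) := by
  induction u generalizing τ with
  | nil => simp [ib]
  | cons a u ih =>
    simp only [List.cons_append, ib, ih, List.length_cons]
    have : τ + 1 + u.length = τ + (u.length + 1) := by omega
    rw [this]
    ring

lemma ib_range (f : ℕ → ℤ) (cf : ℕ → α) (n : ℕ) :
    ib x f 0 ((List.range n).map cf) = ∑ i ∈ Finset.range n, if cf i = x then f i else 0 := by
  induction n with
  | zero => simp [ib]
  | succ n ih =>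
    rw [List.range_succ, List.map_append, List.map_singleton, ib_snoc, ih, Finset.sum_range_succ]
    simp

/-- The block of a function on `Fin n`, seen as a periodic function on the natural numbers. -/
def cfn (hn : 0 < n) (c : Fin n → α) (i : ℕ) : α := c ⟨i % n, Nat.mod_lt _ hn⟩

lemma cfn_period (hn : 0 < n) (c : Fin n → α) (i : ℕ) : cfn hn c (i + n) = cfn hn c i := by
  simp [cfn]

/-- The block of a function on `Fin n`, as a list. -/
def bl (hn : 0 < n) (c : Fin n → α) : List α := (List.range n).map (cfn hn c)

lemma bl_getElem? (hn : 0 < n) (c : Fin n → α) (i : ℕ) (hi : i < n) :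
    (bl hn c)[i]? = some (cfn hn c i) := by
  simp [bl, hi]

lemma bl_inj (hn : 0 < n) {c c' : Fin n → α} (h : bl hn c = bl hn c') : c = c' := by
  funext i
  have h1 := bl_getElem? hn c i.1 i.2
  rw [h, bl_getElem? hn c' i.1 i.2] at h1
  have h2 : cfn hn c' i.1 = cfn hn c i.1 := Option.some.inj h1
  simp only [cfn, Nat.mod_eq_of_lt i.2] at h2
  exact h2.symm

lemma bl_surj (hn : 0 < n) (b : List α) (hb : b.length = n) : ∃ c, bl hn c = b := by
  refine ⟨fun i => b[i.1]'(by rw [hb]; exact i.2), ?_⟩
  apply List.ext_getElem?
  intro i
  by_cases hi : i < n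
  · rw [bl_getElem? hn _ i hi]
    simp only [cfn, Nat.mod_eq_of_lt hi]
    rw [List.getElem?_eq_getElem (by rw [hb]; exact hi)]
  · have h1 : n ≤ i := by omega
    rw [List.getElem?_eq_none (by simpa [bl] using h1), List.getElem?_eq_none (by rw [hb]; exact h1)]

lemma sum_blocks [Fintype α] (hn : 0 < n) (f : ℕ → ℤ) (b : List α) (hb : b.length = n) :
    ∑ c : Fin n → α, ib x f 0 (bl hn c) * (if b = bl hn c then 1 else 0) = ib x f 0 b := by
  classical
  obtain ⟨c, rfl⟩ := bl_surj hn b hb
  rw [Finset.sum_eq_single c]
  · simp
  · intro c' _ hc'
    have : ¬ bl hn c = bl hn c' := fun h => hc' (bl_inj hn h).symm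
    simp [this]
  · intro h
    exact absurd (Finset.mem_univ _) h

/-- The word, cut into blocks. -/
lemma ident [Fintype α] (hn : 0 < n) (hPx : P x = true) {f : ℕ → ℤ} (hf : ∀ t, f (t + n) = f t)
    (w : List α) (l : List α) (hl : l.length < n) :
    ic P x f l.length w + ib x f 0 l =
      ∑ c : Fin n → α, ib x f 0 (bl hn c) * Xc P n (bl hn c) l w +
        ib x f 0 (run (bstep P n) l w) := by
  induction w generalizing l with
  | nil => simp [ic, Xc_nil]
  | cons y w ih =>
    simp only [Xc_cons, ic, run_cons, mul_add, Finset.sum_add_distrib]
    by_cases h1 : P y = true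
    · by_cases h2 : l.length + 1 < n
      · have hb : bstep P n l y = l ++ [y] := by simp [bstep, h1, h2]
        have h3 := ih (l ++ [y]) (by simpa using h2)
        rw [hb]
        have e : ∀ c : Fin n → α,
            (if P y = true ∧ n ≤ l.length + 1 ∧ l ++ [y] = bl hn c then (1 : ℤ) else 0) = 0 := by
          intro c
          rw [if_neg]
          omega
        simp only [e, mul_zero, Finset.sum_const_zero, zero_add]
        have e2 : stp P y = 1 := by simp [stp, h1]
        rw [e2]
        rw [ib_snoc] at h3
        simp only [List.length_append, List.length_cons, List.length_nil, zero_add] at h3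
        rw [← h3]
        ring
      · have hb : bstep P n l y = [] := by simp [bstep, h1, h2]
        have h3 := ih [] hn
        rw [hb]
        have e2 : stp P y = 1 := by simp [stp, h1]
        have e3 : l.length + 1 = n := by omega
        rw [e2, e3]
        have e4 : ic P x f n w = ic P x f 0 w := by
          have := ic_period P x hf 0 w
          simpa using this
        rw [e4]
        simp only [List.length_nil, ib, add_zero] at h3
        have e5 : ∀ c : Fin n → α,
            (if P y = true ∧ n ≤ n ∧ l ++ [y] = bl hn c then (1 : ℤ) else 0) =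
              if l ++ [y] = bl hn c then 1 else 0 := by
          intro c
          simp [h1]
        simp only [e5]
        rw [sum_blocks x hn f (l ++ [y]) (by simpa using e3), ib_snoc, h3]
        try simp only [zero_add]
        ring
    · have h1' : P y = false := by simpa using h1
      have hb : bstep P n l y = l := by simp [bstep, h1']
      have h3 := ih l hl
      rw [hb]
      have hyx : y ≠ x := by
        rintro rfl
        simp [h1'] at hPx
      have e : ∀ c : Fin n → α,
          (if P y = true ∧ n ≤ l.length + 1 ∧ l ++ [y] = bl hn c then (1 : ℤ) else 0) = 0 := by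
        intro c
        rw [if_neg]
        simp [h1']
      simp only [e, mul_zero, Finset.sum_const_zero, zero_add, hyx, if_false]
      have e2 : stp P y = 0 := by simp [stp, h1']
      rw [e2, add_zero]
      exact h3

/-! ### The operators -/

/-- The sum over the subgroup generated by `g`. -/
def Top (n g : ℕ) (f : ℕ → ℤ) (t : ℕ) : ℤ := ∑ j ∈ Finset.range (n / g), f (t + j * g)

lemma sum_shift {h : ℕ → ℤ} (hper : ∀ i, h (i + n) = h i) (s : ℕ) :
    ∑ i ∈ Finset.range n, h (i + s) = ∑ i ∈ Finset.range n, h i := by
  induction s with
  | zero => simp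
  | succ s ih =>
    rw [← ih]
    have h1 := Finset.sum_range_succ (fun i => h (i + s)) n
    have h2 := Finset.sum_range_succ' (fun i => h (i + s)) n
    have h3 : h (n + s) = h (0 + s) := by
      rw [zero_add, Nat.add_comm n s]
      exact hper s
    beta_reduce at h1 h2
    have e : ∀ i, h (i + 1 + s) = h (i + (s + 1)) := fun i => by
      congr 1
      omega
    simp only [e] at h2
    rw [h3] at h1
    linarith

lemma Top_period {f : ℕ → ℤ} {g : ℕ} (hf : ∀ t, f (t + n) = f t) (hg : g ∣ n) (hn : 0 < n) (t : ℕ) :
    Top n g f (t + g) = Top n g f t := by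
  obtain ⟨e, rfl⟩ := hg
  have hg0 : 0 < g := Nat.pos_of_mul_pos_right hn |> fun _ => by
    by_contra h0
    have : g = 0 := by omega
    simp [this] at hn
  have he : (g * e) / g = e := Nat.mul_div_cancel_left e hg0
  simp only [Top, he]
  have hper : ∀ j, f (t + (j + e) * g) = f (t + j * g) := by
    intro j
    have : t + (j + e) * g = t + j * g + g * e := by ring
    rw [this, hf]
  have := sum_shift (h := fun j => f (t + j * g)) (n := e) hper 1
  beta_reduce at this
  rw [← this]
  apply Finset.sum_congr rfl
  intro j _
  congr 1
  ring

lemma Top_Top {f : ℕ → ℤ} {g : ℕ} (hf : ∀ t, f (t + n) = f t) (hg : g ∣ n) (hn : 0 < n) (t : ℕ) :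
    Top n g (Top n g f) t = (n / g : ℕ) * Top n g f t := by
  have h1 : ∀ j, Top n g f (t + j * g) = Top n g f t := by
    intro j
    induction j with
    | zero => simp
    | succ j ih =>
      have : t + (j + 1) * g = t + j * g + g := by ring
      rw [this, Top_period hf hg hn, ih]
  simp only [Top] at h1 ⊢
  rw [Finset.sum_congr rfl (fun j _ => h1 j)]
  simp

lemma Top_comm (g g' : ℕ) (f : ℕ → ℤ) (t : ℕ) :
    Top n g (Top n g' f) t = Top n g' (Top n g f) t := by
  simp only [Top]
  rw [Finset.sum_comm]
  apply Finset.sum_congr rfl
  intro j _
  apply Finset.sum_congr rfl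
  intro j' _
  congr 1
  ring

/-- Functions with vanishing sums over subgroups do not see the blocks which are not primitive. -/
lemma vanish {cf : ℕ → α} (hn : 0 < n) (hc : ∀ i, cf (i + n) = cf i) {f : ℕ → ℤ}
    (hf : ∀ t, f (t + n) = f t) {m : ℕ} (hm : ¬ n ∣ m) (hinv : ∀ i, cf (i + m) = cf i)
    (hT : ∀ g, g ∣ n → g < n → ∀ t, Top n g f t = 0) :
    ∑ i ∈ Finset.range n, (if cf i = x then f i else 0) = 0 := by
  set g := Nat.gcd m n with hgdef
  have hgn : g ∣ n := Nat.gcd_dvd_right m n
  have hg0 : 0 < g := Nat.gcd_pos_of_pos_right m hn
  have hglt : g < n := by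
    have h1 : g ≤ n := Nat.le_of_dvd hn hgn
    rcases h1.lt_or_eq with h | h
    · exact h
    · exfalso
      apply hm
      have : g ∣ m := Nat.gcd_dvd_left m n
      rwa [h] at this
  obtain ⟨a, -, ha⟩ := Nat.exists_mul_mod_eq_gcd hglt
  have hinv_m : ∀ (b i : ℕ), cf (i + m * b) = cf i := by
    intro b
    induction b with
    | zero => simp
    | succ b ih =>
      intro i
      have : i + m * (b + 1) = (i + m) + m * b := by ring
      rw [this, ih, hinv]
  have hinv_g : ∀ i, cf (i + g) = cf i := by
    intro i
    rw [← hinv_m a i]
    apply per_mod hc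
    have ha' : m * a % n = g := ha
    rw [Nat.add_mod i g, Nat.add_mod i (m * a), ha', Nat.mod_eq_of_lt hglt]
  have hinv_j : ∀ (j i : ℕ), cf (i + j * g) = cf i := by
    intro j
    induction j with
    | zero => simp
    | succ j ih =>
      intro i
      have : i + (j + 1) * g = (i + j * g) + g := by ring
      rw [this, hinv_g, ih]
  set e := n / g with he
  have hge : e * g = n := Nat.div_mul_cancel hgn
  have he0 : 0 < e := Nat.div_pos (Nat.le_of_dvd hn hgn) hg0
  have key : (e : ℤ) * ∑ i ∈ Finset.range n, (if cf i = x then f i else 0) = 0 := by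
    have h1 : ∀ j, ∑ i ∈ Finset.range n, (if cf i = x then f (i + j * g) else 0) =
        ∑ i ∈ Finset.range n, (if cf i = x then f i else 0) := by
      intro j
      have h2 := sum_shift (h := fun i => if cf i = x then f i else 0) (n := n)
        (by intro i; simp only [hc, hf]) (j * g)
      rw [← h2]
      apply Finset.sum_congr rfl
      intro i _
      simp only [hinv_j]
    have h3 : ∑ j ∈ Finset.range e, ∑ i ∈ Finset.range n, (if cf i = x then f (i + j * g) else 0) =
        (e : ℤ) * ∑ i ∈ Finset.range n, (if cf i = x then f i else 0) := by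
      rw [Finset.sum_congr rfl (fun j _ => h1 j)]
      simp
    rw [← h3, Finset.sum_comm]
    apply Finset.sum_eq_zero
    intro i _
    by_cases h4 : cf i = x
    · simp only [h4, if_true]
      exact hT g hgn hglt i
    · simp [h4]
  have he1 : (e : ℤ) ≠ 0 := by exact_mod_cast he0.ne'
  exact (mul_eq_zero.mp key).resolve_left he1

/-! ### The automaton on lists of bounded length -/

/-- The states: lists shorter than `n`. -/
abbrev Pl (α : Type) (n : ℕ) : Type := {l : List α // l.length < n}

instance [Finite α] : Finite (Pl α n) :=
  (List.finite_length_lt α n).to_subtype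

/-- The step on states. -/
def bδ (hn : 0 < n) (s : Pl α n) (y : α) : Pl α n :=
  ⟨bstep P n s.1 y, bstep_length_lt P n hn s.2 y⟩

/-- The move of the counter on states. -/
def bi (E : List α → Bool) (s : Pl α n) (y : α) : Bool := binc P n E s.1 y

lemma bδ_run (hn : 0 < n) (s : Pl α n) (w : List α) :
    (run (bδ P hn) s w).1 = run (bstep P n) s.1 w := by
  induction w generalizing s with
  | nil => rfl
  | cons y w ih =>
    rw [run_cons, run_cons, ih]
    rfl

lemma bi_count (hn : 0 < n) (E : List α → Bool) (s : Pl α n) (w : List α) :
    incCount (bδ P hn) (bi P E) s w = incCount (bstep P n) (binc P n E) s.1 w := by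
  induction w generalizing s with
  | nil => rfl
  | cons y w ih =>
    simp only [incCount, ih]
    rfl

lemma bi_target (hn : 0 < n) (E : List α → Bool) (s : Pl α n) (y : α) (h : bi P E s y = true) :
    bδ P hn s y = (⟨[], hn⟩ : Pl α n) := by
  apply Subtype.ext
  simp only [bi, binc, Bool.and_eq_true, decide_eq_true_eq] at h
  have h1 : ¬ s.1.length + 1 < n := by omega
  simp [bδ, bstep, h.1.1, h1]

variable [Fintype α]

lemma acc_run_b (hn : 0 < n) (s : Pl α n) : Acc (fun w : List α => run (bδ P hn) s w) := by
  refine acc_run_carrier (inc := bi P (fun _ => false)) (s₀ := (⟨[], hn⟩ : Pl α n))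
    (bi_target P hn _) ?_ s
  intro v s k hk h h0
  apply Subtype.ext
  rw [bδ_run]
  rw [bi_count] at h0
  exact hC_plain P hn v s.1 s.2 k hk (by rw [← bδ_run P hn, h]) h0

lemma az_inc0 (hn : 0 < n) (s : Pl α n) :
    AZ (fun w : List α => (incCount (bstep P n) (binc P n (fun _ => false)) s.1 w : ℤ)) := by
  intro M _
  have h1 := acc_incCount (M := M) (δ := bδ P hn) (inc := bi P (fun _ => false))
    (s₀ := (⟨[], hn⟩ : Pl α n)) (bi_target P hn _) (by
      intro v s k hk h h0
      apply Subtype.ext
      rw [bδ_run]
      rw [bi_count] at h0
      exact hC_plain P hn v s.1 s.2 k hk (by rw [← bδ_run P hn, h]) h0) s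
  simp only [bi_count] at h1
  simpa using h1

lemma az_Xc (hn : 0 < n) (c : Fin n → α) (hprim : ∀ m, (∀ i, cfn hn c (i + m) = cfn hn c i) → n ∣ m)
    (s : Pl α n) : AZ (fun w : List α => Xc P n (bl hn c) s.1 w) := by
  have h2 : AZ (fun w : List α =>
      (incCount (bstep P n) (binc P n (fun b => decide (b = bl hn c))) s.1 w : ℤ)) := by
    intro M _
    have h1 := acc_incCount (M := M) (δ := bδ P hn) (inc := bi P (fun b => decide (b = bl hn c)))
      (s₀ := (⟨[], hn⟩ : Pl α n)) (bi_target P hn _) (by
        intro v s k hk h h0
        apply Subtype.ext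
        rw [bδ_run]
        rw [bi_count] at h0
        exact hC_exempt P (cfn_period hn c) (fun i hi => bl_getElem? hn c i hi) hprim hn v s.1 s.2 k
          hk (by rw [← bδ_run P hn, h]) h0) s
    simp only [bi_count] at h1
    simpa using h1
  exact (az_inc0 P hn s).sub h2

/-- Functions with vanishing sums over all proper nontrivial subgroups are reached directly. -/
lemma az_primitive (hn : 0 < n) (hPx : P x = true) {f : ℕ → ℤ} (hf : ∀ t, f (t + n) = f t)
    (hT : ∀ g, g ∣ n → g < n → ∀ t, Top n g f t = 0) :
    AZ (fun w : List α => ic P x f 0 w) := by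
  classical
  have h1 : AZ (fun w : List α => ∑ c : Fin n → α, ib x f 0 (bl hn c) * Xc P n (bl hn c) [] w) := by
    apply AZ.finset_sum
    intro c _
    by_cases hprim : ∀ m, (∀ i, cfn hn c (i + m) = cfn hn c i) → n ∣ m
    · exact (az_Xc P hn c hprim ⟨[], hn⟩).const_mul _
    · push Not at hprim
      obtain ⟨m, hm1, hm2⟩ := hprim
      have h2 : ib x f 0 (bl hn c) = 0 := by
        rw [bl, ib_range]
        exact vanish x hn (cfn_period hn c) hf hm2 hm1 hT
      simp only [h2, zero_mul]
      exact AZ.const 0
  have h3 : AZ (fun w : List α => ib x f 0 (run (bstep P n) [] w)) := by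
    intro M _
    have h4 := (acc_run_b P hn (⟨[], hn⟩ : Pl α n)).comp (fun s => ((ib x f 0 s.1 : ℤ) : ZMod M))
    convert h4 using 2 with w
    have e := bδ_run P hn (⟨[], hn⟩ : Pl α n) w
    simp only at e ⊢
    rw [e]
  convert h1.add h3 using 2 with w
  have h5 := ident P x hn hPx hf w [] hn
  simpa [ib] using h5

/-- The main result for letters that move the phase. -/
theorem az_ic_moving (hPx : P x = true) (n : ℕ) (hn : 0 < n) :
    ∀ f : ℕ → ℤ, (∀ t, f (t + n) = f t) → AZ (fun w : List α => ic P x f 0 w) := by
  induction n using Nat.strong_induction_on with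
  | _ n IH =>
    have peel : ∀ Q : Finset ℕ, ∀ f : ℕ → ℤ, (∀ t, f (t + n) = f t) →
        (∀ g, g ∣ n → g < n → g ∉ Q → ∀ t, Top n g f t = 0) →
        AZ (fun w : List α => ic P x f 0 w) := by
      intro Q
      induction Q using Finset.induction_on with
      | empty =>
        intro f hf hT
        exact az_primitive P x hn hPx hf (fun g hg hlt t => hT g hg hlt (by simp) t)
      | insert g₀ Q hg₀ ih =>
        intro f hf hT
        by_cases hd : g₀ ∣ n ∧ g₀ < n
        · obtain ⟨hd1, hd2⟩ := hd
          have hg0 : 0 < g₀ := Nat.pos_of_dvd_of_pos hd1 hn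
          set e := n / g₀ with he
          have he0 : 0 < e := Nat.div_pos (Nat.le_of_dvd hn hd1) hg0
          have hTper : ∀ t, Top n g₀ f (t + g₀) = Top n g₀ f t := fun t => Top_period hf hd1 hn t
          have hTper' : ∀ t, Top n g₀ f (t + n) = Top n g₀ f t := by
            intro t
            have hmul : ∀ a t, Top n g₀ f (t + g₀ * a) = Top n g₀ f t := fun a t =>
              per_mul hTper t a
            obtain ⟨c, hc⟩ := hd1
            have e5 : t + n = t + g₀ * c := by rw [← hc]
            rw [e5]
            exact hmul c t
          set f' : ℕ → ℤ := fun t => (e : ℤ) * f t - Top n g₀ f t with hf'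
          have hf'per : ∀ t, f' (t + n) = f' t := by
            intro t
            simp only [hf', hf, hTper']
          have h1 : AZ (fun w : List α => ic P x f' 0 w) := by
            apply ih f' hf'per
            intro g hg hlt hgQ t
            by_cases hgg : g = g₀
            · subst hgg
              have e1 : Top n g f' t = (e : ℤ) * Top n g f t - Top n g (Top n g f) t := by
                simp only [Top, hf', Finset.sum_sub_distrib, Finset.mul_sum]
              rw [e1, Top_Top hf hg hn]
              ring
            · have hT' : ∀ t, Top n g f t = 0 := hT g hg hlt (by simp [hgg, hgQ])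
              have e1 : Top n g f' t = (e : ℤ) * Top n g f t - Top n g (Top n g₀ f) t := by
                simp only [Top, hf', Finset.sum_sub_distrib, Finset.mul_sum]
              rw [e1, Top_comm, hT' t]
              have : Top n g₀ (Top n g f) t = 0 := by
                simp only [Top] at hT' ⊢
                simp [hT']
              rw [this]
              ring
          have h2 : AZ (fun w : List α => ic P x (Top n g₀ f) 0 w) :=
            IH g₀ hd2 hg0 _ hTper
          apply AZ.cancel (c := e) he0
          convert h1.add h2 using 2 with w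
          rw [← ic_const_mul]
          have : (fun t => (e : ℤ) * f t) = fun t => f' t + Top n g₀ f t := by
            funext t
            simp [hf']
          rw [this, ic_add]
        · apply ih f hf
          intro g hg hlt hgQ t
          apply hT g hg hlt _ t
          simp only [Finset.mem_insert, not_or]
          refine ⟨?_, hgQ⟩
          rintro rfl
          exact hd ⟨hg, hlt⟩
    intro f hf
    exact peel (Finset.range n) f hf (fun g _ hlt hgQ => absurd (Finset.mem_range.mpr hlt) hgQ)

end moving

/-- All the functions of the phase, summed over the positions of a letter, are accessible modulo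
every integer. -/
theorem az_ic [Fintype α] (n : ℕ) (hn : 0 < n) {f : ℕ → ℤ} (hf : ∀ t, f (t + n) = f t) (τ : ℕ) :
    AZ (fun w : List α => ic P x f τ w) := by
  haveI : NeZero n := ⟨hn.ne'⟩
  by_cases hx : P x = true
  · have h1 := az_ic_moving P x hx n hn (fun t => f (t + τ)) (by
      intro t
      have : t + n + τ = t + τ + n := by omega
      simp only [this, hf])
    convert h1 using 2 with w
    have := ic_shift P x f 0 τ w
    simpa using this
  · exact az_ic_neutral P x (by simpa using hx) hf τ

end Vale.Agent.helper1.Gsh
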