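import Vale.Agent.helper1.Gsh.Sw4

/-!
The double sums with arbitrary periodic functions of the counter, modulo every integer: a function of
prime power period is a sum of primitive functions with coefficients powers of the prime.
-/

set_option linter.unusedSectionVars false
set_option linter.unusedSimpArgs false
set_option linter.style.haveILetI false
set_option linter.unusedVariables false

namespace Vale.Agent.helper1.Gsh

open Vale.Agent.helper5.GSH Vale.Agent.helper3.Gsh

section digits

lemma sum_range_mul_aux (F : ℕ → ℤ) (A k : ℕ) :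
    ∑ j ∈ Finset.range (k * A), F j =
      ∑ i ∈ Finset.range A, ∑ l ∈ Finset.range k, F (l * A + i) := by
  induction k with
  | zero => simp
  | succ k ih =>
    rw [Nat.succ_mul, Finset.sum_range_add, ih, ← Finset.sum_add_distrib]
    apply Finset.sum_congr rfl
    intro i _
    rw [Finset.sum_range_succ]

variable {p m : ℕ} {g : ℕ → ℤ}

/-- The correction at the digit of index `m`. -/
def xs (p m : ℕ) (g : ℕ → ℤ) (t : ℕ) : ℤ := if (t / p ^ m) % p = 0 then - g t else 0

/-- The primitive function attached to `g`. -/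
def xf (p m : ℕ) (g : ℕ → ℤ) (t : ℕ) : ℤ := g t + p * xs p m g t

lemma per_up (hg : ∀ t, g (t + p ^ m) = g t) (t : ℕ) : g (t + p ^ (m + 1)) = g t := by
  have : p ^ (m + 1) = p ^ m * p := pow_succ p m
  rw [this]
  exact per_mul hg t p

lemma xs_period (hp : 0 < p) (hg : ∀ t, g (t + p ^ m) = g t) (t : ℕ) :
    xs p m g (t + p ^ (m + 1)) = xs p m g t := by
  have h1 : (t + p ^ (m + 1)) / p ^ m = t / p ^ m + p := by
    have : p ^ (m + 1) = p * p ^ m := pow_succ' p m
    rw [this, Nat.add_mul_div_right _ _ (pow_pos hp m)]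
  simp only [xs, h1, Nat.add_mod_right, per_up hg]

lemma xf_period (hp : 0 < p) (hg : ∀ t, g (t + p ^ m) = g t) (t : ℕ) :
    xf p m g (t + p ^ (m + 1)) = xf p m g t := by
  simp only [xf, xs_period hp hg, per_up hg]

lemma sum_digit (hp : 0 < p) (c : ℤ) (T : ℕ) :
    ∑ k ∈ Finset.range p, (if (T + k) % p = 0 then c else 0) = c := by
  have h1 := sum_shift (h := fun i => if i % p = 0 then c else 0) (n := p)
    (by intro i; simp) T
  have h2 : ∑ i ∈ Finset.range p, (if i % p = 0 then c else 0) = c := by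
    rw [Finset.sum_eq_single 0]
    · simp
    · intro b hb hb0
      have : b % p ≠ 0 := by
        rw [Nat.mod_eq_of_lt (Finset.mem_range.mp hb)]
        exact hb0
      simp [this]
    · intro h
      exact absurd (Finset.mem_range.mpr hp) h
  rw [h2] at h1
  have h3 : ∑ k ∈ Finset.range p, (if (T + k) % p = 0 then c else 0) =
      ∑ i ∈ Finset.range p, (if (i + T) % p = 0 then c else 0) := by
    apply Finset.sum_congr rfl
    intro k _
    rw [Nat.add_comm]
  rw [h3, h1]

lemma xf_coset (hp : 0 < p) (hg : ∀ t, g (t + p ^ m) = g t) (t : ℕ) :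
    ∑ k ∈ Finset.range p, xf p m g (t + k * p ^ m) = 0 := by
  have h1 : ∀ k, g (t + k * p ^ m) = g t := by
    intro k
    rw [Nat.mul_comm]
    exact per_mul hg t k
  have h2 : ∀ k, (t + k * p ^ m) / p ^ m = t / p ^ m + k := by
    intro k
    rw [Nat.add_mul_div_right _ _ (pow_pos hp m)]
  simp only [xf, xs, h1, h2]
  rw [Finset.sum_add_distrib, ← Finset.mul_sum, sum_digit hp]
  simp

lemma xf_top (hp : p.Prime) (hg : ∀ t, g (t + p ^ m) = g t) (d : ℕ) (hd : d ∣ p ^ (m + 1))
    (hlt : d < p ^ (m + 1)) (t : ℕ) : Top (p ^ (m + 1)) d (xf p m g) t = 0 := by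
  obtain ⟨c, hc, rfl⟩ := (Nat.dvd_prime_pow hp).mp hd
  have hcm : c ≤ m := by
    by_contra h
    have : c = m + 1 := by omega
    rw [this] at hlt
    exact lt_irrefl _ hlt
  have h1 : p ^ (m + 1) / p ^ c = p * p ^ (m - c) := by
    have : p ^ (m + 1) = p * p ^ (m - c) * p ^ c := by
      rw [mul_assoc, ← pow_add, Nat.sub_add_cancel hcm, pow_succ']
    rw [this, Nat.mul_div_cancel _ (pow_pos hp.pos c)]
  simp only [Top]
  rw [h1, sum_range_mul_aux]
  apply Finset.sum_eq_zero
  intro i _
  have h2 := xf_coset hp.pos hg (t + i * p ^ c)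
  rw [← h2]
  apply Finset.sum_congr rfl
  intro l _
  congr 1
  have : p ^ m = p ^ (m - c) * p ^ c := by
    rw [← pow_add, Nat.sub_add_cancel hcm]
  rw [this]
  ring

end digits

section expand

variable {α : Type} [DecidableEq α] [Fintype α] (P : α → Bool) (a y : α)

/-- The double sum. -/
def Xd (h g : ℕ → ℤ) (w : List α) : ℤ := ps y (fun W => h (W.filter P).length * ic P a g 0 W) w

lemma Xd_xf (p m : ℕ) (h g : ℕ → ℤ) (w : List α) :
    Xd P a y h g w = Xd P a y h (xf p m g) w - p * Xd P a y h (xs p m g) w := by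
  simp only [Xd]
  rw [← ps_const_mul, ← ps_sub]
  apply ps_congr
  intro W
  have : ic P a (xf p m g) 0 W = ic P a g 0 W + p * ic P a (xs p m g) 0 W := by
    have e := ic_add P a g (fun t => (p : ℤ) * xs p m g t) 0 W
    rw [ic_const_mul] at e
    exact e
  rw [this]
  ring

/-- From the modulus `Q` to the modulus `p * Q`. -/
lemma acc_step (ha : P a = true) (hy : P y = false) {p : ℕ} (hp : p.Prime) (Q : ℕ) [NeZero Q]
    (ih : ∀ (m : ℕ) (h g : ℕ → ℤ), (∀ t, h (t + p ^ m) = h t) → (∀ t, g (t + p ^ m) = g t) →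
      Acc (fun w : List α => ((Xd P a y h g w : ℤ) : ZMod Q)))
    (m : ℕ) (h g : ℕ → ℤ) (hh : ∀ t, h (t + p ^ m) = h t) (hg : ∀ t, g (t + p ^ m) = g t) :
    Acc (fun w : List α => ((Xd P a y h g w : ℤ) : ZMod (p * Q))) := by
  haveI : NeZero (p * Q) := ⟨mul_ne_zero hp.ne_zero (NeZero.ne Q)⟩
  have h1 := az_double P a y (n := p ^ (m + 1)) (pow_pos hp.pos _) ha hy
    (xf_period hp.pos hg) (xf_top hp hg) (per_up hh) (p * Q)
  have h2 := ih (m + 1) h (xs p m g) (per_up hh) (xs_period hp.pos hg)
  have h3 : Acc (fun w : List α => (((p : ℤ) * Xd P a y h (xs p m g) w : ℤ) : ZMod (p * Q))) := by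
    refine Acc.factor h2 ?_
    intro w w' he
    rw [ZMod.intCast_eq_intCast_iff] at he ⊢
    have : ((p * Q : ℕ) : ℤ) = (p : ℤ) * (Q : ℤ) := by push_cast; ring
    rw [this]
    exact Int.ModEq.mul_left' he
  have h4 := h1.sub h3
  convert h4 using 2 with w
  rw [Xd_xf P a y p m h g w]
  simp [Xd]

lemma acc_pp (ha : P a = true) (hy : P y = false) {p : ℕ} (hp : p.Prime) (e : ℕ) :
    ∀ (m : ℕ) (h g : ℕ → ℤ), (∀ t, h (t + p ^ m) = h t) → (∀ t, g (t + p ^ m) = g t) →
      Acc (fun w : List α => ((Xd P a y h g w : ℤ) : ZMod (p ^ e))) := by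
  induction e with
  | zero =>
    intro m h g _ _
    haveI : Subsingleton (ZMod (p ^ 0)) := by
      rw [pow_zero]
      infer_instance
    have e1 : (fun w : List α => ((Xd P a y h g w : ℤ) : ZMod (p ^ 0))) = fun _ => 0 :=
      funext (fun w => Subsingleton.elim _ _)
    rw [e1]
    exact Acc.const _
  | succ e ih =>
    rw [pow_succ']
    haveI : NeZero (p ^ e) := ⟨pow_ne_zero _ hp.ne_zero⟩
    exact acc_step P a y ha hy hp (p ^ e) ih

/-- A criterion for all moduli: prime powers suffice. -/
lemma az_of_pp {f : List α → ℤ}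
    (h : ∀ (p e : ℕ), p.Prime → Acc (fun w => ((f w : ℤ) : ZMod (p ^ e)))) : AZ f := by
  have main : ∀ M : ℕ, 0 < M → Acc (fun w => ((f w : ℤ) : ZMod M)) := by
    intro M
    induction M using Nat.recOnPosPrimePosCoprime with
    | prime_pow p n hp hn => exact fun _ => h p n hp
    | zero => exact fun h0 => absurd h0 (lt_irrefl _)
    | one =>
      intro _
      have := h 2 0 Nat.prime_two
      simpa using this
    | coprime a' b' ha' hb' hab ih1 ih2 =>
      intro hM
      have hap : 0 < a' := by omega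
      have hbp : 0 < b' := by omega
      haveI : NeZero a' := ⟨hap.ne'⟩
      haveI : NeZero b' := ⟨hbp.ne'⟩
      haveI : Finite (ZMod a' × ZMod b') := inferInstance
      refine Acc.factor ((ih1 hap).pair (ih2 hbp)) ?_
      intro w w' he
      have e1 := congrArg Prod.fst he
      have e2 := congrArg Prod.snd he
      simp only at e1 e2
      rw [ZMod.intCast_eq_intCast_iff_dvd_sub] at e1 e2 ⊢
      push_cast
      exact IsCoprime.mul_dvd (Nat.isCoprime_iff_coprime.mpr hab) e1 e2
  intro M _
  exact main M (NeZero.pos M)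

/-- The functions of the counter whose reductions modulo `M` have period `M`. -/
def ModPer (h : ℕ → ℤ) : Prop := ∀ (M t : ℕ), ((h (t + M) : ℤ) : ZMod M) = (h t : ZMod M)

lemma ModPer.pow (k : ℕ) : ModPer (fun t => (t : ℤ) ^ k) := by
  intro M t
  push_cast
  simp

lemma ModPer.reduce {h : ℕ → ℤ} (hh : ModPer h) (M t : ℕ) :
    ((h (t % M) : ℤ) : ZMod M) = (h t : ZMod M) := by
  have h1 : ∀ c u, ((h (u + M * c) : ℤ) : ZMod M) = (h u : ZMod M) := by
    intro c u
    induction c with
    | zero => simp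
    | succ c ih =>
      rw [Nat.mul_succ, ← Nat.add_assoc, hh, ih]
  conv_rhs => rw [← Nat.mod_add_div t M]
  rw [h1]

/-- All double sums with functions of the counter compatible with all moduli. -/
theorem az_Xd (ha : P a = true) (hy : P y = false) {h g : ℕ → ℤ} (hh : ModPer h) (hg : ModPer g) :
    AZ (Xd P a y h g) := by
  apply az_of_pp
  intro p e hp
  have h1 := acc_pp P a y ha hy hp e e (fun t => h (t % p ^ e)) (fun t => g (t % p ^ e))
    (by intro t; simp) (by intro t; simp)
  convert h1 using 2 with w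
  simp only [Xd]
  apply ps_cast
  intro W
  rw [Int.cast_mul, Int.cast_mul, hh.reduce]
  congr 1
  exact ic_cast P a (fun i => (hg.reduce (p ^ e) i).symm) 0 W

/-- The sums over the positions of a letter, with a function compatible with all moduli. -/
theorem az_ic_modper (x : α) {g : ℕ → ℤ} (hg : ModPer g) : AZ (fun w : List α => ic P x g 0 w) := by
  intro M _
  have h1 := az_ic P x M (NeZero.pos M) (f := fun t => g (t % M)) (by intro t; simp) 0 M
  convert h1 using 2 with w
  exact ic_cast P x (fun i => (hg.reduce M i).symm) 0 w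

end expand

end Vale.Agent.helper1.Gsh
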