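import Vale.Agent.helper1.Gsh.FourRel

/-!
The subword counts of length four, modulo every integer, from the relations, by explicit linear
combinations.
-/

set_option linter.unusedSectionVars false
set_option linter.unusedSimpArgs false
set_option linter.style.haveILetI false
set_option linter.unusedVariables false

namespace Vale.Agent.helper1.Gsh

open Vale.Agent.helper5.GSH Vale.Agent.helper3.Gsh

section patterns

variable {α : Type} [DecidableEq α] [Fintype α]

lemma zpat_abcd (a b c d : α) (hab : a ≠ b) (hac : a ≠ c) (had : a ≠ d) (hbc : b ≠ c) (hbd : b ≠ d) (hcd : c ≠ d) :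
    AZ (fun w : List α => zw w [a, b, c, d]) := by
  have hba : b ≠ a := hab.symm
  have hca : c ≠ a := hac.symm
  have hda : d ≠ a := had.symm
  have hcb : c ≠ b := hbc.symm
  have hdb : d ≠ b := hbd.symm
  have hdc : d ≠ c := hcd.symm
  refine AZ.cancel (c := 2) (by norm_num) ?_
  have r0 := (G3L [a, b, c] c d (by simp [*]) (by simp [*]) (by simp [*])).const_mul (-1)
  have r1 := (G3L [a, c] c d (by simp [*]) (by simp [*]) (by simp [*])).const_mul (1)
  have r2 := (G3L [a] a d (by simp [*]) (by simp [*]) (by simp [*])).const_mul (-1)
  have r3 := (G3L [a, b] a d (by simp [*]) (by simp [*]) (by simp [*])).const_mul (-2)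
  have r4 := (G1L [a, b] a d (by simp [*]) (by simp [*]) (by simp [*])).const_mul (1)
  have r5 := (G3L [a, c] a d (by simp [*]) (by simp [*]) (by simp [*])).const_mul (1)
  have r6 := (G3L [b, c] c d (by simp [*]) (by simp [*]) (by simp [*])).const_mul (1)
  have r7 := (G3L [a, b, c] a d (by simp [*]) (by simp [*]) (by simp [*])).const_mul (-1)
  have r8 := (G1L [a, b, c] b d (by simp [*]) (by simp [*]) (by simp [*])).const_mul (1)
  have r9 := (G3L [a, b, c] b d (by simp [*]) (by simp [*]) (by simp [*])).const_mul (-3)
  have r10 := (G1L [b, c] b d (by simp [*]) (by simp [*]) (by simp [*])).const_mul (-1)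
  have r11 := (G3L [b, c] b d (by simp [*]) (by simp [*]) (by simp [*])).const_mul (3)
  have r12 := (rel_a a b c d).const_mul (1)
  have r13 := (G3L [b] b a (by simp [*]) (by simp [*]) (by simp [*])).const_mul (1)
  have r14 := (G3L [b, c] c a (by simp [*]) (by simp [*]) (by simp [*])).const_mul (1)
  have r15 := (G3L [b, c] b a (by simp [*]) (by simp [*]) (by simp [*])).const_mul (2)
  have r16 := (G1L [b, c] b a (by simp [*]) (by simp [*]) (by simp [*])).const_mul (-1)
  have r17 := (G3L [b, d] b a (by simp [*]) (by simp [*]) (by simp [*])).const_mul (-1)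
  have r18 := (G3L [c] c d (by simp [*]) (by simp [*]) (by simp [*])).const_mul (-1)
  have r19 := (G3L [b, c, d] b a (by simp [*]) (by simp [*]) (by simp [*])).const_mul (1)
  have r20 := (G1L [b, c, d] c a (by simp [*]) (by simp [*]) (by simp [*])).const_mul (-1)
  have r21 := (G3L [b, c, d] c a (by simp [*]) (by simp [*]) (by simp [*])).const_mul (2)
  have r22 := (G1L [c, d] c a (by simp [*]) (by simp [*]) (by simp [*])).const_mul (1)
  have r23 := (G3L [c] c a (by simp [*]) (by simp [*]) (by simp [*])).const_mul (-1)
  have r24 := (G3L [c, d] c a (by simp [*]) (by simp [*]) (by simp [*])).const_mul (-2)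
  have r25 := (rel_b a b c d).const_mul (1)
  have r26 := (rel_a a c d b).const_mul (-1)
  have s5 := (((((r0.add r1).add r2).add r3).add r4).add r5)
  have s11 := ((((((s5.add r6).add r7).add r8).add r9).add r10).add r11)
  have s17 := ((((((s11.add r12).add r13).add r14).add r15).add r16).add r17)
  have s23 := ((((((s17.add r18).add r19).add r20).add r21).add r22).add r23)
  have h := (((s23.add r24).add r25).add r26)
  convert h using 2 with w
  try simp only [List.map_cons, List.map_nil, List.sum_cons, List.sum_nil, add_zero]
  try push_cast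
  ring

lemma zpat_aabc (a b c : α) (hab : a ≠ b) (hac : a ≠ c) (hbc : b ≠ c) :
    AZ (fun w : List α => zw w [a, a, b, c]) := by
  have hba : b ≠ a := hab.symm
  have hca : c ≠ a := hac.symm
  have hcb : c ≠ b := hbc.symm
  refine AZ.cancel (c := 2) (by norm_num) ?_
  have r0 := (rel_a a a c b).const_mul (-1)
  have r1 := (rel_a a a b c).const_mul (-1)
  have r2 := (G4L [a, b, c] a (by simp [*])).const_mul (2)
  have r3 := (G4L [a] a (by simp [*])).const_mul (2)
  have r4 := (G4L [a, b] a (by simp [*])).const_mul (-2)
  have r5 := (G4L [a, c] a (by simp [*])).const_mul (-2)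
  have r6 := (rel_a a b a c).const_mul (-1)
  have r7 := (rel_a c a a b).const_mul (2)
  have r8 := (rel_a a b c a).const_mul (-1)
  have r9 := (rel_a a b b c).const_mul (-2)
  have r10 := (G3L [b, c] b a (by simp [*]) (by simp [*]) (by simp [*])).const_mul (-2)
  have r11 := (G3L [b] b a (by simp [*]) (by simp [*]) (by simp [*])).const_mul (2)
  have r12 := (rel_a a c a b).const_mul (-1)
  have r13 := (rel_a a c b a).const_mul (-1)
  have r14 := (rel_a a c b c).const_mul (-2)
  have r15 := (rel_a a b c c).const_mul (-2)
  have r16 := (G4L [a, b, c] c (by simp [*])).const_mul (2)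
  have r17 := (G4L [a, c] c (by simp [*])).const_mul (-2)
  have r18 := (G4L [b, c] c (by simp [*])).const_mul (-2)
  have r19 := (G4L [c] c (by simp [*])).const_mul (2)
  have s5 := (((((r0.add r1).add r2).add r3).add r4).add r5)
  have s11 := ((((((s5.add r6).add r7).add r8).add r9).add r10).add r11)
  have s17 := ((((((s11.add r12).add r13).add r14).add r15).add r16).add r17)
  have h := ((s17.add r18).add r19)
  convert h using 2 with w
  try simp only [List.map_cons, List.map_nil, List.sum_cons, List.sum_nil, add_zero]
  try push_cast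
  ring

lemma zpat_abac (a b c : α) (hab : a ≠ b) (hac : a ≠ c) (hbc : b ≠ c) :
    AZ (fun w : List α => zw w [a, b, a, c]) := by
  have hba : b ≠ a := hab.symm
  have hca : c ≠ a := hac.symm
  have hcb : c ≠ b := hbc.symm
  refine AZ.cancel (c := 4) (by norm_num) ?_
  have r0 := (G3L [a, b] a c (by simp [*]) (by simp [*]) (by simp [*])).const_mul (4)
  have r1 := (G3L [a] a c (by simp [*]) (by simp [*]) (by simp [*])).const_mul (2)
  have r2 := (rel_a a a c b).const_mul (3)
  have r3 := (G3L [a, c] c b (by simp [*]) (by simp [*]) (by simp [*])).const_mul (-4)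
  have r4 := (G3L [a, c] a b (by simp [*]) (by simp [*]) (by simp [*])).const_mul (-6)
  have r5 := (rel_a a a b c).const_mul (3)
  have r6 := (G3L [a, b] b c (by simp [*]) (by simp [*]) (by simp [*])).const_mul (4)
  have r7 := (G1L [a, b] a c (by simp [*]) (by simp [*]) (by simp [*])).const_mul (-2)
  have r8 := (G4L [a, b, c] a (by simp [*])).const_mul (-6)
  have r9 := (G4L [a] a (by simp [*])).const_mul (-6)
  have r10 := (G4L [a, b] a (by simp [*])).const_mul (6)
  have r11 := (G4L [a, c] a (by simp [*])).const_mul (6)
  have r12 := (G1L [a, c] a b (by simp [*]) (by simp [*]) (by simp [*])).const_mul (2)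
  have r13 := (rel_a a b a c).const_mul (3)
  have r14 := (G4L [a, b, c] b (by simp [*])).const_mul (2)
  have r15 := (G4L [a, b] b (by simp [*])).const_mul (-2)
  have r16 := (rel_b a b a c).const_mul (2)
  have r17 := (rel_a c a a b).const_mul (-8)
  have r18 := (rel_a a b c a).const_mul (3)
  have r19 := (G3L [b, c] c a (by simp [*]) (by simp [*]) (by simp [*])).const_mul (2)
  have r20 := (rel_a a b b c).const_mul (2)
  have r21 := (G3L [b] b c (by simp [*]) (by simp [*]) (by simp [*])).const_mul (-4)
  have r22 := (G3L [b, c] b a (by simp [*]) (by simp [*]) (by simp [*])).const_mul (2)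
  have r23 := (G3L [b] b a (by simp [*]) (by simp [*]) (by simp [*])).const_mul (-8)
  have r24 := (G1L [b, c] b a (by simp [*]) (by simp [*]) (by simp [*])).const_mul (2)
  have r25 := (rel_a a c a b).const_mul (3)
  have r26 := (rel_b a b b c).const_mul (-2)
  have r27 := (rel_a a c b a).const_mul (3)
  have r28 := (rel_a a c b c).const_mul (2)
  have r29 := (rel_a a b c c).const_mul (4)
  have r30 := (G4L [a, b, c] c (by simp [*])).const_mul (-2)
  have r31 := (G4L [a, c] c (by simp [*])).const_mul (2)
  have r32 := (G4L [b, c] c (by simp [*])).const_mul (2)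
  have r33 := (rel_b a c b c).const_mul (-2)
  have r34 := (rel_a b a c c).const_mul (2)
  have r35 := (rel_a b a a c).const_mul (-2)
  have r36 := (rel_a a c b b).const_mul (-2)
  have r37 := (G4L [b, c] b (by simp [*])).const_mul (-2)
  have r38 := (G4L [b] b (by simp [*])).const_mul (2)
  have r39 := (G3L [c] c a (by simp [*]) (by simp [*]) (by simp [*])).const_mul (-2)
  have r40 := (G3L [c] c b (by simp [*]) (by simp [*]) (by simp [*])).const_mul (4)
  have r41 := (G4L [c] c (by simp [*])).const_mul (-2)
  have s5 := (((((r0.add r1).add r2).add r3).add r4).add r5)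
  have s11 := ((((((s5.add r6).add r7).add r8).add r9).add r10).add r11)
  have s17 := ((((((s11.add r12).add r13).add r14).add r15).add r16).add r17)
  have s23 := ((((((s17.add r18).add r19).add r20).add r21).add r22).add r23)
  have s29 := ((((((s23.add r24).add r25).add r26).add r27).add r28).add r29)
  have s35 := ((((((s29.add r30).add r31).add r32).add r33).add r34).add r35)
  have s41 := ((((((s35.add r36).add r37).add r38).add r39).add r40).add r41)
  have h := s41
  convert h using 2 with w
  try simp only [List.map_cons, List.map_nil, List.sum_cons, List.sum_nil, add_zero]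
  try push_cast
  ring

lemma zpat_abca (a b c : α) (hab : a ≠ b) (hac : a ≠ c) (hbc : b ≠ c) :
    AZ (fun w : List α => zw w [a, b, c, a]) := by
  have hba : b ≠ a := hab.symm
  have hca : c ≠ a := hac.symm
  have hcb : c ≠ b := hbc.symm
  refine AZ.cancel (c := 4) (by norm_num) ?_
  have r0 := (G4L [a, b, c] a (by simp [*])).const_mul (-2)
  have r1 := (G4L [a] a (by simp [*])).const_mul (-2)
  have r2 := (G4L [a, b] a (by simp [*])).const_mul (2)
  have r3 := (G4L [a, c] a (by simp [*])).const_mul (2)
  have r4 := (rel_a a a b c).const_mul (5)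
  have r5 := (G3L [a, b] b c (by simp [*]) (by simp [*]) (by simp [*])).const_mul (-4)
  have r6 := (G3L [a, b] a c (by simp [*]) (by simp [*]) (by simp [*])).const_mul (-4)
  have r7 := (G3L [a] a c (by simp [*]) (by simp [*]) (by simp [*])).const_mul (-2)
  have r8 := (G1L [a, b] a c (by simp [*]) (by simp [*]) (by simp [*])).const_mul (2)
  have r9 := (rel_a a a c b).const_mul (1)
  have r10 := (G3L [a, c] c b (by simp [*]) (by simp [*]) (by simp [*])).const_mul (4)
  have r11 := (G3L [a, c] a b (by simp [*]) (by simp [*]) (by simp [*])).const_mul (6)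
  have r12 := (G1L [a, c] a b (by simp [*]) (by simp [*]) (by simp [*])).const_mul (-2)
  have r13 := (G4L [a, b, c] b (by simp [*])).const_mul (-2)
  have r14 := (G4L [a, b] b (by simp [*])).const_mul (2)
  have r15 := (rel_a a b a c).const_mul (1)
  have r16 := (rel_b a b a c).const_mul (-2)
  have r17 := (rel_a a b c a).const_mul (1)
  have r18 := (G3L [b, c] c a (by simp [*]) (by simp [*]) (by simp [*])).const_mul (-2)
  have r19 := (rel_a a b b c).const_mul (6)
  have r20 := (G3L [b] b c (by simp [*]) (by simp [*]) (by simp [*])).const_mul (4)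
  have r21 := (G3L [b, c] b a (by simp [*]) (by simp [*]) (by simp [*])).const_mul (6)
  have r22 := (G1L [b, c] b a (by simp [*]) (by simp [*]) (by simp [*])).const_mul (-2)
  have r23 := (rel_a a c a b).const_mul (1)
  have r24 := (rel_b a b b c).const_mul (2)
  have r25 := (rel_b a c b c).const_mul (2)
  have r26 := (G4L [a, b, c] c (by simp [*])).const_mul (-6)
  have r27 := (G4L [a, c] c (by simp [*])).const_mul (6)
  have r28 := (rel_a a b c c).const_mul (4)
  have r29 := (G4L [b, c] c (by simp [*])).const_mul (6)
  have r30 := (rel_a b a c c).const_mul (-2)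
  have r31 := (rel_a a c b a).const_mul (1)
  have r32 := (rel_a a c b c).const_mul (6)
  have r33 := (rel_a b a a c).const_mul (2)
  have r34 := (rel_a a c b b).const_mul (2)
  have r35 := (G4L [b, c] b (by simp [*])).const_mul (2)
  have r36 := (G4L [b] b (by simp [*])).const_mul (-2)
  have r37 := (G3L [c] c a (by simp [*]) (by simp [*]) (by simp [*])).const_mul (2)
  have r38 := (G3L [c] c b (by simp [*]) (by simp [*]) (by simp [*])).const_mul (-4)
  have r39 := (G4L [c] c (by simp [*])).const_mul (-6)
  have s5 := (((((r0.add r1).add r2).add r3).add r4).add r5)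
  have s11 := ((((((s5.add r6).add r7).add r8).add r9).add r10).add r11)
  have s17 := ((((((s11.add r12).add r13).add r14).add r15).add r16).add r17)
  have s23 := ((((((s17.add r18).add r19).add r20).add r21).add r22).add r23)
  have s29 := ((((((s23.add r24).add r25).add r26).add r27).add r28).add r29)
  have s35 := ((((((s29.add r30).add r31).add r32).add r33).add r34).add r35)
  have h := ((((s35.add r36).add r37).add r38).add r39)
  convert h using 2 with w
  try simp only [List.map_cons, List.map_nil, List.sum_cons, List.sum_nil, add_zero]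
  try push_cast
  ring

lemma zpat_baac (a b c : α) (hab : a ≠ b) (hac : a ≠ c) (hbc : b ≠ c) :
    AZ (fun w : List α => zw w [b, a, a, c]) := by
  have hba : b ≠ a := hab.symm
  have hca : c ≠ a := hac.symm
  have hcb : c ≠ b := hbc.symm
  refine AZ.cancel (c := 4) (by norm_num) ?_
  have r0 := (rel_a a a c b).const_mul (-1)
  have r1 := (G3L [a, c] c b (by simp [*]) (by simp [*]) (by simp [*])).const_mul (4)
  have r2 := (G3L [a, c] a b (by simp [*]) (by simp [*]) (by simp [*])).const_mul (6)
  have r3 := (rel_a a a b c).const_mul (-1)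
  have r4 := (G3L [a, b] b c (by simp [*]) (by simp [*]) (by simp [*])).const_mul (-4)
  have r5 := (G3L [a, b] a c (by simp [*]) (by simp [*]) (by simp [*])).const_mul (-4)
  have r6 := (G3L [a] a c (by simp [*]) (by simp [*]) (by simp [*])).const_mul (-2)
  have r7 := (G1L [a, b] a c (by simp [*]) (by simp [*]) (by simp [*])).const_mul (2)
  have r8 := (G4L [a, b, c] a (by simp [*])).const_mul (2)
  have r9 := (G4L [a] a (by simp [*])).const_mul (2)
  have r10 := (G4L [a, b] a (by simp [*])).const_mul (-2)
  have r11 := (G4L [a, c] a (by simp [*])).const_mul (-2)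
  have r12 := (G1L [a, c] a b (by simp [*]) (by simp [*]) (by simp [*])).const_mul (-2)
  have r13 := (rel_a a b a c).const_mul (-1)
  have r14 := (G4L [a, b, c] b (by simp [*])).const_mul (-2)
  have r15 := (G4L [a, b] b (by simp [*])).const_mul (2)
  have r16 := (rel_b a b a c).const_mul (-2)
  have r17 := (rel_a c a a b).const_mul (4)
  have r18 := (G3L [b, c] c a (by simp [*]) (by simp [*]) (by simp [*])).const_mul (2)
  have r19 := (rel_a a b b c).const_mul (-2)
  have r20 := (G3L [b] b c (by simp [*]) (by simp [*]) (by simp [*])).const_mul (4)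
  have r21 := (G1L [b, c] b a (by simp [*]) (by simp [*]) (by simp [*])).const_mul (-2)
  have r22 := (G3L [b] b a (by simp [*]) (by simp [*]) (by simp [*])).const_mul (4)
  have r23 := (G3L [b, c] b a (by simp [*]) (by simp [*]) (by simp [*])).const_mul (2)
  have r24 := (rel_a a b c a).const_mul (-1)
  have r25 := (rel_a a c a b).const_mul (-1)
  have r26 := (rel_b a b b c).const_mul (2)
  have r27 := (rel_a a c b a).const_mul (-1)
  have r28 := (rel_a a c b c).const_mul (-2)
  have r29 := (rel_a a b c c).const_mul (-4)
  have r30 := (G4L [a, b, c] c (by simp [*])).const_mul (2)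
  have r31 := (G4L [a, c] c (by simp [*])).const_mul (-2)
  have r32 := (G4L [b, c] c (by simp [*])).const_mul (-2)
  have r33 := (rel_b a c b c).const_mul (2)
  have r34 := (rel_a b a c c).const_mul (-2)
  have r35 := (rel_a b a a c).const_mul (2)
  have r36 := (rel_a a c b b).const_mul (2)
  have r37 := (G4L [b, c] b (by simp [*])).const_mul (2)
  have r38 := (G4L [b] b (by simp [*])).const_mul (-2)
  have r39 := (G3L [c] c a (by simp [*]) (by simp [*]) (by simp [*])).const_mul (-2)
  have r40 := (G3L [c] c b (by simp [*]) (by simp [*]) (by simp [*])).const_mul (-4)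
  have r41 := (G4L [c] c (by simp [*])).const_mul (2)
  have s5 := (((((r0.add r1).add r2).add r3).add r4).add r5)
  have s11 := ((((((s5.add r6).add r7).add r8).add r9).add r10).add r11)
  have s17 := ((((((s11.add r12).add r13).add r14).add r15).add r16).add r17)
  have s23 := ((((((s17.add r18).add r19).add r20).add r21).add r22).add r23)
  have s29 := ((((((s23.add r24).add r25).add r26).add r27).add r28).add r29)
  have s35 := ((((((s29.add r30).add r31).add r32).add r33).add r34).add r35)
  have s41 := ((((((s35.add r36).add r37).add r38).add r39).add r40).add r41)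
  have h := s41
  convert h using 2 with w
  try simp only [List.map_cons, List.map_nil, List.sum_cons, List.sum_nil, add_zero]
  try push_cast
  ring

lemma zpat_baca (a b c : α) (hab : a ≠ b) (hac : a ≠ c) (hbc : b ≠ c) :
    AZ (fun w : List α => zw w [b, a, c, a]) := by
  have hba : b ≠ a := hab.symm
  have hca : c ≠ a := hac.symm
  have hcb : c ≠ b := hbc.symm
  refine AZ.cancel (c := 4) (by norm_num) ?_
  have r0 := (G1L [a, b] a c (by simp [*]) (by simp [*]) (by simp [*])).const_mul (-2)
  have r1 := (G3L [a] a c (by simp [*]) (by simp [*]) (by simp [*])).const_mul (2)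
  have r2 := (G3L [a, b] b c (by simp [*]) (by simp [*]) (by simp [*])).const_mul (4)
  have r3 := (G3L [a, b] a c (by simp [*]) (by simp [*]) (by simp [*])).const_mul (4)
  have r4 := (G4L [a, b, c] b (by simp [*])).const_mul (2)
  have r5 := (G4L [a, b] b (by simp [*])).const_mul (-2)
  have r6 := (G3L [a, c] c b (by simp [*]) (by simp [*]) (by simp [*])).const_mul (-4)
  have r7 := (G3L [a, c] a b (by simp [*]) (by simp [*]) (by simp [*])).const_mul (-6)
  have r8 := (rel_a a a c b).const_mul (-1)
  have r9 := (rel_a a a b c).const_mul (-1)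
  have r10 := (G4L [a, b, c] a (by simp [*])).const_mul (2)
  have r11 := (G4L [a] a (by simp [*])).const_mul (2)
  have r12 := (G4L [a, b] a (by simp [*])).const_mul (-2)
  have r13 := (G4L [a, c] a (by simp [*])).const_mul (-2)
  have r14 := (G1L [a, c] a b (by simp [*]) (by simp [*]) (by simp [*])).const_mul (2)
  have r15 := (rel_a a b a c).const_mul (3)
  have r16 := (rel_b a b a c).const_mul (2)
  have r17 := (G3L [b, c] c a (by simp [*]) (by simp [*]) (by simp [*])).const_mul (-6)
  have r18 := (rel_a a b b c).const_mul (2)
  have r19 := (G3L [b] b c (by simp [*]) (by simp [*]) (by simp [*])).const_mul (-4)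
  have r20 := (G1L [b, c] b a (by simp [*]) (by simp [*]) (by simp [*])).const_mul (2)
  have r21 := (G3L [b, c] b a (by simp [*]) (by simp [*]) (by simp [*])).const_mul (-6)
  have r22 := (rel_a a b c a).const_mul (-1)
  have r23 := (rel_a a c a b).const_mul (-1)
  have r24 := (rel_b a b b c).const_mul (-2)
  have r25 := (rel_a a c b c).const_mul (2)
  have r26 := (rel_a a b c c).const_mul (4)
  have r27 := (G4L [a, b, c] c (by simp [*])).const_mul (-2)
  have r28 := (G4L [a, c] c (by simp [*])).const_mul (2)
  have r29 := (G4L [b, c] c (by simp [*])).const_mul (2)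
  have r30 := (rel_b a c b c).const_mul (-2)
  have r31 := (rel_a b a c c).const_mul (2)
  have r32 := (rel_a a c b a).const_mul (-1)
  have r33 := (rel_a b a a c).const_mul (-2)
  have r34 := (rel_a a c b b).const_mul (-2)
  have r35 := (G4L [b, c] b (by simp [*])).const_mul (-2)
  have r36 := (G4L [b] b (by simp [*])).const_mul (2)
  have r37 := (G3L [c] c a (by simp [*]) (by simp [*]) (by simp [*])).const_mul (6)
  have r38 := (G3L [c] c b (by simp [*]) (by simp [*]) (by simp [*])).const_mul (4)
  have r39 := (G4L [c] c (by simp [*])).const_mul (-2)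
  have s5 := (((((r0.add r1).add r2).add r3).add r4).add r5)
  have s11 := ((((((s5.add r6).add r7).add r8).add r9).add r10).add r11)
  have s17 := ((((((s11.add r12).add r13).add r14).add r15).add r16).add r17)
  have s23 := ((((((s17.add r18).add r19).add r20).add r21).add r22).add r23)
  have s29 := ((((((s23.add r24).add r25).add r26).add r27).add r28).add r29)
  have s35 := ((((((s29.add r30).add r31).add r32).add r33).add r34).add r35)
  have h := ((((s35.add r36).add r37).add r38).add r39)
  convert h using 2 with w
  try simp only [List.map_cons, List.map_nil, List.sum_cons, List.sum_nil, add_zero]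
  try push_cast
  ring

lemma zpat_bcaa (a b c : α) (hab : a ≠ b) (hac : a ≠ c) (hbc : b ≠ c) :
    AZ (fun w : List α => zw w [b, c, a, a]) := by
  have hba : b ≠ a := hab.symm
  have hca : c ≠ a := hac.symm
  have hcb : c ≠ b := hbc.symm
  refine AZ.cancel (c := 2) (by norm_num) ?_
  have r0 := (rel_a a b b c).const_mul (-2)
  have r1 := (rel_a a a b c).const_mul (-1)
  have r2 := (rel_a a b a c).const_mul (-1)
  have r3 := (G3L [b, c] c a (by simp [*]) (by simp [*]) (by simp [*])).const_mul (2)
  have r4 := (rel_a a b c a).const_mul (1)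
  have r5 := (rel_a a c b c).const_mul (-2)
  have r6 := (rel_a a b c c).const_mul (-2)
  have r7 := (G4L [a, b, c] c (by simp [*])).const_mul (2)
  have r8 := (G4L [a, c] c (by simp [*])).const_mul (-2)
  have r9 := (G4L [b, c] c (by simp [*])).const_mul (-2)
  have r10 := (G3L [c] c a (by simp [*]) (by simp [*]) (by simp [*])).const_mul (-2)
  have r11 := (G4L [c] c (by simp [*])).const_mul (2)
  have s5 := (((((r0.add r1).add r2).add r3).add r4).add r5)
  have s11 := ((((((s5.add r6).add r7).add r8).add r9).add r10).add r11)
  have h := s11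
  convert h using 2 with w
  try simp only [List.map_cons, List.map_nil, List.sum_cons, List.sum_nil, add_zero]
  try push_cast
  ring

lemma zpat_aabb (a b : α) (hab : a ≠ b) :
    AZ (fun w : List α => zw w [a, a, b, b]) := by
  have hba : b ≠ a := hab.symm
  refine AZ.cancel (c := 6) (by norm_num) ?_
  have r0 := (G3L [a] a b (by simp [*]) (by simp [*]) (by simp [*])).const_mul (6)
  have r1 := (rel_a a a b b).const_mul (-3)
  have r2 := (rel_a a a b a).const_mul (-2)
  have r3 := (G4L [a, b] a (by simp [*])).const_mul (6)
  have r4 := (G4L [a] a (by simp [*])).const_mul (-6)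
  have r5 := (rel_a a b a b).const_mul (-3)
  have r6 := (rel_a a b a a).const_mul (-2)
  have r7 := (rel_a a a a b).const_mul (-2)
  have r8 := (rel_a b a a b).const_mul (6)
  have r9 := (rel_a a b b a).const_mul (-3)
  have r10 := (G3L [b] b a (by simp [*]) (by simp [*]) (by simp [*])).const_mul (-6)
  have s5 := (((((r0.add r1).add r2).add r3).add r4).add r5)
  have h := (((((s5.add r6).add r7).add r8).add r9).add r10)
  convert h using 2 with w
  try simp only [List.map_cons, List.map_nil, List.sum_cons, List.sum_nil, add_zero]
  try push_cast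
  ring

lemma zpat_abab (a b : α) (hab : a ≠ b) :
    AZ (fun w : List α => zw w [a, b, a, b]) := by
  have hba : b ≠ a := hab.symm
  refine AZ.cancel (c := 6) (by norm_num) ?_
  have r0 := (rel_a a a b b).const_mul (6)
  have r1 := (G3L [a] a b (by simp [*]) (by simp [*]) (by simp [*])).const_mul (-12)
  have r2 := (rel_a a a b a).const_mul (4)
  have r3 := (G4L [a, b] a (by simp [*])).const_mul (-12)
  have r4 := (G4L [a] a (by simp [*])).const_mul (12)
  have r5 := (rel_a a b a b).const_mul (6)
  have r6 := (rel_a b a a b).const_mul (-12)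
  have r7 := (rel_a a b a a).const_mul (4)
  have r8 := (rel_a a a a b).const_mul (4)
  have r9 := (rel_b a b a b).const_mul (3)
  have r10 := (rel_a a b b a).const_mul (6)
  have r11 := (G3L [b] b a (by simp [*]) (by simp [*]) (by simp [*])).const_mul (12)
  have s5 := (((((r0.add r1).add r2).add r3).add r4).add r5)
  have s11 := ((((((s5.add r6).add r7).add r8).add r9).add r10).add r11)
  have h := s11
  convert h using 2 with w
  try simp only [List.map_cons, List.map_nil, List.sum_cons, List.sum_nil, add_zero]
  try push_cast
  ring

lemma zpat_abba (a b : α) (hab : a ≠ b) :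
    AZ (fun w : List α => zw w [a, b, b, a]) := by
  have hba : b ≠ a := hab.symm
  refine AZ.cancel (c := 2) (by norm_num) ?_
  have r0 := (rel_b a b a b).const_mul (-1)
  have r1 := (rel_a a a b b).const_mul (2)
  have h := (r0.add r1)
  convert h using 2 with w
  try simp only [List.map_cons, List.map_nil, List.sum_cons, List.sum_nil, add_zero]
  try push_cast
  ring

lemma zpat_aaab (a b : α) (hab : a ≠ b) :
    AZ (fun w : List α => zw w [a, a, a, b]) := by
  have hba : b ≠ a := hab.symm
  have r0 := (G3L [a] a b (by simp [*]) (by simp [*]) (by simp [*])).const_mul (1)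
  have h := r0
  convert h using 2 with w
  try simp only [List.map_cons, List.map_nil, List.sum_cons, List.sum_nil, add_zero]
  try push_cast
  ring

lemma zpat_aaba (a b : α) (hab : a ≠ b) :
    AZ (fun w : List α => zw w [a, a, b, a]) := by
  have hba : b ≠ a := hab.symm
  have r0 := (rel_a a a a b).const_mul (1)
  have r1 := (G3L [a] a b (by simp [*]) (by simp [*]) (by simp [*])).const_mul (-3)
  have h := (r0.add r1)
  convert h using 2 with w
  try simp only [List.map_cons, List.map_nil, List.sum_cons, List.sum_nil, add_zero]
  try push_cast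
  ring

lemma zpat_abaa (a b : α) (hab : a ≠ b) :
    AZ (fun w : List α => zw w [a, b, a, a]) := by
  have hba : b ≠ a := hab.symm
  refine AZ.cancel (c := 2) (by norm_num) ?_
  have r0 := (rel_a a a a b).const_mul (-2)
  have r1 := (G3L [a] a b (by simp [*]) (by simp [*]) (by simp [*])).const_mul (6)
  have r2 := (rel_a a a b a).const_mul (1)
  have h := ((r0.add r1).add r2)
  convert h using 2 with w
  try simp only [List.map_cons, List.map_nil, List.sum_cons, List.sum_nil, add_zero]
  try push_cast
  ring

lemma zpat_baaa (a b : α) (hab : a ≠ b) :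
    AZ (fun w : List α => zw w [b, a, a, a]) := by
  have hba : b ≠ a := hab.symm
  refine AZ.cancel (c := 6) (by norm_num) ?_
  have r0 := (rel_a a b a a).const_mul (2)
  have r1 := (rel_a a a a b).const_mul (2)
  have r2 := (G3L [a] a b (by simp [*]) (by simp [*]) (by simp [*])).const_mul (-6)
  have r3 := (rel_a a a b a).const_mul (-1)
  have h := (((r0.add r1).add r2).add r3)
  convert h using 2 with w
  try simp only [List.map_cons, List.map_nil, List.sum_cons, List.sum_nil, add_zero]
  try push_cast
  ring

lemma zpat_aaaa (a : α)  :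
    AZ (fun w : List α => zw w [a, a, a, a]) := by
  have r0 := (G4L [a] a (by simp [*])).const_mul (1)
  have h := r0
  convert h using 2 with w
  try simp only [List.map_cons, List.map_nil, List.sum_cons, List.sum_nil, add_zero]
  try push_cast
  ring

/-- Every subword count of length four is accessible modulo every integer. -/
theorem az_four (c1 c2 c3 c4 : α) : AZ (fun w : List α => zw w [c1, c2, c3, c4]) := by
  by_cases h12 : c1 = c2
  · subst h12
    by_cases h13 : c1 = c3
    · subst h13
      by_cases h14 : c1 = c4
      · subst h14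
        exact zpat_aaaa c1
      · exact zpat_aaab c1 c4 h14
    · by_cases h14 : c1 = c4
      · subst h14
        exact zpat_aaba c1 c3 h13
      · by_cases h34 : c3 = c4
        · subst h34
          exact zpat_aabb c1 c3 h13
        · exact zpat_aabc c1 c3 c4 h13 h14 h34
  · by_cases h13 : c1 = c3
    · subst h13
      by_cases h14 : c1 = c4
      · subst h14
        exact zpat_abaa c1 c2 h12
      · by_cases h24 : c2 = c4
        · subst h24
          exact zpat_abab c1 c2 h12
        · exact zpat_abac c1 c2 c4 h12 h14 h24
    · by_cases h14 : c1 = c4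
      · subst h14
        by_cases h23 : c2 = c3
        · subst h23
          exact zpat_abba c1 c2 h12
        · exact zpat_abca c1 c2 c3 h12 h13 h23
      · by_cases h23 : c2 = c3
        · subst h23
          by_cases h24 : c2 = c4
          · subst h24
            exact zpat_baaa c2 c1 (Ne.symm h12)
          · exact zpat_baac c2 c1 c4 (Ne.symm h12) h24 h14
        · by_cases h24 : c2 = c4
          · subst h24
            exact zpat_baca c2 c1 c3 (Ne.symm h12) h23 h13
          · by_cases h34 : c3 = c4
            · subst h34
              exact zpat_bcaa c3 c1 c2 (Ne.symm h13) (Ne.symm h23) h12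
            · exact zpat_abcd c1 c2 c3 c4 h12 h13 h14 h23 h24 h34

end patterns

end Vale.Agent.helper1.Gsh
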