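import Vale.Agent.helper1.Gsh.Expand

/-!
Linear relations among the subword counts of length four, modulo every integer.
-/

set_option linter.unusedSectionVars false
set_option linter.unusedSimpArgs false
set_option linter.style.haveILetI false
set_option linter.unusedVariables false

namespace Vale.Agent.helper1.Gsh

open Vale.Agent.helper5.GSH Vale.Agent.helper3.Gsh

section rels

variable {α : Type} [DecidableEq α] (S : Finset α) (a y : α)

/-- Pairs of a letter of `S` and the letter `a`. -/
def K1 (W : List α) : ℤ := ∑ t ∈ S, zw W [t, a]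

/-- Triples of two letters of `S` and the letter `a`. -/
def K2 (W : List α) : ℤ := ∑ t ∈ S, ∑ t' ∈ S, zw W [t, t', a]

/-- Quadruples of three letters of `S` and the letter `a`. -/
def K3 (W : List α) : ℤ := ∑ r ∈ S, ∑ t ∈ S, ∑ t' ∈ S, zw W [r, t, t', a]

lemma K1_cons (z : α) (W : List α) :
    K1 S a (z :: W) = K1 S a W + if z ∈ S then zw W [a] else 0 := by
  simp only [K1, zw_cons_cons, Finset.sum_add_distrib]
  rw [Finset.sum_ite_eq]

lemma K2_cons (z : α) (W : List α) :
    K2 S a (z :: W) = K2 S a W + if z ∈ S then K1 S a W else 0 := by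
  simp only [K2, K1, zw_cons_cons, Finset.sum_add_distrib]
  congr 1
  have : ∀ t ∈ S, ∑ t' ∈ S, (if z = t then zw W [t', a] else 0) =
      if z = t then ∑ t' ∈ S, zw W [t', a] else 0 := by
    intro t _
    by_cases h : z = t <;> simp [h]
  rw [Finset.sum_congr rfl this, Finset.sum_ite_eq]

lemma K3_cons (z : α) (W : List α) :
    K3 S a (z :: W) = K3 S a W + if z ∈ S then K2 S a W else 0 := by
  simp only [K3, K2, zw_cons_cons, Finset.sum_add_distrib]
  congr 1
  have : ∀ t ∈ S, ∑ t' ∈ S, ∑ r ∈ S, (if z = t then zw W [t', r, a] else 0) =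
      if z = t then ∑ t' ∈ S, ∑ r ∈ S, zw W [t', r, a] else 0 := by
    intro t _
    by_cases h : z = t <;> simp [h]
  rw [Finset.sum_congr rfl this, Finset.sum_ite_eq]

lemma ic_two (τ : ℕ) (W : List α) :
    ic (mem S) a (fun t => (t : ℤ) ^ 2) τ W =
      (τ : ℤ) ^ 2 * zw W [a] + 2 * τ * K1 S a W + (2 * K2 S a W + K1 S a W) := by
  induction W generalizing τ with
  | nil => simp [ic, K1, K2, zw_nil_left]
  | cons z W ih =>
    simp only [ic, ih, K1_cons, K2_cons, zw_cons_cons, zw_nil_right]
    by_cases h : z ∈ S
    · have e : stp (mem S) z = 1 := by simp [stp, mem, h]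
      rw [e]
      simp only [h, if_true]
      by_cases h2 : z = a
      · simp only [h2, if_true]
        push_cast
        ring
      · simp only [h2, if_false]
        push_cast
        ring
    · have e : stp (mem S) z = 0 := by simp [stp, mem, h]
      rw [e]
      simp only [h, if_false]
      by_cases h2 : z = a
      · simp only [h2, if_true]
        push_cast
        ring
      · simp only [h2, if_false]
        push_cast
        ring

lemma ic_three (τ : ℕ) (W : List α) :
    ic (mem S) a (fun t => (t : ℤ) ^ 3) τ W =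
      (τ : ℤ) ^ 3 * zw W [a] + 3 * (τ : ℤ) ^ 2 * K1 S a W + τ * (6 * K2 S a W + 3 * K1 S a W) +
        (6 * K3 S a W + 6 * K2 S a W + K1 S a W) := by
  induction W generalizing τ with
  | nil => simp [ic, K1, K2, K3, zw_nil_left]
  | cons z W ih =>
    simp only [ic, ih, K1_cons, K2_cons, K3_cons, zw_cons_cons, zw_nil_right]
    by_cases h : z ∈ S
    · have e : stp (mem S) z = 1 := by simp [stp, mem, h]
      rw [e]
      simp only [h, if_true]
      by_cases h2 : z = a
      · simp only [h2, if_true]
        push_cast
        ring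
      · simp only [h2, if_false]
        push_cast
        ring
    · have e : stp (mem S) z = 0 := by simp [stp, mem, h]
      rw [e]
      simp only [h, if_false]
      by_cases h2 : z = a
      · simp only [h2, if_true]
        push_cast
        ring
      · simp only [h2, if_false]
        push_cast
        ring

variable [Fintype α]

lemma az_K1 : AZ (K1 S a : List α → ℤ) := by
  unfold K1
  apply AZ.finset_sum
  intro t _
  exact az_zw _ (by simp)

lemma az_K2 : AZ (K2 S a : List α → ℤ) := by
  unfold K2
  apply AZ.finset_sum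
  intro t _
  apply AZ.finset_sum
  intro t' _
  exact az_zw _ (by simp)

/-- The sums over triples of letters of `S`, for every last letter. -/
theorem rel_G4 : AZ (K3 S a : List α → ℤ) := by
  have h1 := az_ic_modper (mem S) a (ModPer.pow 3)
  have h2 := (az_K2 S a).const_mul 6
  have h3 := az_K1 S a
  have h4 := (h1.sub h2).sub h3
  refine AZ.cancel (c := 6) (by norm_num) ?_
  convert h4 using 2 with w
  rw [ic_three]
  simp only [Nat.cast_zero, Nat.cast_ofNat]
  ring

lemma ps_K2 (w : List α) :
    ps y (K2 S a) w = ∑ t ∈ S, ∑ t' ∈ S, zw w [t, t', a, y] := by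
  unfold K2
  rw [ps_finset_sum]
  apply Finset.sum_congr rfl
  intro t _
  rw [ps_finset_sum]
  apply Finset.sum_congr rfl
  intro t' _
  exact ps_zw y _ w

lemma ps_K1 (w : List α) :
    ps y (K1 S a) w = ∑ t ∈ S, zw w [t, a, y] := by
  unfold K1
  rw [ps_finset_sum]
  apply Finset.sum_congr rfl
  intro t _
  exact ps_zw y _ w

/-- The sums over pairs of letters of `S`, followed by `a` and `y`. -/
theorem rel_G3 (ha : a ∈ S) (hy : y ∉ S) :
    AZ (fun w : List α => ∑ t ∈ S, ∑ t' ∈ S, zw w [t, t', a, y]) := by
  have h1 := az_Xd (mem S) a y (by simp [mem, ha]) (by simp [mem, hy]) (ModPer.pow 0) (ModPer.pow 2)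
  have h3 : AZ (fun w : List α => ∑ t ∈ S, zw w [t, a, y]) := by
    apply AZ.finset_sum
    intro t _
    exact az_zw _ (by simp)
  have h4 := h1.sub h3
  refine AZ.cancel (c := 2) (by norm_num) ?_
  convert h4 using 2 with w
  have e : Xd (mem S) a y (fun t => (t : ℤ) ^ 0) (fun t => (t : ℤ) ^ 2) w =
      ps y (fun W => 2 * K2 S a W + K1 S a W) w := by
    apply ps_congr
    intro W
    rw [ic_two]
    simp
  rw [e, ps_add, ps_const_mul, ps_K2, ps_K1]
  push_cast
  ring

/-- The double sums as relations. -/
theorem rel_G1 (ha : a ∈ S) (hy : y ∉ S) : AZ (fun w : List α =>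
    ∑ s ∈ S, ∑ t ∈ S, (zw w [s, t, a, y] + zw w [t, s, a, y] + zw w [t, a, s, y])) := by
  have h1 := az_Xd (mem S) a y (by simp [mem, ha]) (by simp [mem, hy]) (h := fun t => (t : ℤ))
    (g := fun t => (t : ℤ)) (by intro M t; simp) (by intro M t; simp)
  have hlow : AZ (fun w : List α => ∑ s ∈ S, ∑ t ∈ S, zs w ((lowl [s] [t, a]).map (· ++ [y]))) := by
    apply AZ.finset_sum
    intro s _
    apply AZ.finset_sum
    intro t _
    apply az_zs
    intro x hx
    obtain ⟨x', hx', rfl⟩ := List.mem_map.mp hx
    have := lowl_length [s] [t, a] x' hx'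
    simp only [List.length_append, List.length_cons, List.length_nil] at this ⊢
    omega
  have h2 := h1.sub hlow
  convert h2 using 2 with w
  have e1 : Xd (mem S) a y (fun t => (t : ℤ)) (fun t => (t : ℤ)) w =
      ∑ s ∈ S, ∑ t ∈ S, ps y (fun W => zw W [s] * zw W [t, a]) w := by
    have e0 : Xd (mem S) a y (fun t => (t : ℤ)) (fun t => (t : ℤ)) w =
        ps y (fun W => (∑ s ∈ S, zw W [s]) * ∑ t ∈ S, zw W [t, a]) w := by
      apply ps_congr
      intro W
      have h2 := ic_id S a 0 W
      simp only [Nat.cast_zero, zero_mul, zero_add] at h2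
      rw [h2]
      show ((W.filter (mem S)).length : ℤ) * _ = _
      rw [filter_mem]
    rw [e0]
    simp only [Finset.sum_mul_sum]
    rw [ps_finset_sum]
    apply Finset.sum_congr rfl
    intro s _
    rw [ps_finset_sum]
  rw [e1]
  simp only [ps_mul]
  rw [← Finset.sum_sub_distrib]
  apply Finset.sum_congr rfl
  intro s _
  rw [← Finset.sum_sub_distrib]
  apply Finset.sum_congr rfl
  intro t _
  simp only [shuf_cons, shuf_nil_left, shuf_nil_right, zs, List.map_cons, List.map_nil,
    List.map_append, List.sum_cons, List.sum_nil, List.append_nil, List.cons_append,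
    List.nil_append, List.sum_append, add_zero]
  ring

/-- The relations for a list of distinct letters. -/
theorem G1L (L : List α) (a y : α) (hL : L.Nodup) (ha : a ∈ L) (hy : y ∉ L) : AZ (fun w : List α =>
    (L.map fun s => (L.map fun t => zw w [s, t, a, y] + zw w [t, s, a, y] + zw w [t, a, s, y]).sum).sum) := by
  have h := rel_G1 L.toFinset a y (by simpa using ha) (by simpa using hy)
  convert h using 2 with w
  rw [List.sum_toFinset _ hL]
  congr 1
  apply List.map_congr_left
  intro s _
  rw [List.sum_toFinset _ hL]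

theorem G3L (L : List α) (a y : α) (hL : L.Nodup) (ha : a ∈ L) (hy : y ∉ L) : AZ (fun w : List α =>
    (L.map fun s => (L.map fun t => zw w [s, t, a, y]).sum).sum) := by
  have h := rel_G3 L.toFinset a y (by simpa using ha) (by simpa using hy)
  convert h using 2 with w
  rw [List.sum_toFinset _ hL]
  congr 1
  apply List.map_congr_left
  intro s _
  rw [List.sum_toFinset _ hL]

theorem G4L (L : List α) (y : α) (hL : L.Nodup) : AZ (fun w : List α =>
    (L.map fun r => (L.map fun s => (L.map fun t => zw w [r, s, t, y]).sum).sum).sum) := by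
  have h := rel_G4 L.toFinset y
  unfold K3 at h
  convert h using 2 with w
  rw [List.sum_toFinset _ hL]
  congr 1
  apply List.map_congr_left
  intro r _
  rw [List.sum_toFinset _ hL]
  congr 1
  apply List.map_congr_left
  intro s _
  rw [List.sum_toFinset _ hL]

end rels

end Vale.Agent.helper1.Gsh
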