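import Vale.Agent.helper1.Gsh.CyclicTop

/-!
A second counter on top of a counter: positions of a letter which does not move the carrier, read at
a given value of the first counter, are accessible modulo every integer.
-/

set_option linter.unusedSectionVars false
set_option linter.unusedSimpArgs false
set_option linter.style.haveILetI false
set_option linter.unusedVariables false

namespace Vale.Agent.helper1.Gsh

open Vale.Agent.helper5.GSH Vale.Agent.helper3.Gsh

section lift

variable {α S : Type} [DecidableEq S] (δ : S → α → S) (inc : S → α → Bool) {M : ℕ}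

/-- Entries into the state `(s₀, r)` which move the first counter, or are declared by `e`. -/
def liftInc (s₀ : S) (r : ZMod M) (e : S × ZMod M → α → Bool) (s : S × ZMod M) (z : α) : Bool :=
  decide (cStep δ inc M s z = (s₀, r)) && (inc s.1 z || e s z)

variable {δ inc}

lemma lift_cross {s₀ : S} (hs₀ : ∀ s x, inc s x = true → δ s x = s₀) (r : ZMod M)
    (e : S × ZMod M → α → Bool) (w : List α) (s : S) (Y : ℕ)
    (h : incCount (cStep δ inc M) (liftInc δ inc s₀ r e) (s, r + (Y : ZMod M)) w = 0)
    {C : ℕ} (hC : M ∣ C) (hY : Y < C) : Y + incCount δ inc s w < C := by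
  induction w generalizing s Y with
  | nil => simpa [incCount] using hY
  | cons x w ih =>
    simp only [incCount] at h ⊢
    by_cases hx : inc s x = true
    · have e1 : cStep δ inc M (s, r + (Y : ZMod M)) x = (δ s x, r + ((Y + 1 : ℕ) : ZMod M)) := by
        simp [cStep, hx, add_assoc]
      rw [e1] at h
      have hne : Y + 1 ≠ C := by
        intro h2
        have h3 : ((Y + 1 : ℕ) : ZMod M) = 0 := by
          rw [h2]
          exact (ZMod.natCast_eq_zero_iff C M).mpr hC
        have h4 : liftInc δ inc s₀ r e (s, r + (Y : ZMod M)) x = true := by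
          simp only [liftInc, e1, h3, hs₀ s x hx, add_zero, hx, decide_true, Bool.true_or,
            Bool.and_true]
        simp [h4] at h
      have h5 : incCount (cStep δ inc M) (liftInc δ inc s₀ r e) (δ s x, r + ((Y + 1 : ℕ) : ZMod M))
          w = 0 := by omega
      have := ih (δ s x) (Y + 1) h5 (by omega)
      simp only [hx, if_true]
      omega
    · have hx' : inc s x = false := by simpa using hx
      have e1 : cStep δ inc M (s, r + (Y : ZMod M)) x = (δ s x, r + (Y : ZMod M)) := by
        simp [cStep, hx']
      rw [e1] at h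
      have h5 : incCount (cStep δ inc M) (liftInc δ inc s₀ r e) (δ s x, r + (Y : ZMod M)) w = 0 := by
        omega
      have := ih (δ s x) Y h5 hY
      simp only [hx', Bool.false_eq_true, if_false]
      omega

/-- The second counter is good as soon as the first one is. -/
theorem lift_hC [NeZero M] {s₀ : S} (hs₀ : ∀ s x, inc s x = true → δ s x = s₀)
    (hC : ∀ (v : List α) (s : S) (k : ℕ), 0 < k → run δ s (vrep v k) = s →
      incCount δ inc s (vrep v k) = 0 → run δ s v = s) (r : ZMod M)
    (e : S × ZMod M → α → Bool) (v : List α) (q : S × ZMod M) (k : ℕ) (hk : 0 < k)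
    (h : run (cStep δ inc M) q (vrep v k) = q)
    (h0 : incCount (cStep δ inc M) (liftInc δ inc s₀ r e) q (vrep v k) = 0) :
    run (cStep δ inc M) q v = q := by
  obtain ⟨s, y⟩ := q
  have hM : 0 < M := NeZero.pos M
  rw [run_cStep] at h
  have h1 := congrArg Prod.fst h
  have h2 := congrArg Prod.snd h
  simp only at h1 h2
  have h3 : ((incCount δ inc s (vrep v k) : ℕ) : ZMod M) = 0 := by simpa using h2
  have h4 : M ∣ incCount δ inc s (vrep v k) := (ZMod.natCast_eq_zero_iff _ M).mp h3
  have hcount : incCount δ inc s (vrep v k) = 0 := by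
    by_contra hne
    have h5 : M ≤ incCount δ inc s (vrep v k) := Nat.le_of_dvd (by omega) h4
    have hY : r + (((y - r).val : ℕ) : ZMod M) = y := by
      rw [ZMod.natCast_zmod_val]
      ring
    have h6 := lift_cross (M := M) hs₀ r e (vrep v k) s (y - r).val (by rw [hY]; exact h0)
      (dvd_refl M) (ZMod.val_lt _)
    omega
  have hs := hC v s k hk h1 hcount
  obtain ⟨k', rfl⟩ : ∃ k', k = k' + 1 := ⟨k - 1, by omega⟩
  rw [run_cStep, hs]
  have h7 : incCount δ inc s v = 0 := by
    simp only [vrep, incCount_append] at hcount
    omega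
  simp [h7]

end lift

/-- The sum over the positions of `y` of a function of the prefix. -/
def ps {α : Type} [DecidableEq α] (y : α) : (List α → ℤ) → List α → ℤ
  | _, [] => 0
  | F, z :: w => (if z = y then F [] else 0) + ps y (fun W => F (z :: W)) w

section ps

variable {α : Type} [DecidableEq α] (y : α)

lemma ps_add (F G : List α → ℤ) (w : List α) :
    ps y (fun W => F W + G W) w = ps y F w + ps y G w := by
  induction w generalizing F G with
  | nil => simp [ps]
  | cons z w ih =>
    simp only [ps, ih]
    by_cases h : z = y <;> simp [h] <;> ring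

lemma ps_sub (F G : List α → ℤ) (w : List α) :
    ps y (fun W => F W - G W) w = ps y F w - ps y G w := by
  induction w generalizing F G with
  | nil => simp [ps]
  | cons z w ih =>
    simp only [ps, ih]
    by_cases h : z = y <;> simp [h] <;> ring

lemma ps_const_mul (c : ℤ) (F : List α → ℤ) (w : List α) :
    ps y (fun W => c * F W) w = c * ps y F w := by
  induction w generalizing F with
  | nil => simp [ps]
  | cons z w ih =>
    simp only [ps, ih]
    by_cases h : z = y <;> simp [h] <;> ring

lemma ps_finset_sum {ι : Type} (s : Finset ι) (F : ι → List α → ℤ) (w : List α) :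
    ps y (fun W => ∑ i ∈ s, F i W) w = ∑ i ∈ s, ps y (F i) w := by
  induction w generalizing F with
  | nil => simp [ps]
  | cons z w ih =>
    simp only [ps, ih, Finset.sum_add_distrib]
    congr 1
    by_cases h : z = y <;> simp [h]

lemma ps_congr {F G : List α → ℤ} (h : ∀ W, F W = G W) (w : List α) : ps y F w = ps y G w := by
  congr 1
  funext W
  exact h W

/-- Only the values modulo `M` matter for the value modulo `M`. -/
lemma ps_cast {M : ℕ} {F G : List α → ℤ} (h : ∀ W, ((F W : ℤ) : ZMod M) = (G W : ZMod M))
    (w : List α) : ((ps y F w : ℤ) : ZMod M) = (ps y G w : ZMod M) := by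
  induction w generalizing F G with
  | nil => simp [ps]
  | cons z w ih =>
    simp only [ps]
    push_cast
    rw [ih (F := fun W => F (z :: W)) (G := fun W => G (z :: W)) (fun W => h _)]
    by_cases hz : z = y
    · simp [hz, h]
    · simp [hz]

end ps

section generic

variable {α S : Type} [DecidableEq α] [DecidableEq S] (δ : S → α → S) (inc : S → α → Bool) {M : ℕ}
  (y : α)

lemma lift_diff (hy1 : ∀ s, δ s y = s) (hy2 : ∀ s, inc s y = false) (s₀ : S) (r : ZMod M)
    (q : S × ZMod M) (w : List α) :
    (incCount (cStep δ inc M) (liftInc δ inc s₀ r (fun _ z => decide (z = y))) q w : ℤ) -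
      incCount (cStep δ inc M) (liftInc δ inc s₀ r (fun _ _ => false)) q w =
    ps y (fun W => if run (cStep δ inc M) q W = (s₀, r) then 1 else 0) w := by
  induction w generalizing q with
  | nil => simp [incCount, ps]
  | cons z w ih =>
    simp only [incCount, ps]
    have h1 : _ = ps y (fun W => if run (cStep δ inc M) q (z :: W) = (s₀, r) then 1 else 0) w :=
      ih (cStep δ inc M q z)
    have key : ((if liftInc δ inc s₀ r (fun _ z => decide (z = y)) q z then 1 else 0 : ℕ) : ℤ) -
        ((if liftInc δ inc s₀ r (fun _ _ => false) q z then 1 else 0 : ℕ) : ℤ) =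
        if z = y then (if run (cStep δ inc M) q [] = (s₀, r) then 1 else 0) else 0 := by
      by_cases hz : z = y
      · subst hz
        have e1 : cStep δ inc M q z = q := by
          obtain ⟨s, l⟩ := q
          simp [cStep, hy1, hy2]
        simp only [liftInc, e1, hy2]
        by_cases h4 : q = (s₀, r)
        · simp [h4]
        · simp [h4]
      · simp [liftInc, hz]
    push_cast at key ⊢
    linear_combination key + h1

variable [Fintype α] [Finite S] {δ inc} {s₀ : S}

lemma az_level (hs₀ : ∀ s x, inc s x = true → δ s x = s₀)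
    (hC : ∀ (v : List α) (s : S) (k : ℕ), 0 < k → run δ s (vrep v k) = s →
      incCount δ inc s (vrep v k) = 0 → run δ s v = s)
    (hy1 : ∀ s, δ s y = s) (hy2 : ∀ s, inc s y = false) [NeZero M] (r : ZMod M)
    (q : S × ZMod M) :
    AZ (fun w => ps y (fun W => if run (cStep δ inc M) q W = (s₀, r) then 1 else 0) w) := by
  intro M₂ _
  have h0 : ∀ e : S × ZMod M → α → Bool,
      ∀ s x, liftInc δ inc s₀ r e s x = true → cStep δ inc M s x = (s₀, r) := by
    intro e s x h
    simp only [liftInc, Bool.and_eq_true, decide_eq_true_eq] at h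
    exact h.1
  have h1 := acc_incCount (M := M₂) (δ := cStep δ inc M)
    (inc := liftInc δ inc s₀ r (fun _ z => decide (z = y))) (s₀ := (s₀, r)) (h0 _)
    (fun v s k hk h h' => lift_hC hs₀ hC r _ v s k hk h h') q
  have h2 := acc_incCount (M := M₂) (δ := cStep δ inc M)
    (inc := liftInc δ inc s₀ r (fun _ _ => false)) (s₀ := (s₀, r)) (h0 _)
    (fun v s k hk h h' => lift_hC hs₀ hC r _ v s k hk h h') q
  have h3 := h1.sub h2
  convert h3 using 2 with w
  have h4 := lift_diff δ inc y hy1 hy2 s₀ r q w
  simp only []
  rw [← h4]
  push_cast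
  rfl

/-- The number of positions of `y` at the state `s₀`. -/
lemma az_visits (hs₀ : ∀ s x, inc s x = true → δ s x = s₀)
    (hC : ∀ (v : List α) (s : S) (k : ℕ), 0 < k → run δ s (vrep v k) = s →
      incCount δ inc s (vrep v k) = 0 → run δ s v = s)
    (hy1 : ∀ s, δ s y = s) (hy2 : ∀ s, inc s y = false) (s : S) :
    AZ (fun w => ps y (fun W => if run δ s W = s₀ then 1 else 0) w) := by
  have h1 := az_level (M := 1) y hs₀ hC hy1 hy2 0 (s, 0)
  convert h1 using 2 with w
  apply ps_congr
  intro W
  rw [run_cStep]
  have : ∀ a : ZMod 1, a = 0 := fun a => Subsingleton.elim _ _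
  simp [this]

/-- The values of the counter at the positions of `y` at the state `s₀`, summed. -/
lemma az_values (hs₀ : ∀ s x, inc s x = true → δ s x = s₀)
    (hC : ∀ (v : List α) (s : S) (k : ℕ), 0 < k → run δ s (vrep v k) = s →
      incCount δ inc s (vrep v k) = 0 → run δ s v = s)
    (hy1 : ∀ s, δ s y = s) (hy2 : ∀ s, inc s y = false) (s : S) :
    AZ (fun w => ps y (fun W => if run δ s W = s₀ then (incCount δ inc s W : ℤ) else 0) w) := by
  classical
  intro M _
  have h1 : Acc (fun w => ∑ r : ZMod M, (r.val : ZMod M) *
      ((ps y (fun W => if run (cStep δ inc M) (s, 0) W = (s₀, r) then 1 else 0) w : ℤ) : ZMod M)) :=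
    Acc.finset_sum _ (fun r _ => (Acc.const _).mul (az_level y hs₀ hC hy1 hy2 r (s, 0) M))
  convert h1 using 2 with w
  have h2 : ((ps y (fun W => if run δ s W = s₀ then (incCount δ inc s W : ℤ) else 0) w : ℤ) :
      ZMod M) = (ps y (fun W => ∑ r : ZMod M, (r.val : ℤ) *
        (if run (cStep δ inc M) (s, 0) W = (s₀, r) then 1 else 0)) w : ℤ) := by
    apply ps_cast
    intro W
    rw [run_cStep]
    by_cases h3 : run δ s W = s₀
    · rw [Finset.sum_eq_single ((incCount δ inc s W : ℕ) : ZMod M)]
      · simp [h3]
      · intro b _ hb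
        have : ¬ ((incCount δ inc s W : ℕ) : ZMod M) = b := fun h => hb h.symm
        simp [h3, this]
      · intro h
        exact absurd (Finset.mem_univ _) h
    · simp [h3]
  rw [h2, ps_finset_sum]
  push_cast
  apply Finset.sum_congr rfl
  intro r _
  rw [ps_const_mul]
  push_cast
  simp

end generic

section blocks

variable {α : Type} [DecidableEq α] [Fintype α] (P : α → Bool) (a y : α) {n : ℕ} (hn : 0 < n)

include hn in
lemma bδ_hy (hy : P y = false) (s : Pl α n) : bδ P hn s y = s := by
  apply Subtype.ext
  simp [bδ, bstep, hy]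

lemma bi_hy (hy : P y = false) (E : List α → Bool) (s : Pl α n) : bi P E s y = false := by
  simp [bi, binc, hy]

lemma hC_E₀ (v : List α) (s : Pl α n) (k : ℕ) (hk : 0 < k)
    (h : run (bδ P hn) s (vrep v k) = s)
    (h0 : incCount (bδ P hn) (bi P (fun _ => false)) s (vrep v k) = 0) : run (bδ P hn) s v = s := by
  apply Subtype.ext
  rw [bδ_run]
  rw [bi_count] at h0
  exact hC_plain P hn v s.1 s.2 k hk (by rw [← bδ_run P hn, h]) h0

lemma hC_Ec (c : Fin n → α) (hprim : ∀ m, (∀ i, cfn hn c (i + m) = cfn hn c i) → n ∣ m)
    (v : List α) (s : Pl α n) (k : ℕ) (hk : 0 < k)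
    (h : run (bδ P hn) s (vrep v k) = s)
    (h0 : incCount (bδ P hn) (bi P (fun b => decide (b = bl hn c))) s (vrep v k) = 0) :
    run (bδ P hn) s v = s := by
  apply Subtype.ext
  rw [bδ_run]
  rw [bi_count] at h0
  exact hC_exempt P (cfn_period hn c) (fun i hi => bl_getElem? hn c i hi) hprim hn v s.1 s.2 k
    hk (by rw [← bδ_run P hn, h]) h0

lemma run_eq_base (s : Pl α n) (W : List α) :
    run (bδ P hn) s W = (⟨[], hn⟩ : Pl α n) ↔ run (bstep P n) s.1 W = [] := by
  rw [← bδ_run P hn]
  exact Subtype.ext_iff

include hn in
/-- The main lemma at a boundary of blocks: a function of the phase with vanishing sums over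
subgroups, summed over the positions of `a`, and then over the positions of `y` at the boundary. -/
lemma az_boundary (ha : P a = true) (hy : P y = false) {f : ℕ → ℤ} (hf : ∀ t, f (t + n) = f t)
    (hT : ∀ g, g ∣ n → g < n → ∀ t, Top n g f t = 0) (s : Pl α n) :
    AZ (fun w => ps y (fun W => if run (bstep P n) s.1 W = [] then ic P a f s.1.length W else 0) w) := by
  classical
  have hv : AZ (fun w => ps y (fun W => if run (bstep P n) s.1 W = [] then 1 else 0) w) := by
    have := az_visits (inc := bi P (fun _ => false)) (s₀ := (⟨[], hn⟩ : Pl α n)) y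
      (bi_target P hn _) (hC_E₀ P hn) (bδ_hy P y hn hy) (bi_hy P y hy _) s
    convert this using 2 with w
    apply ps_congr
    intro W
    simp only [run_eq_base]
  have h0 : AZ (fun w => ps y (fun W => if run (bstep P n) s.1 W = [] then
      (incCount (bstep P n) (binc P n (fun _ => false)) s.1 W : ℤ) else 0) w) := by
    have := az_values (inc := bi P (fun _ => false)) (s₀ := (⟨[], hn⟩ : Pl α n)) y
      (bi_target P hn _) (hC_E₀ P hn) (bδ_hy P y hn hy) (bi_hy P y hy _) s
    convert this using 2 with w
    apply ps_congr
    intro W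
    simp only [run_eq_base, bi_count]
  have hc : ∀ c : Fin n → α, AZ (fun w => ib a f 0 (bl hn c) * ps y (fun W =>
      if run (bstep P n) s.1 W = [] then Xc P n (bl hn c) s.1 W else 0) w) := by
    intro c
    by_cases hprim : ∀ m, (∀ i, cfn hn c (i + m) = cfn hn c i) → n ∣ m
    · apply AZ.const_mul
      have h1 : AZ (fun w => ps y (fun W => if run (bstep P n) s.1 W = [] then
          (incCount (bstep P n) (binc P n (fun b => decide (b = bl hn c))) s.1 W : ℤ) else 0) w) := by
        have := az_values (inc := bi P (fun b => decide (b = bl hn c)))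
          (s₀ := (⟨[], hn⟩ : Pl α n)) y
          (bi_target P hn _) (hC_Ec P hn c hprim) (bδ_hy P y hn hy) (bi_hy P y hy _) s
        convert this using 2 with w
        apply ps_congr
        intro W
        simp only [run_eq_base, bi_count]
      convert h0.sub h1 using 2 with w
      rw [← ps_sub]
      apply ps_congr
      intro W
      by_cases h2 : run (bstep P n) s.1 W = []
      · simp [h2, Xc]
      · simp [h2]
    · push Not at hprim
      obtain ⟨m, hm1, hm2⟩ := hprim
      have h2 : ib a f 0 (bl hn c) = 0 := by
        rw [bl, ib_range]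
        exact vanish a hn (cfn_period hn c) hf hm2 hm1 hT
      simp only [h2, zero_mul]
      exact AZ.const 0
  have h4 := (AZ.finset_sum Finset.univ (fun c _ => hc c)).sub (hv.const_mul (ib a f 0 s.1))
  convert h4 using 2 with w
  rw [← ps_const_mul]
  have h5 : ∑ c : Fin n → α, ib a f 0 (bl hn c) * ps y (fun W =>
      if run (bstep P n) s.1 W = [] then Xc P n (bl hn c) s.1 W else 0) w =
      ps y (fun W => ∑ c : Fin n → α, ib a f 0 (bl hn c) *
        if run (bstep P n) s.1 W = [] then Xc P n (bl hn c) s.1 W else 0) w := by
    rw [ps_finset_sum]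
    apply Finset.sum_congr rfl
    intro c _
    rw [ps_const_mul]
  rw [h5, ← ps_sub]
  apply ps_congr
  intro W
  have h6 := ident P a hn ha hf W s.1 s.2
  by_cases h7 : run (bstep P n) s.1 W = []
  · simp only [h7, if_true]
    rw [h7] at h6
    simp only [ib, add_zero] at h6
    linarith
  · simp [h7]

include hn in
/-- The same for a phase `t`: the positions of `y` read at the phase `t`. -/
theorem az_phase (ha : P a = true) (hy : P y = false) {f : ℕ → ℤ} (hf : ∀ t, f (t + n) = f t)
    (hT : ∀ g, g ∣ n → g < n → ∀ t, Top n g f t = 0) (t : ℕ) :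
    AZ (fun w => ps y (fun W => if (W.filter P).length % n = t % n then ic P a f 0 W else 0) w) := by
  have hq : (n - t % n) % n < n := Nat.mod_lt _ hn
  set q := (n - t % n) % n with hqdef
  have hqt : (q + t) % n = 0 := by
    have h1 : t % n < n := Nat.mod_lt _ hn
    have h2 : (q + t) % n = ((n - t % n) % n + t % n) % n := by
      rw [Nat.add_mod q t, hqdef, Nat.mod_mod]
    rw [h2, Nat.mod_add_mod]
    have : n - t % n + t % n = n := by omega
    rw [this]
    simp
  set l : List α := List.replicate q a with hl
  have hlen : l.length = q := by simp [hl]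
  have hlt : l.length < n := by rw [hlen]; exact hq
  set f' : ℕ → ℤ := fun i => f (i + t) with hf'
  have hf'per : ∀ i, f' (i + n) = f' i := by
    intro i
    simp only [hf']
    have : i + n + t = i + t + n := by omega
    rw [this, hf]
  have hT' : ∀ g, g ∣ n → g < n → ∀ i, Top n g f' i = 0 := by
    intro g hg hlt i
    have := hT g hg hlt (i + t)
    simp only [Top, hf'] at this ⊢
    rw [← this]
    apply Finset.sum_congr rfl
    intro j _
    congr 1
    omega
  have h1 := az_boundary P a y hn ha hy hf'per hT' (⟨l, hlt⟩ : Pl α n)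
  convert h1 using 2 with w
  apply ps_congr
  intro W
  have h2 : run (bstep P n) l W = [] ↔ (W.filter P).length % n = t % n := by
    obtain ⟨h3, h4⟩ := run_length P hn W l hlt
    rw [hlen] at h4
    constructor
    · intro h5
      rw [h5] at h4
      simp only [List.length_nil, Nat.zero_mod] at h4
      have h6 : (q + (W.filter P).length) % n = (q + t) % n := by rw [← h4, hqt]
      exact Nat.ModEq.add_left_cancel' q h6
    · intro h5
      have h6 : (q + (W.filter P).length) % n = (q + t) % n := Nat.ModEq.add_left q h5
      rw [← h4, hqt, Nat.mod_eq_of_lt h3] at h6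
      exact List.length_eq_zero_iff.mp h6
  have h3 : ic P a f' l.length W = ic P a f 0 W := by
    have h4 := ic_shift P a f' 0 l.length W
    rw [zero_add] at h4
    rw [h4]
    congr 1
    funext i
    simp only [hf']
    have h5 : i + l.length + t = i + n * ((q + t) / n) := by
      rw [hlen]
      have := Nat.div_add_mod (q + t) n
      rw [hqt, add_zero] at this
      omega
    rw [h5]
    exact per_mul hf i _
  by_cases h5 : (W.filter P).length % n = t % n
  · simp only [h5, if_true, h2.mpr h5, h3]
  · have h6 : ¬ run (bstep P n) l W = [] := fun h => h5 (h2.mp h)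
    simp [h5, h6]

include hn in
/-- The double sums: a function `g` of the phase at `y`, and a function `f` of the phase at `a`. -/
theorem az_double (ha : P a = true) (hy : P y = false) {f : ℕ → ℤ} (hf : ∀ t, f (t + n) = f t)
    (hT : ∀ g, g ∣ n → g < n → ∀ t, Top n g f t = 0) {g : ℕ → ℤ} (hg : ∀ t, g (t + n) = g t) :
    AZ (fun w => ps y (fun W => g (W.filter P).length * ic P a f 0 W) w) := by
  have h1 : AZ (fun w => ∑ t ∈ Finset.range n, g t *
      ps y (fun W => if (W.filter P).length % n = t % n then ic P a f 0 W else 0) w) :=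
    AZ.finset_sum _ (fun t _ => (az_phase P a y hn ha hy hf hT t).const_mul _)
  convert h1 using 2 with w
  have h2 : ∑ t ∈ Finset.range n, g t *
      ps y (fun W => if (W.filter P).length % n = t % n then ic P a f 0 W else 0) w =
      ps y (fun W => ∑ t ∈ Finset.range n, g t *
        (if (W.filter P).length % n = t % n then ic P a f 0 W else 0)) w := by
    rw [ps_finset_sum]
    apply Finset.sum_congr rfl
    intro t _
    rw [ps_const_mul]
  rw [h2]
  apply ps_congr
  intro W
  set L := (W.filter P).length with hL
  rw [Finset.sum_eq_single (L % n)]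
  · simp only [Nat.mod_mod, if_true]
    rw [per_mod hg (a := L) (b := L % n) (by simp)]
  · intro b hb hne
    have hb' : b < n := Finset.mem_range.mp hb
    rw [Nat.mod_eq_of_lt hb']
    have : ¬ L % n = b := fun h => hne h.symm
    simp [this]
  · intro h
    exact absurd (Finset.mem_range.mpr (Nat.mod_lt _ hn)) h

end blocks

end Vale.Agent.helper1.Gsh
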