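import Vale.Agent.helper5.GSHSubword

/-!
Functions on words with values in a group, of bounded degree with respect to the lower central
series. They form a group, and the commutators of two of them have the sum of the degrees. As a
consequence, in a group of nilpotency class `c`, the value of a word is a fixed ordered product of
powers whose exponents are the subword counts of length at most `c`.
-/

set_option linter.unusedSectionVars false
set_option linter.unusedSimpArgs false
set_option linter.style.haveILetI false
set_option linter.unusedVariables false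

namespace Vale.Agent.helper1.Gsh

open Vale.Agent.helper5.GSH
open scoped commutatorElement

section filtration

variable {G : Type} [Group G]

lemma rotate_le {N : Subgroup G} [N.Normal] {H₁ H₂ H₃ : Subgroup G} (h1 : ⁅⁅H₂, H₃⁆, H₁⁆ ≤ N)
    (h2 : ⁅⁅H₃, H₁⁆, H₂⁆ ≤ N) : ⁅⁅H₁, H₂⁆, H₃⁆ ≤ N := by
  have key : ∀ A B C : Subgroup G, ⁅⁅A, B⁆, C⁆ ≤ N →
      ⁅⁅A.map (QuotientGroup.mk' N), B.map (QuotientGroup.mk' N)⁆, C.map (QuotientGroup.mk' N)⁆ = ⊥ := by
    intro A B C h
    rw [← Subgroup.map_commutator, ← Subgroup.map_commutator, Subgroup.map_eq_bot_iff,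
      QuotientGroup.ker_mk']
    exact h
  have h3 := Subgroup.commutator_commutator_eq_bot_of_rotate (key _ _ _ h1) (key _ _ _ h2)
  rw [← Subgroup.map_commutator, ← Subgroup.map_commutator, Subgroup.map_eq_bot_iff,
    QuotientGroup.ker_mk'] at h3
  exact h3

/-- The commutators of two terms of the lower central series. -/
lemma lcs_comm (j : ℕ) : ∀ i : ℕ, ⁅(⊤ : Subgroup G).lowerCentralSeries i,
    (⊤ : Subgroup G).lowerCentralSeries j⁆ ≤ (⊤ : Subgroup G).lowerCentralSeries (i + j + 1) := by
  induction j with
  | zero =>
    intro i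
    rw [Subgroup.lowerCentralSeries_zero, Nat.add_zero, Subgroup.lowerCentralSeries_succ]
  | succ j ih =>
    intro i
    rw [Subgroup.commutator_comm, Subgroup.lowerCentralSeries_succ]
    have e : i + (j + 1) + 1 = i + j + 1 + 1 := by omega
    rw [e]
    haveI : ((⊤ : Subgroup G).lowerCentralSeries (i + j + 1 + 1)).Normal := by infer_instance
    apply rotate_le
    · rw [Subgroup.commutator_comm ⊤, ← Subgroup.lowerCentralSeries_succ]
      have := ih (i + 1)
      have e2 : i + 1 + j + 1 = i + j + 1 + 1 := by omega
      rwa [e2] at this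
    · rw [Subgroup.lowerCentralSeries_succ (⊤ : Subgroup G) (i + j + 1)]
      exact Subgroup.commutator_mono (ih i) le_rfl

variable (G) in
/-- The filtration: the terms of index zero and one are the whole group. -/
def gam : ℕ → Subgroup G
  | 0 => ⊤
  | k + 1 => (⊤ : Subgroup G).lowerCentralSeries k

instance gam_normal (k : ℕ) : (gam G k).Normal := by
  cases k with
  | zero => show (⊤ : Subgroup G).Normal; infer_instance
  | succ k =>
    show ((⊤ : Subgroup G).lowerCentralSeries k).Normal
    infer_instance

lemma gam_anti (k : ℕ) : gam G (k + 1) ≤ gam G k := by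
  cases k with
  | zero => exact le_top
  | succ k => exact Subgroup.lowerCentralSeries_antitone (S := ⊤) (Nat.le_succ k)

lemma gam_mono {k l : ℕ} (h : k ≤ l) : gam G l ≤ gam G k := by
  induction h with
  | refl => exact le_rfl
  | step _ ih => exact (gam_anti _).trans ih

lemma gam_comm {i j : ℕ} {a b : G} (ha : a ∈ gam G i) (hb : b ∈ gam G j) : ⁅a, b⁆ ∈ gam G (i + j) := by
  cases i with
  | zero =>
    rw [Nat.zero_add, commutatorElement_def]
    exact (gam G j).mul_mem ((inferInstance : (gam G j).Normal).conj_mem b hb a)
      ((gam G j).inv_mem hb)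
  | succ i =>
    cases j with
    | zero =>
      rw [Nat.add_zero, commutatorElement_def, mul_assoc, mul_assoc]
      refine (gam G (i + 1)).mul_mem ha ?_
      have h2 := (inferInstance : (gam G (i + 1)).Normal).conj_mem a⁻¹ ((gam G (i + 1)).inv_mem ha) b
      simpa [mul_assoc] using h2
    | succ j =>
      have h1 : ⁅a, b⁆ ∈ ⁅(⊤ : Subgroup G).lowerCentralSeries i, (⊤ : Subgroup G).lowerCentralSeries j⁆ :=
        Subgroup.commutator_mem_commutator ha hb
      have h2 := lcs_comm (G := G) j i h1
      have e : i + 1 + (j + 1) = (i + j + 1) + 1 := by omega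
      rw [e]
      exact h2

end filtration

section degree

variable {α : Type} {G : Type} [Group G]

/-- The difference of a function on words along a letter put in front. -/
def dx (x : α) (f : List α → G) : List α → G := fun W => f (x :: W) * (f W)⁻¹

/-- The iterated differences. -/
def dd : List α → (List α → G) → List α → G
  | [], f => f
  | x :: xs, f => dd xs (dx x f)

/-- The differences of order at most `n` are in the filtration, with the index shifted by `j`. -/
def DD (n j : ℕ) (f : List α → G) : Prop :=
  ∀ xs : List α, xs.length ≤ n → ∀ W, dd xs f W ∈ gam G (j + xs.length)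

variable {n j : ℕ} {f : List α → G}

lemma DD.val (h : DD n j f) (W : List α) : f W ∈ gam G j := by
  simpa [dd] using h [] (by simp) W

lemma DD.diff (h : DD (n + 1) j f) (x : α) : DD n (j + 1) (dx x f) := by
  intro xs hxs W
  have := h (x :: xs) (by simp only [List.length_cons]; omega) W
  simp only [dd, List.length_cons] at this
  have e : j + 1 + xs.length = j + (xs.length + 1) := by omega
  rw [e]
  exact this

lemma DD.succ (hv : ∀ W, f W ∈ gam G j) (hd : ∀ x, DD n (j + 1) (dx x f)) : DD (n + 1) j f := by
  intro xs hxs W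
  cases xs with
  | nil => simpa [dd] using hv W
  | cons x xs =>
    have := hd x xs (by simp only [List.length_cons] at hxs; omega) W
    simp only [dd, List.length_cons]
    have e : j + (xs.length + 1) = j + 1 + xs.length := by omega
    rw [e]
    exact this

lemma DD.zero (hv : ∀ W, f W ∈ gam G j) : DD 0 j f := by
  intro xs hxs W
  cases xs with
  | nil => simpa [dd] using hv W
  | cons x xs => simp at hxs

lemma DD.mono_n {m : ℕ} (hm : m ≤ n) (h : DD n j f) : DD m j f :=
  fun xs hxs W => h xs (hxs.trans hm) W

lemma DD.mono_j {k : ℕ} (hk : k ≤ j) (h : DD n j f) : DD n k f :=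
  fun xs hxs W => gam_mono (by omega) (h xs hxs W)

lemma DD_one (n j : ℕ) : DD n j (fun _ : List α => (1 : G)) := by
  induction n generalizing j with
  | zero => exact DD.zero (fun _ => Subgroup.one_mem _)
  | succ n ih =>
    refine DD.succ (fun _ => Subgroup.one_mem _) (fun x => ?_)
    have : dx x (fun _ : List α => (1 : G)) = fun _ => 1 := by
      funext W
      simp [Vale.Agent.helper1.Gsh.dx]
    rw [this]
    exact ih _

lemma DD_const (n j : ℕ) {m : G} (hm : m ∈ gam G j) : DD n j (fun _ : List α => m) := by
  cases n with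
  | zero => exact DD.zero (fun _ => hm)
  | succ n =>
    refine DD.succ (fun _ => hm) (fun x => ?_)
    have : dx x (fun _ : List α => m) = fun _ => 1 := by
      funext W
      simp [Vale.Agent.helper1.Gsh.dx]
    rw [this]
    exact DD_one _ _

/-- The closure properties. -/
theorem closure_all (n : ℕ) :
    (∀ (j : ℕ) (f h : List α → G), DD n j f → DD n j h → DD n j (fun W => f W * h W)) ∧
    (∀ (j : ℕ) (f : List α → G), DD n j f → DD n j (fun W => (f W)⁻¹)) ∧
    (∀ (i j : ℕ) (f h : List α → G), DD n i f → DD n j h → DD n (i + j) (fun W => ⁅f W, h W⁆)) := by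
  induction n with
  | zero =>
    refine ⟨fun j f h hf hh => DD.zero (fun W => (gam G j).mul_mem (hf.val W) (hh.val W)),
      fun j f hf => DD.zero (fun W => (gam G j).inv_mem (hf.val W)),
      fun i j f h hf hh => DD.zero (fun W => gam_comm (hf.val W) (hh.val W))⟩
  | succ n ih =>
    obtain ⟨hM, hI, hC⟩ := ih
    have hConj : ∀ (k : ℕ) (g c : List α → G), DD n 0 g → DD n k c →
        DD n k (fun W => g W * c W * (g W)⁻¹) := by
      intro k g c hg hc
      have h1 := hC 0 k g c hg hc
      rw [Nat.zero_add] at h1
      have h2 := hM k _ _ h1 hc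
      convert h2 using 2 with W
      simp [commutatorElement_def]
    refine ⟨?_, ?_, ?_⟩
    · intro j f h hf hh
      refine DD.succ (fun W => (gam G j).mul_mem (hf.val W) (hh.val W)) (fun x => ?_)
      have h1 := hConj (j + 1) f (dx x h) ((hf.mono_n (Nat.le_succ n)).mono_j (Nat.zero_le _)) (hh.diff x)
      have h2 := hM (j + 1) _ _ (hf.diff x) h1
      convert h2 using 1
      funext W
      simp only [Vale.Agent.helper1.Gsh.dx]
      group
    · intro j f hf
      refine DD.succ (fun W => (gam G j).inv_mem (hf.val W)) (fun x => ?_)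
      have h0 := hI j f (hf.mono_n (Nat.le_succ n))
      have h1 := hConj (j + 1) (fun W => (f W)⁻¹) (fun W => (dx x f W)⁻¹) (h0.mono_j (Nat.zero_le _))
        (hI (j + 1) _ (hf.diff x))
      convert h1 using 1
      funext W
      simp only [Vale.Agent.helper1.Gsh.dx]
      group
    · intro i j f h hf hh
      refine DD.succ (fun W => gam_comm (hf.val W) (hh.val W)) (fun x => ?_)
      have hf0 : DD n i f := hf.mono_n (Nat.le_succ n)
      have hh0 : DD n j h := hh.mono_n (Nat.le_succ n)
      have hf1 : DD n (i + 1) (dx x f) := hf.diff x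
      have hh1 : DD n (j + 1) (dx x h) := hh.diff x
      have hc : DD n (i + j) (fun W => ⁅f W, h W⁆) := hC i j f h hf0 hh0
      -- the four terms
      have hA : DD n (i + j + 1) (fun W => dx x f W * ⁅f W, dx x h W⁆ * (dx x f W)⁻¹) := by
        refine hConj _ _ _ (hf1.mono_j (Nat.zero_le _)) ?_
        exact (hC i (j + 1) f (dx x h) hf0 hh1).mono_j (by omega)
      have hr : DD n 1 (fun W => dx x f W * dx x h W) :=
        hM 1 _ _ (hf1.mono_j (by omega)) (hh1.mono_j (by omega))
      have hB : DD n (i + j + 1) (fun W => ⁅dx x f W * dx x h W, ⁅f W, h W⁆⁆) :=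
        (hC 1 (i + j) _ _ hr hc).mono_j (by omega)
      have hD0 : DD n (i + j + 1) (fun W => ⁅dx x f W, dx x h W⁆) :=
        (hC (i + 1) (j + 1) _ _ hf1 hh1).mono_j (by omega)
      have hD : DD n (i + j + 1) (fun W => ⁅f W, h W⁆ * ⁅dx x f W, dx x h W⁆ * (⁅f W, h W⁆)⁻¹) :=
        hConj _ _ _ (hc.mono_j (Nat.zero_le _)) hD0
      have hE0 : DD n (i + j + 1) (fun W => dx x h W * ⁅dx x f W, h W⁆ * (dx x h W)⁻¹) :=
        hConj _ _ _ (hh1.mono_j (Nat.zero_le _)) ((hC (i + 1) j _ _ hf1 hh0).mono_j (by omega))
      have hE : DD n (i + j + 1) (fun W => ⁅f W, h W⁆ *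
          (dx x h W * ⁅dx x f W, h W⁆ * (dx x h W)⁻¹) * (⁅f W, h W⁆)⁻¹) :=
        hConj _ _ _ (hc.mono_j (Nat.zero_le _)) hE0
      have h1 := hM _ _ _ (hM _ _ _ (hM _ _ _ hA hB) hD) hE
      convert h1 using 1
      funext W
      simp only [Vale.Agent.helper1.Gsh.dx, commutatorElement_def]
      group

lemma DD.mul {g : List α → G} (hf : DD n j f) (hg : DD n j g) : DD n j (fun W => f W * g W) :=
  (closure_all n).1 j f g hf hg

lemma DD.inv (hf : DD n j f) : DD n j (fun W => (f W)⁻¹) :=
  (closure_all n).2.1 j f hf

end degree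

section powers

variable {α : Type} [DecidableEq α] {G : Type} [Group G]

/-- The powers whose exponents are subword counts. -/
lemma DD_pow (n : ℕ) (u : List α) (j : ℕ) {m : G} (hm : m ∈ gam G (j + u.length)) :
    DD n j (fun W : List α => m ^ sw W u) := by
  have hval : ∀ W : List α, m ^ sw W u ∈ gam G j := fun W =>
    gam_mono (by omega) (Subgroup.pow_mem _ hm _)
  induction n generalizing u j with
  | zero => exact DD.zero hval
  | succ n ih =>
    refine DD.succ hval (fun x => ?_)
    cases u with
    | nil =>
      have : dx x (fun W : List α => m ^ sw W []) = fun _ => 1 := by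
        funext W
        simp [dx]
      rw [this]
      exact DD_one _ _
    | cons y v =>
      by_cases hxy : x = y
      · have : dx x (fun W : List α => m ^ sw W (y :: v)) = fun W => m ^ sw W v := by
          funext W
          simp only [dx, sw_cons_cons, hxy, if_true]
          rw [add_comm, pow_add]
          group
        rw [this]
        have hm' : m ∈ gam G (j + 1 + v.length) := by
          have e : j + 1 + v.length = j + (y :: v).length := by simp only [List.length_cons]; omega
          rw [e]
          exact hm
        exact ih v (j + 1) hm' (fun W => gam_mono (by omega) (Subgroup.pow_mem _ hm' _))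
      · have : dx x (fun W : List α => m ^ sw W (y :: v)) = fun _ => 1 := by
          funext W
          simp [dx, sw_cons_cons, hxy]
        rw [this]
        exact DD_one _ _

/-- The value of a word has degree one. -/
lemma DD_word (g : α → G) (n : ℕ) : DD n 0 (fun W : List α => (W.map g).prod) := by
  cases n with
  | zero => exact DD.zero (fun _ => Subgroup.mem_top _)
  | succ n =>
    refine DD.succ (fun _ => Subgroup.mem_top _) (fun x => ?_)
    have : dx x (fun W : List α => (W.map g).prod) = fun _ => g x := by
      funext W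
      simp [dx]
    rw [this]
    exact DD_const _ _ (Subgroup.mem_top _)

/-- The ordered products of powers with exponents the subword counts. -/
def lprod (L : List (G × List α)) (W : List α) : G := (L.map fun p => p.1 ^ sw W p.2).prod

lemma lprod_nil (W : List α) : lprod ([] : List (G × List α)) W = 1 := rfl

lemma lprod_append (L L' : List (G × List α)) (W : List α) :
    lprod (L ++ L') W = lprod L W * lprod L' W := by
  simp [lprod]

lemma DD_lprod (n : ℕ) (L : List (G × List α)) (h : ∀ p ∈ L, p.1 ∈ gam G p.2.length) :
    DD n 0 (lprod L) := by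
  induction L with
  | nil => exact DD_one _ _
  | cons p L ih =>
    have h1 := h p (by simp)
    have h2 := ih (fun q hq => h q (by simp [hq]))
    have h3 : DD n 0 (fun W : List α => p.1 ^ sw W p.2) :=
      DD_pow n p.2 0 (by simpa using h1)
    have := h3.mul h2
    convert this using 1
    funext W
    simp [lprod]

end powers

section taylor

variable {α : Type} [DecidableEq α] [Fintype α] {A : Type} [CommGroup A]

/-- Expressible with subwords of length at most `d`. -/
def Expr (d : ℕ) (f : List α → A) : Prop :=
  ∃ L : List (A × List α), (∀ p ∈ L, p.2.length ≤ d) ∧ ∀ W, f W = lprod L W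

lemma Expr.mul {d : ℕ} {f h : List α → A} (hf : Expr d f) (hh : Expr d h) :
    Expr d (fun W => f W * h W) := by
  obtain ⟨L, hL, hfL⟩ := hf
  obtain ⟨L', hL', hhL⟩ := hh
  refine ⟨L ++ L', ?_, fun W => by
    show f W * h W = _
    rw [hfL, hhL, lprod_append]⟩
  intro p hp
  rcases List.mem_append.mp hp with hp | hp
  · exact hL p hp
  · exact hL' p hp

lemma Expr.const (d : ℕ) (a : A) : Expr d (fun _ : List α => a) :=
  ⟨[(a, [])], by simp, fun W => by simp [lprod]⟩

lemma Expr.finset_prod {ι : Type} (d : ℕ) (s : Finset ι) (F : ι → List α → A)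
    (h : ∀ i ∈ s, Expr d (F i)) : Expr d (fun W => ∏ i ∈ s, F i W) := by
  classical
  induction s using Finset.induction_on with
  | empty =>
    simpa using Expr.const (α := α) d (1 : A)
  | insert a s ha ih =>
    simp only [Finset.prod_insert ha]
    exact (h a (by simp)).mul (ih (fun i hi => h i (by simp [hi])))

lemma lprod_shift_expr (d : ℕ) (x : α) (L : List (A × List α)) (hL : ∀ p ∈ L, p.2.length ≤ d) :
    Expr (d + 1) (fun W => (L.map fun p => p.1 ^ sw W (x :: p.2)).prod) := by
  refine ⟨L.map fun p => (p.1, x :: p.2), ?_, fun W => ?_⟩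
  · intro p hp
    obtain ⟨q, hq, rfl⟩ := List.mem_map.mp hp
    simpa using hL q hq
  · simp [lprod, Function.comp_def]

lemma lprod_shift_cons (z x : α) (W : List α) (L : List (A × List α)) :
    (L.map fun p => p.1 ^ sw (z :: W) (x :: p.2)).prod =
      (L.map fun p => p.1 ^ sw W (x :: p.2)).prod * if z = x then lprod L W else 1 := by
  induction L with
  | nil =>
    by_cases h : z = x <;> simp [h, lprod]
  | cons p L ih =>
    rw [List.map_cons, List.prod_cons, ih, List.map_cons, List.prod_cons, sw_cons_cons]
    by_cases h : z = x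
    · simp only [h, if_true, lprod, List.map_cons, List.prod_cons, pow_add]
      ac_rfl
    · simp only [h, if_false, add_zero, mul_one]

/-- The expansion of a function whose differences of order `d + 1` vanish. -/
theorem taylor (d : ℕ) : ∀ f : List α → A, (∀ xs : List α, xs.length = d + 1 → ∀ W, dd xs f W = 1) →
    Expr d f := by
  induction d with
  | zero =>
    intro f hf
    have h1 : ∀ W, f W = f [] := by
      intro W
      induction W with
      | nil => rfl
      | cons z W ih =>
        have := hf [z] (by simp) W
        simp only [dd, dx] at this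
        rw [← ih, ← mul_inv_eq_one]
        exact this
    exact ⟨[(f [], [])], by simp, fun W => by simp [lprod, h1 W]⟩
  | succ d ih =>
    intro f hf
    have hx : ∀ x : α, Expr d (dx x f) := by
      intro x
      apply ih
      intro xs hxs W
      exact hf (x :: xs) (by simp [hxs]) W
    choose L hL hLe using hx
    have h2 : Expr (d + 1) (fun W => f [] * ∏ x : α, ((L x).map (fun p => p.1 ^ sw W (x :: p.2))).prod) := by
      refine (Expr.const _ _).mul ?_
      exact Expr.finset_prod _ _ _ (fun x _ => lprod_shift_expr d x (L x) (hL x))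
    have h3 : ∀ W, f W = f [] * ∏ x : α, ((L x).map (fun p => p.1 ^ sw W (x :: p.2))).prod := by
      intro W
      induction W with
      | nil =>
        have : ∀ x : α, ((L x).map (fun p => p.1 ^ sw ([] : List α) (x :: p.2))).prod = 1 := by
          intro x
          simp
        simp [this]
      | cons z W ih2 =>
        have e1 : f (z :: W) = dx z f W * f W := by simp [dx]
        have e2 : ∏ x : α, ((L x).map (fun p => p.1 ^ sw (z :: W) (x :: p.2))).prod =
            (∏ x : α, ((L x).map (fun p => p.1 ^ sw W (x :: p.2))).prod) * lprod (L z) W := by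
          simp only [lprod_shift_cons]
          rw [Finset.prod_mul_distrib, Finset.prod_ite_eq]
          simp
        rw [e1, e2, hLe z W, ih2]
        ac_rfl
    obtain ⟨L', hL', hL'e⟩ := h2
    exact ⟨L', hL', fun W => by rw [h3 W]; exact hL'e W⟩

/-- The expansion in a group which is commutative. -/
theorem taylor' {B : Type} [inst : Group B] (hcomm : ∀ a b : B, a * b = b * a) (d : ℕ) (f : List α → B)
    (hf : ∀ xs : List α, xs.length = d + 1 → ∀ W, dd xs f W = 1) :
    ∃ L : List (B × List α), (∀ p ∈ L, p.2.length ≤ d) ∧ ∀ W, f W = lprod L W := by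
  letI : CommGroup B := { inst with mul_comm := hcomm }
  exact taylor d f hf

end taylor

section assembly

variable {α : Type} {G₁ G₂ : Type} [Group G₁] [Group G₂]

lemma dd_map (h : G₁ →* G₂) (xs : List α) (f : List α → G₁) (W : List α) :
    dd xs (fun W => h (f W)) W = h (dd xs f W) := by
  induction xs generalizing f with
  | nil => rfl
  | cons x xs ih =>
    simp only [dd]
    have : dx x (fun W => h (f W)) = fun W => h (dx x f W) := by
      funext W
      simp [dx]
    rw [this]
    exact ih _

variable [DecidableEq α] [Fintype α] {G : Type} [Group G]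

/-- One step of the normal form: the part of a function of degree at most one with values in the
term of index `i` of the filtration, modulo the next term. -/
lemma taylor_step (i : ℕ) (hi : 1 ≤ i) (ψ : List α → G) (hψ : ∀ n, DD n 0 ψ)
    (hv : ∀ W, ψ W ∈ gam G i) :
    ∃ L : List (G × List α), (∀ p ∈ L, p.1 ∈ gam G p.2.length ∧ p.2.length ≤ i) ∧
      ∀ W, ψ W * (lprod L W)⁻¹ ∈ gam G (i + 1) := by
  classical
  let N : Subgroup (gam G i) := (gam G (i + 1)).subgroupOf (gam G i)
  haveI hN : N.Normal := Subgroup.normal_subgroupOf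
  have hcomm : ∀ a b : (gam G i) ⧸ N, a * b = b * a := by
    intro a b
    obtain ⟨a', rfl⟩ := QuotientGroup.mk_surjective a
    obtain ⟨b', rfl⟩ := QuotientGroup.mk_surjective b
    rw [← QuotientGroup.mk_mul, ← QuotientGroup.mk_mul, QuotientGroup.eq]
    rw [Subgroup.mem_subgroupOf]
    have h1 : ⁅(b' : G)⁻¹, (a' : G)⁻¹⁆ ∈ gam G (i + i) :=
      gam_comm ((gam G i).inv_mem b'.2) ((gam G i).inv_mem a'.2)
    have h2 := gam_mono (G := G) (show i + 1 ≤ i + i by omega) h1
    convert h2 using 1
    simp only [commutatorElement_def, Subgroup.coe_mul, Subgroup.coe_inv]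
    group
  let ψ' : List α → gam G i := fun W => ⟨ψ W, hv W⟩
  let π : gam G i →* (gam G i) ⧸ N := QuotientGroup.mk' N
  have hdeg : ∀ xs : List α, xs.length = i + 1 → ∀ W, dd xs (fun W => π (ψ' W)) W = 1 := by
    intro xs hxs W
    rw [dd_map]
    have h1 : ((dd xs ψ' W : gam G i) : G) = dd xs ψ W := by
      have := dd_map (gam G i).subtype xs ψ' W
      exact this.symm
    have h2 := hψ (i + 1) xs (by omega) W
    rw [hxs, Nat.zero_add, ← h1] at h2
    show ((dd xs ψ' W : gam G i) : (gam G i) ⧸ N) = 1
    rw [QuotientGroup.eq_one_iff]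
    exact h2
  obtain ⟨LA, hLA, hLe⟩ := taylor' hcomm i (fun W => π (ψ' W)) hdeg
  let s : (gam G i) ⧸ N → gam G i := Quotient.out
  have hs : ∀ a, π (s a) = a := fun a => QuotientGroup.out_eq' a
  have h1 : ∀ (X : List (((gam G i) ⧸ N) × List α)) (W : List α),
      lprod (X.map fun p => ((s p.1 : G), p.2)) W =
        (((X.map fun p => (s p.1) ^ sw W p.2).prod : gam G i) : G) := by
    intro X W
    induction X with
    | nil => simp [lprod]
    | cons q X ih =>
      simp only [lprod, List.map_cons, List.prod_cons, Subgroup.coe_mul, Subgroup.coe_pow] at ih ⊢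
      rw [ih]
  have h2 : ∀ (X : List (((gam G i) ⧸ N) × List α)) (W : List α),
      π ((X.map fun p => (s p.1) ^ sw W p.2).prod) = lprod X W := by
    intro X W
    induction X with
    | nil => simp [lprod]
    | cons q X ih =>
      simp only [lprod, List.map_cons, List.prod_cons, map_mul, map_pow, hs] at ih ⊢
      rw [ih]
  refine ⟨LA.map fun p => ((s p.1 : G), p.2), ?_, ?_⟩
  · intro p hp
    obtain ⟨q, hq, rfl⟩ := List.mem_map.mp hp
    exact ⟨gam_mono (hLA q hq) (s q.1).2, hLA q hq⟩
  · intro W
    rw [h1]
    set F : gam G i := (LA.map fun p => (s p.1) ^ sw W p.2).prod with hF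
    have h3 : π F = π (ψ' W) := by
      rw [hF, h2, hLe W]
    have h4 : (F : (gam G i) ⧸ N) = (ψ' W : gam G i) := h3
    rw [QuotientGroup.eq, Subgroup.mem_subgroupOf] at h4
    have h5 : (F : G)⁻¹ * ψ W ∈ gam G (i + 1) := by
      simpa [ψ'] using h4
    exact (inferInstance : (gam G (i + 1)).Normal).mem_comm h5

/-- In a group of nilpotency class at most `c`, the value of a word is a fixed ordered product of
powers whose exponents are the subword counts of length at most `c`. -/
theorem normal_form (c : ℕ) (hc : (⊤ : Subgroup G).lowerCentralSeries c = ⊥) (g : α → G) :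
    ∃ L : List (G × List α), (∀ p ∈ L, p.2.length ≤ c) ∧ ∀ w : List α, (w.map g).prod = lprod L w := by
  have main : ∀ i, i ≤ c → ∃ L : List (G × List α), (∀ p ∈ L, p.1 ∈ gam G p.2.length ∧ p.2.length ≤ i) ∧
      ∀ W : List α, (W.map g).prod * (lprod L W)⁻¹ ∈ gam G (i + 1) := by
    intro i
    induction i with
    | zero =>
      intro _
      refine ⟨[], by simp, fun W => ?_⟩
      simp [lprod, gam]
    | succ i ih =>
      intro hi
      obtain ⟨L, hL, hLv⟩ := ih (by omega)
      have hψ : ∀ n, DD n 0 (fun W : List α => (W.map g).prod * (lprod L W)⁻¹) := fun n =>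
        (DD_word g n).mul (DD_lprod n L (fun p hp => (hL p hp).1)).inv
      obtain ⟨L₁, hL₁, hv₁⟩ := taylor_step (i + 1) (by omega) _ hψ hLv
      refine ⟨L₁ ++ L, ?_, fun W => ?_⟩
      · intro p hp
        rcases List.mem_append.mp hp with hp | hp
        · exact hL₁ p hp
        · exact ⟨(hL p hp).1, by have := (hL p hp).2; omega⟩
      · have := hv₁ W
        rw [lprod_append, mul_inv_rev, ← mul_assoc]
        exact this
  obtain ⟨L, hL, hv⟩ := main c le_rfl
  refine ⟨L, fun p hp => (hL p hp).2, fun w => ?_⟩
  have h1 := hv w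
  have h2 : gam G (c + 1) = ⊥ := hc
  rw [h2, Subgroup.mem_bot, mul_inv_eq_one] at h1
  exact h1

end assembly

end Vale.Agent.helper1.Gsh
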