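import Vale.Agent.helper1.Gsh.Counter
import Vale.Agent.helper5.GSHMachine

/-!
Phases in a prime cyclic group, moved by arbitrary weights of the letters. The number of positions
where a given letter is read at a given phase is accessible modulo every integer.
-/

set_option linter.unusedSectionVars false
set_option linter.unusedSimpArgs false
set_option linter.style.haveILetI false
set_option linter.unusedVariables false

namespace Vale.Agent.helper1.Gsh

open Vale.Agent.helper5.GSH Vale.Agent.helper3.Gsh

/-- Integer valued functions of words that are accessible modulo every positive integer. -/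
def AZ {α : Type} (f : List α → ℤ) : Prop := ∀ (M : ℕ) [NeZero M], Acc (fun w => (f w : ZMod M))

section az

variable {α : Type} [Fintype α] [DecidableEq α] {f g : List α → ℤ}

lemma AZ.add (hf : AZ f) (hg : AZ g) : AZ (fun w => f w + g w) := by
  intro M _
  have := (hf M).add (hg M)
  simpa using this

lemma AZ.sub (hf : AZ f) (hg : AZ g) : AZ (fun w => f w - g w) := by
  intro M _
  have := (hf M).sub (hg M)
  simpa using this

lemma AZ.const (c : ℤ) : AZ (fun _ : List α => c) := fun _ _ => Acc.const _

lemma AZ.const_mul (c : ℤ) (hf : AZ f) : AZ (fun w => c * f w) := by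
  intro M _
  have := (Acc.const (c : ZMod M)).mul (hf M)
  simpa using this

lemma AZ.finset_sum {ι : Type} (s : Finset ι) {F : ι → List α → ℤ} (h : ∀ i ∈ s, AZ (F i)) :
    AZ (fun w => ∑ i ∈ s, F i w) := by
  intro M _
  have := Acc.finset_sum s (f := fun i w => ((F i w : ℤ) : ZMod M)) (fun i hi => h i hi M)
  simpa using this

lemma AZ.cancel {c : ℕ} (hc : 0 < c) (hf : AZ (fun w => (c : ℤ) * f w)) : AZ f := by
  intro M _
  haveI : NeZero (c * M) := ⟨by have := NeZero.ne M; positivity⟩
  refine Acc.factor (hf (c * M)) ?_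
  intro w w' h
  rw [ZMod.intCast_eq_intCast_iff] at h ⊢
  have hc' : (0 : ℤ) < c := by exact_mod_cast hc
  have h2 : Int.ModEq ((c : ℤ) * M) ((c : ℤ) * f w) ((c : ℤ) * f w') := by
    exact_mod_cast h
  exact Int.ModEq.mul_left_cancel' hc'.ne' h2

lemma AZ.of_cnt (S : Finset α) : AZ (fun w : List α => (cnt S w : ℤ)) := by
  intro M _
  have := acc_cnt_zmod (α := α) M S
  simpa using this

end az

variable {α : Type} [DecidableEq α] {p : ℕ} [Fact p.Prime]

/-- The number of positions where `x` is read at the phase `t`; phases start from the first argument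
and move by the weights `wt`. -/
def pc (wt : α → ZMod p) (t : ZMod p) (x : α) : ZMod p → List α → ℕ
  | _, [] => 0
  | τ, y :: w => (if τ = t ∧ y = x then 1 else 0) + pc wt t x (τ + wt y) w

/-- The carrier: the phase and one bit, the bit remembers whether the excursion from the phase `t`
now going on began with the letter `x`. -/
def cδ (wt : α → ZMod p) (t : ZMod p) (x : α) (s : ZMod p × Bool) (y : α) : ZMod p × Bool :=
  if s.1 + wt y = t then (t, false)
  else (s.1 + wt y, if s.1 = t then decide (y = x) else s.2)

/-- Arrivals at the phase `t` move the counter, except those declared exempt by `ex`. -/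
def cinc (wt : α → ZMod p) (t : ZMod p) (ex : ZMod p → Bool → α → Bool) (s : ZMod p × Bool) (y : α) :
    Bool :=
  decide (s.1 + wt y = t) && !(ex s.1 s.2 y)

variable (wt : α → ZMod p) (t : ZMod p) (x : α) (ex : ZMod p → Bool → α → Bool)

/-- The sum of the weights of a word. -/
def wts (w : List α) : ZMod p := (w.map wt).sum

lemma wts_append (u v : List α) : wts wt (u ++ v) = wts wt u + wts wt v := by simp [wts]

lemma wts_cons (y : α) (v : List α) : wts wt (y :: v) = wt y + wts wt v := by simp [wts]

lemma wts_vrep (v : List α) (j : ℕ) : wts wt (vrep v j) = j * wts wt v := by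
  induction j with
  | zero => simp [vrep, wts]
  | succ j ih =>
    simp only [vrep, wts_append, ih]
    push_cast
    ring

lemma phase_run (s : ZMod p × Bool) (w : List α) :
    (run (cδ wt t x) s w).1 = s.1 + wts wt w := by
  induction w generalizing s with
  | nil => simp [wts]
  | cons y w ih =>
    rw [run_cons, ih, wts_cons]
    have : (cδ wt t x s y).1 = s.1 + wt y := by
      unfold cδ
      by_cases h : s.1 + wt y = t
      · rw [if_pos h]; exact h.symm
      · rw [if_neg h]
    rw [this]
    ring

lemma cinc_target (s : ZMod p × Bool) (y : α) (h : cinc wt t ex s y = true) :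
    cδ wt t x s y = (t, false) := by
  simp only [cinc, Bool.and_eq_true, decide_eq_true_eq] at h
  simp [cδ, h.1]

lemma bit_const_or_id (τ : ZMod p) (v : List α) :
    (∀ f f', (run (cδ wt t x) (τ, f) v).2 = (run (cδ wt t x) (τ, f') v).2) ∨
      (∀ f, (run (cδ wt t x) (τ, f) v).2 = f) := by
  induction v generalizing τ with
  | nil => exact Or.inr fun f => rfl
  | cons y v ih =>
    by_cases h1 : τ + wt y = t
    · left
      intro f f'
      simp only [run_cons, cδ, h1, if_true]
    · by_cases h2 : τ = t
      · left
        intro f f'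
        simp only [run_cons, cδ, h1, h2, if_true, if_false]
      · have e : ∀ f : Bool, cδ wt t x (τ, f) y = (τ + wt y, f) := by
          intro f
          simp [cδ, h1, h2]
        simp only [run_cons, e]
        exact ih _

lemma stationary {v : List α} (hv : wts wt v = 0) (s : ZMod p × Bool) {k : ℕ} (hk : 0 < k)
    (h : run (cδ wt t x) s (vrep v k) = s) : run (cδ wt t x) s v = s := by
  obtain ⟨τ, f⟩ := s
  have h1 : ∀ f : Bool, run (cδ wt t x) (τ, f) v = (τ, (run (cδ wt t x) (τ, f) v).2) := by
    intro f
    apply Prod.ext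
    · simp [phase_run, hv]
    · rfl
  apply Prod.ext
  · simp [phase_run, hv]
  simp only
  rcases bit_const_or_id wt t x τ v with hc | hi
  · have h2 : ∀ (j : ℕ) (f : Bool), (run (cδ wt t x) (τ, f) (vrep v (j + 1))).2 =
        (run (cδ wt t x) (τ, f) v).2 := by
      intro j
      induction j with
      | zero => intro f; simp [vrep]
      | succ j ih =>
        intro f
        rw [vrep, run_append, h1 f, ih]
        exact hc _ _
    obtain ⟨k', rfl⟩ : ∃ k', k = k' + 1 := ⟨k - 1, by omega⟩
    rw [← h2 k' f, h]
  · exact hi f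

/-- A closed run of the carrier that does not move the counter gives no move of the counter along
all powers of the word. -/
lemma no_inc_all {v : List α} {s : ZMod p × Bool} {k : ℕ} (hk : 0 < k)
    (h : run (cδ wt t x) s (vrep v k) = s)
    (h0 : incCount (cδ wt t x) (cinc wt t ex) s (vrep v k) = 0) (W R : List α) (n : ℕ)
    (hW : W ++ R = vrep v n) : incCount (cδ wt t x) (cinc wt t ex) s W = 0 := by
  have h1 : ∀ m, run (cδ wt t x) s (vrep v (k * m)) = s ∧
      incCount (cδ wt t x) (cinc wt t ex) s (vrep v (k * m)) = 0 := by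
    intro m
    induction m with
    | zero => simp [vrep, incCount]
    | succ m ih =>
      rw [Nat.mul_succ, vrep_add, run_append, incCount_append, ih.1, h, h0, ih.2]
      simp
  have h2 : n ≤ k * n := Nat.le_mul_of_pos_left n hk
  have h3 : vrep v (k * n) = W ++ (R ++ vrep v (k * n - n)) := by
    rw [← List.append_assoc, hW, ← vrep_add]
    congr 1
    omega
  have h4 := (h1 n).2
  rw [h3, incCount_append] at h4
  omega

lemma not_inc_at {v : List α} {s : ZMod p × Bool} {k : ℕ} (hk : 0 < k)
    (h : run (cδ wt t x) s (vrep v k) = s)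
    (h0 : incCount (cδ wt t x) (cinc wt t ex) s (vrep v k) = 0) (A R : List α) (z : α) (n : ℕ)
    (hW : A ++ z :: R = vrep v n) : cinc wt t ex (run (cδ wt t x) s A) z = false := by
  have h1 := no_inc_all wt t x ex hk h h0 (A ++ [z]) R n (by simpa using hW)
  rw [incCount_append] at h1
  simp only [incCount] at h1
  by_contra h2
  simp only [Bool.not_eq_false] at h2
  simp [h2] at h1

lemma exists_j {σ : ZMod p} (hσ : σ ≠ 0) (c : ZMod p) : ∃ j : ℕ, c + j * σ = t := by
  refine ⟨((t - c) / σ).val, ?_⟩
  rw [ZMod.natCast_zmod_val]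
  field_simp
  ring

lemma exists_moving {v : List α} (hv : wts wt v ≠ 0) : ∃ y ∈ v, wt y ≠ 0 := by
  by_contra h
  push Not at h
  apply hv
  clear hv
  induction v with
  | nil => simp [wts]
  | cons y v ih =>
    rw [wts_cons, h y (by simp), zero_add]
    exact ih (fun z hz => h z (by simp [hz]))

/-- Reading at a phase different from `t`, the first arrival at `t` comes with the bit unchanged. -/
lemma first_arrival (f : Bool) (R : List α) (τ : ZMod p) (hτ : τ ≠ t) (hR : τ + wts wt R = t) :
    ∃ C z D, R = C ++ z :: D ∧ run (cδ wt t x) (τ, f) C = (τ + wts wt C, f) ∧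
      τ + wts wt C ≠ t ∧ τ + wts wt C + wt z = t := by
  induction R generalizing τ with
  | nil => simp [wts] at hR; exact absurd hR hτ
  | cons z R ih =>
    by_cases h1 : τ + wt z = t
    · exact ⟨[], z, R, rfl, by simp [wts], by simpa [wts] using hτ, by simpa [wts] using h1⟩
    · rw [wts_cons, ← add_assoc] at hR
      obtain ⟨C, z', D, rfl, h2, h3, h4⟩ := ih (τ + wt z) h1 hR
      have e : cδ wt t x (τ, f) z = (τ + wt z, f) := by simp [cδ, h1, hτ]
      refine ⟨z :: C, z', D, rfl, ?_, ?_, ?_⟩
      · rw [run_cons, e, h2, wts_cons, add_assoc]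
      · rw [wts_cons, ← add_assoc]; exact h3
      · rw [wts_cons, ← add_assoc]; exact h4

section moving

variable {wt t x}

/-- The four kinds of exemption. -/
def ex0 : ZMod p → Bool → α → Bool := fun _ _ _ => false

def exLoop (t : ZMod p) (x : α) : ZMod p → Bool → α → Bool :=
  fun τ _ y => decide (τ = t) && decide (y = x)

def exOut (t : ZMod p) (x : α) : ZMod p → Bool → α → Bool :=
  fun τ f y => decide (τ ≠ t) && f && decide (y ≠ x)

def exIn (t : ZMod p) (x : α) : ZMod p → Bool → α → Bool :=
  fun τ f y => decide (τ ≠ t) && !f && decide (y = x)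

variable {v : List α} {s : ZMod p × Bool} {k : ℕ}

lemma moving_ex0 (hv : wts wt v ≠ 0) (hk : 0 < k) (h : run (cδ wt t x) s (vrep v k) = s)
    (h0 : incCount (cδ wt t x) (cinc wt t (ex0 (p := p) (α := α))) s (vrep v k) = 0) : False := by
  obtain ⟨y, hy, -⟩ := exists_moving wt hv
  obtain ⟨u, u', rfl⟩ := List.append_of_mem hy
  obtain ⟨j, hj⟩ := exists_j t hv (s.1 + wts wt u + wt y)
  have h1 := not_inc_at wt t x ex0 hk h h0 (vrep (u ++ y :: u') j ++ u) u' y (j + 1) (by
    rw [vrep_add]; simp [vrep])
  have h2 : (run (cδ wt t x) s (vrep (u ++ y :: u') j ++ u)).1 + wt y = t := by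
    rw [phase_run, wts_append, wts_vrep, ← hj]
    ring
  simp [cinc, h2, ex0] at h1

lemma moving_exLoop (hx : wt x = 0) (hv : wts wt v ≠ 0) (hk : 0 < k)
    (h : run (cδ wt t x) s (vrep v k) = s)
    (h0 : incCount (cδ wt t x) (cinc wt t (exLoop t x)) s (vrep v k) = 0) : False := by
  obtain ⟨y, hy, hy0⟩ := exists_moving wt hv
  obtain ⟨u, u', rfl⟩ := List.append_of_mem hy
  obtain ⟨j, hj⟩ := exists_j t hv (s.1 + wts wt u + wt y)
  have h1 := not_inc_at wt t x (exLoop t x) hk h h0 (vrep (u ++ y :: u') j ++ u) u' y (j + 1) (by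
    rw [vrep_add]; simp [vrep])
  have h2 : (run (cδ wt t x) s (vrep (u ++ y :: u') j ++ u)).1 + wt y = t := by
    rw [phase_run, wts_append, wts_vrep, ← hj]
    ring
  simp only [cinc, h2, decide_true, Bool.true_and, Bool.not_eq_false', exLoop, Bool.and_eq_true,
    decide_eq_true_eq] at h1
  rw [h1.1] at h2
  apply hy0
  have : t + wt y = t + 0 := by simpa using h2
  exact add_left_cancel this

/-- Leaving the phase `t` at a moving letter, the excursion closes later. -/
lemma leave_then_arrive (hv : wts wt v ≠ 0) (hk : 0 < k) (h : run (cδ wt t x) s (vrep v k) = s)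
    (h0 : incCount (cδ wt t x) (cinc wt t ex) s (vrep v k) = 0) {u u' : List α} {y : α}
    (hvy : v = u ++ y :: u') (hy : wt y ≠ 0) :
    ∃ (τ : ZMod p) (z : α), τ ≠ t ∧ ex τ (decide (y = x)) z = true := by
  subst hvy
  obtain ⟨j, hj⟩ := exists_j t hv (s.1 + wts wt u)
  set v := u ++ y :: u' with hv'
  have hphase : (run (cδ wt t x) s (vrep v j ++ u)).1 = t := by
    rw [phase_run, wts_append, wts_vrep, ← hj]
    ring
  have hy' : t + wt y ≠ t := by
    intro e
    apply hy
    have : t + wt y = t + 0 := by simpa using e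
    exact add_left_cancel this
  have hstep : cδ wt t x (run (cδ wt t x) s (vrep v j ++ u)) y =
      (t + wt y, decide (y = x)) := by
    simp [cδ, hphase, hy']
  obtain ⟨j2, hj2⟩ := exists_j t hv (t + wt y + wts wt u')
  obtain ⟨C, z, D, hR, hC1, hC2, hC3⟩ := first_arrival wt t x (decide (y = x))
    (u' ++ vrep v j2) (t + wt y) hy' (by rw [wts_append, wts_vrep, ← add_assoc]; exact hj2)
  have hword : (vrep v j ++ u ++ y :: C) ++ z :: D = vrep v (j + (1 + j2)) := by
    rw [vrep_add, vrep_add]
    have e1 : vrep v 1 = v := by simp [vrep]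
    rw [e1]
    have : C ++ z :: D = u' ++ vrep v j2 := hR.symm
    calc (vrep v j ++ u ++ y :: C) ++ z :: D = vrep v j ++ u ++ y :: (C ++ z :: D) := by simp
      _ = vrep v j ++ u ++ y :: (u' ++ vrep v j2) := by rw [this]
      _ = vrep v j ++ (v ++ vrep v j2) := by rw [hv']; simp
  have h1 := not_inc_at wt t x ex hk h h0 _ D z _ hword
  have e2 : run (cδ wt t x) s (vrep v j ++ u ++ y :: C) = (t + wt y + wts wt C, decide (y = x)) := by
    rw [run_append, run_cons, hstep, hC1]
  rw [e2] at h1
  simp only [cinc, hC3, decide_true, Bool.true_and, Bool.not_eq_false'] at h1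
  exact ⟨_, z, hC2, h1⟩

/-- All letters equal. -/
lemma arrival_value (hv : wts wt v ≠ 0) (hk : 0 < k) (h : run (cδ wt t x) s (vrep v k) = s)
    (h0 : incCount (cδ wt t x) (cinc wt t ex) s (vrep v k) = 0) {u u' : List α} {y : α}
    (hvy : v = u ++ y :: u') : ∃ (τ : ZMod p) (f : Bool), τ + wt y = t ∧ ex τ f y = true := by
  subst hvy
  obtain ⟨j, hj⟩ := exists_j t hv (s.1 + wts wt u + wt y)
  have h1 := not_inc_at wt t x ex hk h h0 (vrep (u ++ y :: u') j ++ u) u' y (j + 1) (by
    rw [vrep_add]; simp [vrep])
  have h2 : (run (cδ wt t x) s (vrep (u ++ y :: u') j ++ u)).1 + wt y = t := by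
    rw [phase_run, wts_append, wts_vrep, ← hj]
    ring
  simp only [cinc, h2, decide_true, Bool.true_and, Bool.not_eq_false'] at h1
  exact ⟨_, _, h2, h1⟩

lemma moving_exOut (hv : wts wt v ≠ 0) (hk : 0 < k) (h : run (cδ wt t x) s (vrep v k) = s)
    (h0 : incCount (cδ wt t x) (cinc wt t (exOut t x)) s (vrep v k) = 0) : False := by
  have hall : ∀ y ∈ v, y = x := by
    intro y hy
    obtain ⟨u, u', hvy⟩ := List.append_of_mem hy
    by_cases hy0 : wt y = 0
    · obtain ⟨τ, f, h1, h2⟩ := arrival_value (ex := exOut t x) hv hk h h0 hvy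
      simp only [exOut, Bool.and_eq_true, decide_eq_true_eq] at h2
      rw [hy0, add_zero] at h1
      exact absurd h1 h2.1.1
    · obtain ⟨τ, z, h1, h2⟩ := leave_then_arrive (ex := exOut t x) hv hk h h0 hvy hy0
      simp only [exOut, Bool.and_eq_true, decide_eq_true_eq] at h2
      exact h2.1.2
  obtain ⟨y, hy, -⟩ := exists_moving wt hv
  obtain ⟨u, u', hvy⟩ := List.append_of_mem hy
  obtain ⟨τ, f, h1, h2⟩ := arrival_value (ex := exOut t x) hv hk h h0 hvy
  simp only [exOut, Bool.and_eq_true, decide_eq_true_eq] at h2
  exact h2.2 (hall y hy)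

lemma moving_exIn (hv : wts wt v ≠ 0) (hk : 0 < k) (h : run (cδ wt t x) s (vrep v k) = s)
    (h0 : incCount (cδ wt t x) (cinc wt t (exIn t x)) s (vrep v k) = 0) : False := by
  have hall : ∀ y ∈ v, y = x := by
    intro y hy
    obtain ⟨u, u', hvy⟩ := List.append_of_mem hy
    obtain ⟨τ, f, h1, h2⟩ := arrival_value (ex := exIn t x) hv hk h h0 hvy
    simp only [exIn, Bool.and_eq_true, decide_eq_true_eq] at h2
    exact h2.2
  obtain ⟨y, hy, hy0⟩ := exists_moving wt hv
  obtain ⟨u, u', hvy⟩ := List.append_of_mem hy
  have hyx := hall y hy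
  obtain ⟨τ, z, h1, h2⟩ := leave_then_arrive (ex := exIn t x) hv hk h h0 hvy hy0
  simp [exIn, hyx] at h2

end moving

variable [Fintype α]

lemma az_incCount (hmov : ∀ (v : List α) (s : ZMod p × Bool) (k : ℕ), wts wt v ≠ 0 → 0 < k →
      run (cδ wt t x) s (vrep v k) = s →
      incCount (cδ wt t x) (cinc wt t ex) s (vrep v k) = 0 → False) (s : ZMod p × Bool) :
    AZ (fun w : List α => (incCount (cδ wt t x) (cinc wt t ex) s w : ℤ)) := by
  intro M _
  haveI : NeZero p := ⟨(Fact.out : p.Prime).ne_zero⟩
  have h1 := acc_incCount (M := M) (δ := cδ wt t x) (inc := cinc wt t ex) (s₀ := (t, false))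
    (cinc_target wt t x ex)
    (by
      intro v s k hk h h0
      by_cases hv : wts wt v = 0
      · exact stationary wt t x hv s hk h
      · exact (hmov v s k hv hk h h0).elim) s
  simpa using h1

lemma acc_run_cδ (s : ZMod p × Bool) : Acc (fun w : List α => run (cδ wt t x) s w) := by
  haveI : NeZero p := ⟨(Fact.out : p.Prime).ne_zero⟩
  exact acc_run_carrier (inc := cinc wt t (ex0 (p := p) (α := α))) (s₀ := (t, false))
    (cinc_target wt t x ex0)
    (by
      intro v s k hk h h0
      by_cases hv : wts wt v = 0
      · exact stationary wt t x hv s hk h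
      · exact (moving_ex0 hv hk h h0).elim) s

/-- The potential term. -/
def pot (t : ZMod p) (s : ZMod p × Bool) : ℤ := if s.2 = true ∧ s.1 ≠ t then 1 else 0

lemma pc_identity (τ : ZMod p) (f : Bool) (w : List α) :
    (pc wt t x τ w : ℤ) - pc wt (t - wt x) x τ w =
      (incCount (cδ wt t x) (cinc wt t (exIn t x)) (τ, f) w : ℤ) -
        incCount (cδ wt t x) (cinc wt t (exOut t x)) (τ, f) w +
        pot t (run (cδ wt t x) (τ, f) w) - pot t (τ, f) := by
  induction w generalizing τ f with
  | nil => simp [pc, incCount]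
  | cons y w ih =>
    have h5 : (cδ wt t x (τ, f) y).1 = τ + wt y := by
      unfold cδ
      by_cases h : τ + wt y = t
      · rw [if_pos h]; exact h.symm
      · rw [if_neg h]
    have h4 := ih (cδ wt t x (τ, f) y).1 (cδ wt t x (τ, f) y).2
    rw [Prod.mk.eta, h5] at h4
    have key : ((if τ = t ∧ y = x then 1 else 0 : ℕ) : ℤ) -
        ((if τ = t - wt x ∧ y = x then 1 else 0 : ℕ) : ℤ) =
        ((if cinc wt t (exIn t x) (τ, f) y then 1 else 0 : ℕ) : ℤ) -
        ((if cinc wt t (exOut t x) (τ, f) y then 1 else 0 : ℕ) : ℤ) +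
        pot t (cδ wt t x (τ, f) y) - pot t (τ, f) := by
      by_cases h1 : τ + wt y = t
      · have e : cδ wt t x (τ, f) y = (t, false) := by simp [cδ, h1]
        rw [e]
        by_cases h2 : τ = t
        · subst h2
          have hy0 : wt y = 0 := by
            have : τ + wt y = τ + 0 := by simpa using h1
            exact add_left_cancel this
          by_cases hyx : y = x
          · subst hyx
            simp [cinc, exIn, exOut, pot, h1, hy0]
          · simp [cinc, exIn, exOut, pot, h1, hyx]
        · by_cases hyx : y = x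
          · subst hyx
            have e2 : τ = t - wt y := by rw [← h1]; ring
            have e3 : τ ≠ t := h2
            cases f <;> simp [cinc, exIn, exOut, pot, h1, h2, ← e2]
          · cases f <;> simp [cinc, exIn, exOut, pot, h1, h2, hyx]
      · have e : cδ wt t x (τ, f) y = (τ + wt y, if τ = t then decide (y = x) else f) := by
          simp [cδ, h1]
        rw [e]
        by_cases h2 : τ = t
        · subst h2
          by_cases hyx : y = x
          · subst hyx
            have e3 : ¬ wt y = 0 := by
              intro h0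
              apply h1
              rw [h0, add_zero]
            have e4 : ¬ τ = τ - wt y := by
              intro h8
              apply e3
              have h9 : τ - wt y = τ - 0 := by simpa using h8.symm
              exact sub_right_inj.mp h9
            simp [cinc, exIn, exOut, pot, h1, e3, e4]
          · simp [cinc, exIn, exOut, pot, h1, hyx]
        · have e3 : ¬ (τ = t - wt x ∧ y = x) := by
            rintro ⟨h6, rfl⟩
            apply h1
            rw [h6]
            ring
          have h7 : ¬ (τ = t ∧ y = x) := fun h => h2 h.1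
          cases f <;> simp [cinc, exIn, exOut, pot, h1, h2, e3]
    simp only [pc, incCount, run_cons, Nat.cast_add]
    linarith

lemma az_pc_diff (τ : ZMod p) (t : ZMod p) :
    AZ (fun w : List α => (pc wt t x τ w : ℤ) - pc wt (t - wt x) x τ w) := by
  have h1 := az_incCount wt t x (exIn t x) (fun v s k hv hk h h0 => moving_exIn hv hk h h0) (τ, false)
  have h2 := az_incCount wt t x (exOut t x) (fun v s k hv hk h h0 => moving_exOut hv hk h h0) (τ, false)
  have h3 : AZ (fun w : List α => pot t (run (cδ wt t x) (τ, false) w)) := by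
    intro M _
    exact (acc_run_cδ wt t x (τ, false)).comp (fun s => ((pot t s : ℤ) : ZMod M))
  have h4 := ((h1.sub h2).add h3).sub (AZ.const (pot t (τ, false)))
  convert h4 using 2 with w
  exact pc_identity wt t x τ false w

lemma pc_loop (hx : wt x = 0) (τ : ZMod p) (f : Bool) (w : List α) :
    (pc wt t x τ w : ℤ) = (incCount (cδ wt t x) (cinc wt t (ex0 (p := p) (α := α))) (τ, f) w : ℤ) -
      incCount (cδ wt t x) (cinc wt t (exLoop t x)) (τ, f) w := by
  induction w generalizing τ f with
  | nil => simp [pc, incCount]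
  | cons y w ih =>
    have h5 : (cδ wt t x (τ, f) y).1 = τ + wt y := by
      unfold cδ
      by_cases h : τ + wt y = t
      · rw [if_pos h]; exact h.symm
      · rw [if_neg h]
    have h4 := ih (cδ wt t x (τ, f) y).1 (cδ wt t x (τ, f) y).2
    rw [Prod.mk.eta, h5] at h4
    have key : ((if τ = t ∧ y = x then 1 else 0 : ℕ) : ℤ) =
        ((if cinc wt t (ex0 (p := p) (α := α)) (τ, f) y then 1 else 0 : ℕ) : ℤ) -
        ((if cinc wt t (exLoop t x) (τ, f) y then 1 else 0 : ℕ) : ℤ) := by
      by_cases h1 : τ + wt y = t
      · by_cases h3 : τ = t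
        · by_cases h6 : y = x
          · simp [cinc, ex0, exLoop, h1, h3, h6, hx]
          · simp [cinc, ex0, exLoop, h1, h3, h6]
        · simp [cinc, ex0, exLoop, h1, h3]
      · have h2 : ¬ (τ = t ∧ y = x) := by
          rintro ⟨rfl, rfl⟩
          apply h1
          rw [hx, add_zero]
        simp [cinc, h1, h2]
    simp only [pc, incCount, Nat.cast_add]
    linarith

lemma sum_pc (τ : ZMod p) (w : List α) : ∑ t' : ZMod p, pc wt t' x τ w = cnt {x} w := by
  haveI : NeZero p := ⟨(Fact.out : p.Prime).ne_zero⟩
  induction w generalizing τ with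
  | nil => simp [pc, cnt]
  | cons y w ih =>
    simp only [pc, cnt, Finset.sum_add_distrib, ih]
    congr 1
    by_cases h : y = x
    · simp [h]
    · simp [h]

/-- The main result of this file. -/
theorem az_pc (τ t : ZMod p) : AZ (fun w : List α => (pc wt t x τ w : ℤ)) := by
  haveI : NeZero p := ⟨(Fact.out : p.Prime).ne_zero⟩
  by_cases hx : wt x = 0
  · have h1 := az_incCount wt t x (ex0 (p := p) (α := α))
      (fun v s k hv hk h h0 => moving_ex0 hv hk h h0) (τ, false)
    have h2 := az_incCount wt t x (exLoop t x)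
      (fun v s k hv hk h h0 => moving_exLoop hx hv hk h h0) (τ, false)
    convert h1.sub h2 using 2 with w
    exact pc_loop wt t x hx τ false w
  · have h1 : ∀ (j : ℕ) (t : ZMod p),
        AZ (fun w : List α => (pc wt t x τ w : ℤ) - pc wt (t - j * wt x) x τ w) := by
      intro j
      induction j with
      | zero =>
        intro t
        have := AZ.const (α := α) 0
        convert this using 2 with w
        simp
      | succ j ih =>
        intro t
        have h2 := (ih t).add (az_pc_diff wt x τ (t - j * wt x))
        convert h2 using 2 with w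
        have e : t - j * wt x - wt x = t - ((j + 1 : ℕ) : ZMod p) * wt x := by
          push_cast
          ring
        rw [e]
        ring
    have h2 : ∀ t' : ZMod p, AZ (fun w : List α => (pc wt t x τ w : ℤ) - pc wt t' x τ w) := by
      intro t'
      have h3 := h1 ((t - t') / wt x).val t
      convert h3 using 4 with w
      rw [ZMod.natCast_zmod_val]
      field_simp
      ring
    have h3 := (AZ.finset_sum (Finset.univ : Finset (ZMod p)) (fun t' _ => h2 t')).add (AZ.of_cnt {x})
    apply AZ.cancel (c := p) (Fact.out : p.Prime).pos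
    convert h3 using 2 with w
    rw [← sum_pc wt x τ w]
    push_cast
    rw [Finset.sum_sub_distrib]
    simp [ZMod.card]

end Vale.Agent.helper1.Gsh
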