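import Vale.Agent.helper1.Gsh.Level3
import Vale.Agent.helper1.Gsh.Elem
import Vale.Agent.helper5.GSHSubword

/-!
Scattered subwords of length four modulo a prime number at least five.
-/

set_option linter.unusedSectionVars false
set_option linter.unusedSimpArgs false
set_option linter.style.haveILetI false
set_option linter.unusedVariables false

namespace Vale.Agent.helper1.Gsh

open Vale.Agent.helper5.GSH Vale.Agent.helper3.Gsh

section products

variable {α : Type} [DecidableEq α]

/-- The subword count with values in the integers. -/
def zw (w u : List α) : ℤ := (sw w u : ℤ)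

lemma zw_nil_right (w : List α) : zw w [] = 1 := by simp [zw]

lemma zw_nil_left (y : α) (u : List α) : zw [] (y :: u) = 0 := by simp [zw]

lemma zw_cons_nil (z : α) (w : List α) : zw (z :: w) [] = 1 := by simp [zw]

lemma zw_cons_cons (x y : α) (w u : List α) :
    zw (x :: w) (y :: u) = zw w (y :: u) + if x = y then zw w u else 0 := by
  simp only [zw, sw_cons_cons]
  push_cast
  rfl

/-- The shuffles of two words. -/
def shuf : List α → List α → List (List α)
  | [], v => [v]
  | a :: u, [] => [a :: u]
  | a :: u, b :: v => (shuf u (b :: v)).map (a :: ·) ++ (shuf (a :: u) v).map (b :: ·)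
termination_by u v => u.length + v.length
decreasing_by all_goals simp

/-- The words of smaller length in the product of two subword counts. -/
def lowl : List α → List α → List (List α)
  | [], _ => []
  | _ :: _, [] => []
  | a :: u, b :: v => (lowl u (b :: v)).map (a :: ·) ++ (lowl (a :: u) v).map (b :: ·) ++
      if a = b then (shuf u v ++ lowl u v).map (a :: ·) else []
termination_by u v => u.length + v.length
decreasing_by all_goals (simp; try omega)

lemma shuf_nil_left (v : List α) : shuf [] v = [v] := by
  rw [shuf]

lemma shuf_nil_right (u : List α) : shuf u [] = [u] := by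
  cases u <;> rw [shuf]

lemma shuf_cons (a b : α) (u v : List α) :
    shuf (a :: u) (b :: v) = (shuf u (b :: v)).map (a :: ·) ++ (shuf (a :: u) v).map (b :: ·) := by
  rw [shuf]

lemma lowl_nil_left (v : List α) : lowl [] v = [] := by
  rw [lowl]

lemma lowl_nil_right (u : List α) : lowl u [] = [] := by
  cases u <;> rw [lowl]

lemma lowl_cons (a b : α) (u v : List α) :
    lowl (a :: u) (b :: v) = (lowl u (b :: v)).map (a :: ·) ++ (lowl (a :: u) v).map (b :: ·) ++
      if a = b then (shuf u v ++ lowl u v).map (a :: ·) else [] := by
  rw [lowl]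

/-- The sum of the counts of a list of words. -/
def zs (w : List α) (X : List (List α)) : ℤ := (X.map (zw w)).sum

lemma zs_append (w : List α) (X Y : List (List α)) : zs w (X ++ Y) = zs w X + zs w Y := by
  simp [zs]

lemma zs_map_cons (z a : α) (w : List α) (X : List (List α)) :
    zs (z :: w) (X.map (a :: ·)) = zs w (X.map (a :: ·)) + if z = a then zs w X else 0 := by
  induction X with
  | nil => simp [zs]
  | cons x X ih =>
    simp only [zs, List.map_cons, List.sum_cons, zw_cons_cons] at ih ⊢
    rw [ih]
    by_cases h : z = a <;> simp [h] <;> ring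

lemma zs_nil_map (a : α) (X : List (List α)) : zs [] (X.map (a :: ·)) = 0 := by
  induction X with
  | nil => simp [zs]
  | cons x X ih =>
    simp only [zs, List.map_cons, List.sum_cons, zw_nil_left] at ih ⊢
    rw [ih]
    simp

/-- The product of two subword counts. -/
theorem mul_shuf (w u v : List α) : zw w u * zw w v = zs w (shuf u v) + zs w (lowl u v) := by
  induction w generalizing u v with
  | nil =>
    cases u with
    | nil => simp [shuf_nil_left, lowl_nil_left, zs, zw_nil_right]
    | cons a u =>
      cases v with
      | nil => simp [shuf_nil_right, lowl_nil_right, zs, zw_nil_right]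
      | cons b v =>
        rw [shuf_cons, lowl_cons, zs_append, zs_append, zs_append]
        simp only [zs_nil_map, zw_nil_left]
        by_cases h : a = b
        · rw [if_pos h, zs_nil_map]
          simp
        · rw [if_neg h]
          simp [zs]
  | cons z w ih =>
    cases u with
    | nil => simp [shuf_nil_left, lowl_nil_left, zs, zw_nil_right, zw_cons_nil]
    | cons a u =>
      cases v with
      | nil => simp [shuf_nil_right, lowl_nil_right, zs, zw_nil_right, zw_cons_nil]
      | cons b v =>
        rw [shuf_cons, lowl_cons, zs_append, zs_append, zs_append]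
        simp only [zs_map_cons, zw_cons_cons]
        have h1 := ih (a :: u) (b :: v)
        have h2 := ih u (b :: v)
        have h3 := ih (a :: u) v
        have h4 := ih u v
        rw [shuf_cons, lowl_cons, zs_append, zs_append, zs_append] at h1
        by_cases h : a = b
        · subst h
          simp only [if_true] at h1 ⊢
          simp only [zs_map_cons, zs_append] at *
          by_cases hz : z = a
          · simp only [if_pos hz]
            linear_combination h1 + h2 + h3 + h4
          · simp only [if_neg hz]
            linear_combination h1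
        · simp only [if_neg h] at h1 ⊢
          have e0 : zs w ([] : List (List α)) = 0 := by simp [zs]
          have e1 : zs (z :: w) ([] : List (List α)) = 0 := by simp [zs]
          rw [e0] at h1
          rw [e1]
          by_cases hz : z = a
          · have hz' : z ≠ b := by rw [hz]; exact h
            simp only [if_pos hz, if_neg hz']
            linear_combination h1 + h2
          · by_cases hz2 : z = b
            · simp only [if_pos hz2, if_neg hz]
              linear_combination h1 + h3
            · simp only [if_neg hz, if_neg hz2]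
              linear_combination h1

lemma shuf_length (u v : List α) : ∀ x ∈ shuf u v, x.length = u.length + v.length := by
  induction u generalizing v with
  | nil => simp [shuf_nil_left]
  | cons a u ihu =>
    induction v with
    | nil => simp [shuf_nil_right]
    | cons b v ihv =>
      intro x hx
      rw [shuf_cons, List.mem_append, List.mem_map, List.mem_map] at hx
      rcases hx with ⟨x', hx', rfl⟩ | ⟨x', hx', rfl⟩
      · have := ihu _ x' hx'
        simp only [List.length_cons] at this ⊢
        omega
      · have := ihv x' hx'
        simp only [List.length_cons] at this ⊢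
        omega

lemma lowl_length (u v : List α) : ∀ x ∈ lowl u v, x.length < u.length + v.length := by
  induction u generalizing v with
  | nil => simp [lowl_nil_left]
  | cons a u ihu =>
    induction v with
    | nil => simp [lowl_nil_right]
    | cons b v ihv =>
      intro x hx
      rw [lowl_cons, List.mem_append, List.mem_append, List.mem_map, List.mem_map] at hx
      rcases hx with (⟨x', hx', rfl⟩ | ⟨x', hx', rfl⟩) | hx
      · have := ihu _ x' hx'
        simp only [List.length_cons] at this ⊢
        omega
      · have := ihv x' hx'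
        simp only [List.length_cons] at this ⊢
        omega
      · by_cases h : a = b
        · simp only [h, if_true, List.mem_map, List.mem_append] at hx
          rcases hx with ⟨x', hx' | hx', rfl⟩
          · have := shuf_length _ _ x' hx'
            simp only [List.length_cons] at this ⊢
            omega
          · have := ihu _ x' hx'
            simp only [List.length_cons] at this ⊢
            omega
        · simp [h] at hx

lemma ps_zero (y : α) (F : List α → ℤ) (hF : ∀ W, F W = 0) (w : List α) : ps y F w = 0 := by
  induction w generalizing F with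
  | nil => simp [ps]
  | cons c w ih =>
    simp only [ps]
    rw [hF [], ite_self, zero_add]
    exact ih _ (fun W => hF _)

lemma ps_ite (y : α) (c : Prop) [Decidable c] (G : List α → ℤ) (w : List α) :
    ps y (fun W => if c then G W else 0) w = if c then ps y G w else 0 := by
  by_cases h : c
  · simp [h]
  · simp only [if_neg h]
    exact ps_zero y _ (fun W => rfl) w

/-- The sum over the positions of `y` of a subword count. -/
lemma ps_zw (y : α) (u w : List α) : ps y (fun W => zw W u) w = zw w (u ++ [y]) := by
  induction w generalizing u with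
  | nil =>
    cases u with
    | nil => simp [ps, zw_nil_left]
    | cons a u => simp [ps, zw_nil_left]
  | cons z w ih =>
    cases u with
    | nil =>
      have h1 := ih []
      simp only [List.nil_append] at h1 ⊢
      rw [zw_cons_cons, ← h1, zw_nil_right]
      show (if z = y then zw [] [] else 0) + ps y (fun W => zw (z :: W) []) w = _
      rw [zw_nil_right, add_comm]
      congr 1
      exact ps_congr y (fun W => by rw [zw_cons_nil, zw_nil_right]) w
    | cons a u =>
      rw [List.cons_append, zw_cons_cons]
      show (if z = y then zw [] (a :: u) else 0) + ps y (fun W => zw (z :: W) (a :: u)) w = _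
      rw [zw_nil_left]
      simp only [zw_cons_cons]
      rw [ps_add, ps_ite, ih, ih]
      simp

lemma zs_ps (y : α) (X : List (List α)) (w : List α) :
    ps y (fun W => zs W X) w = zs w (X.map (· ++ [y])) := by
  induction X with
  | nil =>
    simp only [zs, List.map_nil, List.sum_nil]
    exact ps_zero y _ (fun W => rfl) w
  | cons x X ih =>
    simp only [zs, List.map_cons, List.sum_cons] at ih ⊢
    rw [ps_add, ih, ps_zw]

/-- The sum over the positions of `y` of a product of two subword counts. -/
lemma ps_mul (y : α) (u v w : List α) :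
    ps y (fun W => zw W u * zw W v) w =
      zs w ((shuf u v).map (· ++ [y])) + zs w ((lowl u v).map (· ++ [y])) := by
  rw [← zs_ps, ← zs_ps, ← ps_add]
  exact ps_congr y (fun W => mul_shuf W u v) w

end products

section relations

variable {α : Type} [DecidableEq α] [Fintype α]

lemma AZ.mul' {f g : List α → ℤ} (hf : AZ f) (hg : AZ g) : AZ (fun w => f w * g w) := by
  intro M _
  have := (hf M).mul (hg M)
  simpa using this

lemma az_zw (u : List α) (hu : u.length ≤ 3) : AZ (fun w : List α => zw w u) := by
  intro M _
  have := acc_sw_le_three M u hu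
  simpa [zw] using this

lemma az_zs (X : List (List α)) (h : ∀ x ∈ X, x.length ≤ 3) : AZ (fun w : List α => zs w X) := by
  induction X with
  | nil =>
    simp only [zs, List.map_nil, List.sum_nil]
    exact AZ.const 0
  | cons x X ih =>
    have h1 := az_zw x (h x (by simp))
    have h2 := ih (fun x' hx' => h x' (by simp [hx']))
    simp only [zs, List.map_cons, List.sum_cons] at h2 ⊢
    exact h1.add h2

lemma az_shuf (u v : List α) (hu : u.length ≤ 3) (hv : v.length ≤ 3)
    (hl : u.length + v.length ≤ 4) : AZ (fun w : List α => zs w (shuf u v)) := by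
  have h1 := (az_zw u hu).mul' (az_zw v hv)
  have h2 := az_zs (lowl u v) (fun x hx => by have := lowl_length u v x hx; omega)
  convert h1.sub h2 using 2 with w
  rw [mul_shuf]
  ring

/-- The shuffle relations. -/
lemma rel_a (p q r y : α) : AZ (fun w : List α =>
    zw w [p, q, r, y] + zw w [q, p, r, y] + zw w [q, r, p, y] + zw w [q, r, y, p]) := by
  convert az_shuf [p] [q, r, y] (by simp) (by simp) (by simp) using 2 with w
  simp [shuf_cons, shuf_nil_left, shuf_nil_right, zs]
  ring

lemma rel_b (p q r y : α) : AZ (fun w : List α =>
    zw w [p, q, r, y] + zw w [p, r, q, y] + zw w [p, r, y, q] + zw w [r, p, q, y] +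
      zw w [r, p, y, q] + zw w [r, y, p, q]) := by
  convert az_shuf [p, q] [r, y] (by simp) (by simp) (by simp) using 2 with w
  simp [shuf_cons, shuf_nil_left, shuf_nil_right, zs]
  ring

variable (P : ℕ) [Fact P.Prime]

/-- The values modulo the prime of the subword counts. -/
def Bq (u : List α) (w : List α) : ZMod P := ((zw w u : ℤ) : ZMod P)

lemma vc_ps (ρ : α → ZMod P) (y : α) (σ : α → ZMod P) (w : List α) :
    (vc ρ y σ w : ℤ) = ps y (fun W => if endV σ W = ρ then 1 else 0) w := by
  induction w generalizing σ with
  | nil => simp [vc, ps]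
  | cons z w ih =>
    simp only [vc, ps, Nat.cast_add]
    have h1 : _ = ps y (fun W => if endV σ (z :: W) = ρ then 1 else 0) w := ih (vnext σ z)
    rw [h1]
    congr 1
    by_cases h2 : z = y
    · by_cases h3 : σ = ρ
      · simp [h2, h3, endV]
      · simp [h2, h3, endV]
    · simp [h2]

/-- Sums over the positions of `y` of functions of the vector of letter counts modulo the prime. -/
lemma acc_ps_counts (y : α) (G : (α → ZMod P) → ZMod P) (F : List α → ℤ)
    (hF : ∀ W, ((F W : ℤ) : ZMod P) = G (endV 0 W)) :
    Acc (fun w => ((ps y F w : ℤ) : ZMod P)) := by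
  classical
  haveI : NeZero P := ⟨(Fact.out : P.Prime).ne_zero⟩
  have h1 : Acc (fun w : List α => ∑ ρ : α → ZMod P, G ρ * ((vc ρ y 0 w : ℤ) : ZMod P)) :=
    Acc.finset_sum _ (fun ρ _ => (Acc.const _).mul (az_vc ρ y 0 P))
  convert h1 using 2 with w
  have h2 : ((ps y F w : ℤ) : ZMod P) =
      (ps y (fun W => ∑ ρ : α → ZMod P, ((G ρ).val : ℤ) * (if endV 0 W = ρ then 1 else 0)) w : ℤ) := by
    apply ps_cast
    intro W
    rw [hF, Finset.sum_eq_single (endV 0 W)]
    · simp
    · intro b _ hb
      have : ¬ endV 0 W = b := fun h => hb h.symm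
      simp [this]
    · intro h
      exact absurd (Finset.mem_univ _) h
  rw [h2, ps_finset_sum]
  push_cast
  apply Finset.sum_congr rfl
  intro ρ _
  rw [ps_const_mul, ← vc_ps]
  push_cast
  simp

lemma endV_zw (W : List α) (z : α) : endV (0 : α → ZMod P) W z = ((zw W [z] : ℤ) : ZMod P) := by
  rw [endV_apply, cnt_singleton]
  simp [zw]

/-- The symmetric relations. -/
lemma rel_V (p q r y : α) : Acc (fun w : List α =>
    Bq P [p, q, r, y] w + Bq P [p, r, q, y] w + Bq P [r, p, q, y] w + Bq P [q, p, r, y] w +
      Bq P [q, r, p, y] w + Bq P [r, q, p, y] w) := by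
  classical
  have h1 := acc_ps_counts P y (fun σ => σ p * σ q * σ r)
    (fun W => zw W [p] * zw W [q] * zw W [r]) (by
      intro W
      simp only [endV_zw]
      push_cast
      ring)
  have e1 : ∀ W : List α, zw W [p] * zw W [q] * zw W [r] =
      zw W [p, q] * zw W [r] + zw W [q, p] * zw W [r] + (if p = q then zw W [p] * zw W [r] else 0) := by
    intro W
    rw [mul_shuf W [p] [q]]
    by_cases h : p = q
    · subst h
      simp [shuf_cons, shuf_nil_left, shuf_nil_right, lowl_cons, lowl_nil_left, lowl_nil_right, zs]
      ring
    · simp [shuf_cons, shuf_nil_left, shuf_nil_right, lowl_cons, lowl_nil_left, lowl_nil_right, zs, h]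
      ring
  have hlow : AZ (fun w : List α => zs w ((lowl [p, q] [r]).map (· ++ [y])) +
      zs w ((lowl [q, p] [r]).map (· ++ [y])) +
      if p = q then zs w ((shuf [p] [r]).map (· ++ [y])) + zs w ((lowl [p] [r]).map (· ++ [y])) else 0) := by
    have ha : ∀ u v : List α, u.length + v.length ≤ 3 →
        AZ (fun w : List α => zs w ((lowl u v).map (· ++ [y]))) := by
      intro u v huv
      apply az_zs
      intro x hx
      obtain ⟨x', hx', rfl⟩ := List.mem_map.mp hx
      have := lowl_length u v x' hx'
      simp only [List.length_append, List.length_cons, List.length_nil]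
      omega
    have hb : AZ (fun w : List α => zs w ((shuf [p] [r]).map (· ++ [y]))) := by
      apply az_zs
      intro x hx
      obtain ⟨x', hx', rfl⟩ := List.mem_map.mp hx
      have := shuf_length [p] [r] x' hx'
      simp only [List.length_append, List.length_cons, List.length_nil] at this ⊢
      omega
    refine ((ha _ _ (by simp)).add (ha _ _ (by simp))).add ?_
    by_cases h : p = q
    · simp only [if_pos h]
      exact hb.add (ha _ _ (by simp))
    · simp only [if_neg h]
      exact AZ.const 0
  have h2 := h1.sub (hlow P)
  convert h2 using 2 with w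
  have e2 : ps y (fun W => zw W [p] * zw W [q] * zw W [r]) w =
      ps y (fun W => zw W [p, q] * zw W [r]) w + ps y (fun W => zw W [q, p] * zw W [r]) w +
        if p = q then ps y (fun W => zw W [p] * zw W [r]) w else 0 := by
    rw [ps_congr y e1, ps_add, ps_add, ps_ite]
  rw [e2, ps_mul, ps_mul, ps_mul]
  simp only [Bq]
  by_cases h : p = q
  · simp only [if_pos h]
    simp only [shuf_cons, shuf_nil_left, shuf_nil_right, zs, List.map_cons, List.map_nil,
      List.map_append, List.sum_cons, List.sum_nil, List.append_nil, List.cons_append,
      List.nil_append, List.sum_append, add_zero]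
    push_cast
    ring
  · simp only [if_neg h]
    simp only [shuf_cons, shuf_nil_left, shuf_nil_right, zs, List.map_cons, List.map_nil,
      List.map_append, List.sum_cons, List.sum_nil, List.append_nil, List.cons_append,
      List.nil_append, List.sum_append, add_zero]
    push_cast
    ring

/-- A function with vanishing sum over a period, congruent to the identity modulo the prime. -/
def lam (P i : ℕ) : ℤ := ((i % P : ℕ) : ℤ) - if i % P = 0 then ((P * (P - 1) / 2 : ℕ) : ℤ) else 0

lemma lam_period (i : ℕ) : lam P (i + P) = lam P i := by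
  simp [lam]

lemma lam_cast (hodd : Odd P) (i : ℕ) : ((lam P i : ℤ) : ZMod P) = (i : ZMod P) := by
  obtain ⟨k, hk⟩ := hodd
  have h1 : P * (P - 1) / 2 = P * k := by
    have : P - 1 = 2 * k := by omega
    rw [this, Nat.mul_comm 2 k, ← Nat.mul_assoc, Nat.mul_div_cancel _ (by norm_num)]
  have h2 : ((P * (P - 1) / 2 : ℕ) : ZMod P) = 0 := by
    rw [h1]
    simp
  have h3 : (((i % P : ℕ) : ℤ) : ZMod P) = (i : ZMod P) := by
    rw [Int.cast_natCast]
    exact ZMod.natCast_mod i P
  have h4 : (((P * (P - 1) / 2 : ℕ) : ℤ) : ZMod P) = 0 := by
    rw [Int.cast_natCast]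
    exact h2
  unfold lam
  rw [Int.cast_sub, h3]
  by_cases h : i % P = 0
  · rw [if_pos h, h4, sub_zero]
  · rw [if_neg h]
    simp

lemma lam_sum : ∑ i ∈ Finset.range P, lam P i = 0 := by
  have hP : 0 < P := (Fact.out : P.Prime).pos
  unfold lam
  rw [Finset.sum_sub_distrib, Finset.sum_eq_single (s := Finset.range P) (f := fun i =>
    if i % P = 0 then ((P * (P - 1) / 2 : ℕ) : ℤ) else 0) 0]
  · have h1 : ∑ x ∈ Finset.range P, ((x % P : ℕ) : ℤ) = ∑ x ∈ Finset.range P, (x : ℤ) := by
      apply Finset.sum_congr rfl
      intro x hx
      rw [Nat.mod_eq_of_lt (Finset.mem_range.mp hx)]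
    rw [h1]
    have h2 : ∑ x ∈ Finset.range P, (x : ℤ) = ((∑ x ∈ Finset.range P, x : ℕ) : ℤ) := by
      push_cast
      rfl
    rw [h2, Finset.sum_range_id]
    simp
  · intro b hb hb0
    have : b % P ≠ 0 := by
      rw [Nat.mod_eq_of_lt (Finset.mem_range.mp hb)]
      exact hb0
    simp [this]
  · intro h
    exact absurd (Finset.mem_range.mpr hP) h

lemma lam_top (g : ℕ) (hg : g ∣ P) (hlt : g < P) (t : ℕ) : Top P g (lam P) t = 0 := by
  have h1 : g = 1 := by
    rcases (Nat.Prime.eq_one_or_self_of_dvd Fact.out g hg) with h | h
    · exact h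
    · omega
  subst h1
  simp only [Top, Nat.div_one, mul_one]
  have h2 := sum_shift (h := lam P) (n := P) (lam_period P) t
  rw [lam_sum] at h2
  rw [← h2]
  apply Finset.sum_congr rfl
  intro j _
  rw [Nat.add_comm]

lemma ic_cast {M : ℕ} (Q : α → Bool) (a : α) {f f' : ℕ → ℤ}
    (h : ∀ i, ((f i : ℤ) : ZMod M) = (f' i : ZMod M)) (τ : ℕ) (W : List α) :
    ((ic Q a f τ W : ℤ) : ZMod M) = (ic Q a f' τ W : ZMod M) := by
  induction W generalizing τ with
  | nil => simp [ic]
  | cons z W ih =>
    simp only [ic]
    push_cast
    rw [ih]
    by_cases hz : z = a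
    · simp [hz, h]
    · simp [hz]

section phi

variable (S : Finset α) (a y : α)

/-- The letters of `S`. -/
def mem (S : Finset α) (z : α) : Bool := decide (z ∈ S)

lemma filter_mem (W : List α) : ((W.filter (mem S)).length : ℤ) = ∑ s ∈ S, zw W [s] := by
  induction W with
  | nil => simp [zw_nil_left]
  | cons z W ih =>
    simp only [zw_cons_cons, zw_nil_right, Finset.sum_add_distrib, ← ih]
    rw [Finset.sum_ite_eq]
    by_cases h : z ∈ S
    · simp [List.filter_cons, mem, h]
    · simp [List.filter_cons, mem, h]

lemma ic_id (τ : ℕ) (W : List α) :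
    ic (mem S) a (fun i => (i : ℤ)) τ W = τ * zw W [a] + ∑ t ∈ S, zw W [t, a] := by
  induction W generalizing τ with
  | nil => simp [ic, zw_nil_left]
  | cons z W ih =>
    simp only [ic, ih, zw_cons_cons, zw_nil_right, Finset.sum_add_distrib]
    rw [Finset.sum_ite_eq]
    by_cases h : z ∈ S
    · have e : stp (mem S) z = 1 := by simp [stp, mem, h]
      rw [e]
      simp only [h, if_true]
      by_cases h2 : z = a
      · simp only [h2, if_true]
        push_cast
        ring
      · simp only [h2, if_false]
        push_cast
        ring
    · have e : stp (mem S) z = 0 := by simp [stp, mem, h]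
      rw [e]
      simp only [h, if_false]
      by_cases h2 : z = a
      · simp only [h2, if_true]
        push_cast
        ring
      · simp only [h2, if_false]
        push_cast
        ring

/-- The double sum, modulo the prime. -/
lemma acc_double (hodd : Odd P) (ha : a ∈ S) (hy : y ∉ S) :
    Acc (fun w => ((ps y (fun W => (∑ s ∈ S, zw W [s]) * ∑ t ∈ S, zw W [t, a]) w : ℤ) : ZMod P)) := by
  have hP : 0 < P := (Fact.out : P.Prime).pos
  haveI : NeZero P := ⟨hP.ne'⟩
  have h1 := az_double (mem S) a y hP (by simp [mem, ha]) (by simp [mem, hy]) (lam_period P)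
    (fun g hg hlt t => lam_top P g hg hlt t) (g := fun i => ((i % P : ℕ) : ℤ)) (by intro t; simp) P
  convert h1 using 2 with w
  apply ps_cast
  intro W
  have h2 := ic_id S a 0 W
  simp only [Nat.cast_zero, zero_mul, zero_add] at h2
  rw [← filter_mem, ← h2, Int.cast_mul, Int.cast_mul,
    ic_cast (mem S) a (f := fun i => (i : ℤ)) (f' := lam P)
    (fun i => by rw [lam_cast P hodd]; simp) 0 W]
  congr 1
  simp

/-- The relations coming from the double sums. -/
lemma rel_Phi (hodd : Odd P) (ha : a ∈ S) (hy : y ∉ S) : Acc (fun w : List α =>
    ∑ s ∈ S, ∑ t ∈ S, (Bq P [s, t, a, y] w + Bq P [t, s, a, y] w + Bq P [t, a, s, y] w)) := by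
  have hP : 0 < P := (Fact.out : P.Prime).pos
  haveI : NeZero P := ⟨hP.ne'⟩
  have h1 := acc_double P S a y hodd ha hy
  have hlow : AZ (fun w : List α => ∑ s ∈ S, ∑ t ∈ S, zs w ((lowl [s] [t, a]).map (· ++ [y]))) := by
    apply AZ.finset_sum
    intro s _
    apply AZ.finset_sum
    intro t _
    apply az_zs
    intro x hx
    obtain ⟨x', hx', rfl⟩ := List.mem_map.mp hx
    have := lowl_length [s] [t, a] x' hx'
    simp only [List.length_append, List.length_cons, List.length_nil] at this ⊢
    omega
  have h2 := h1.sub (hlow P)
  convert h2 using 2 with w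
  have e1 : ps y (fun W => (∑ s ∈ S, zw W [s]) * ∑ t ∈ S, zw W [t, a]) w =
      ∑ s ∈ S, ∑ t ∈ S, ps y (fun W => zw W [s] * zw W [t, a]) w := by
    simp only [Finset.sum_mul_sum]
    rw [ps_finset_sum]
    apply Finset.sum_congr rfl
    intro s _
    rw [ps_finset_sum]
  rw [e1]
  simp only [ps_mul]
  push_cast
  rw [← Finset.sum_sub_distrib]
  apply Finset.sum_congr rfl
  intro s _
  rw [← Finset.sum_sub_distrib]
  apply Finset.sum_congr rfl
  intro t _
  simp only [Bq, shuf_cons, shuf_nil_left, shuf_nil_right, zs, List.map_cons, List.map_nil,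
    List.map_append, List.sum_cons, List.sum_nil, List.append_nil, List.cons_append,
    List.nil_append, List.sum_append, add_zero]
  push_cast
  ring

end phi

/-- The basic terms of the relations coming from the double sums. -/
def Dq (s t a y : α) (w : List α) : ZMod P :=
  Bq P [s, t, a, y] w + Bq P [t, s, a, y] w + Bq P [t, a, s, y] w

lemma rel_R0 (hodd : Odd P) (a y : α) (hay : a ≠ y) : Acc (Dq P a a a y) := by
  have h := rel_Phi P {a} a y hodd (by simp) (by simpa using fun h => hay h.symm)
  have h' : Acc (fun w : List α => Dq P a a a y w) := by simpa [Dq] using h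
  exact h'

lemma rel_R2 (hodd : Odd P) (a c y : α) (hay : a ≠ y) (hac : a ≠ c) (hcy : c ≠ y) :
    Acc (fun w : List α => Dq P a c a y w + Dq P c a a y w + Dq P c c a y w) := by
  have h1 := rel_R0 P hodd a y hay
  have h2 := rel_Phi P {a, c} a y hodd (by simp) (by
    simp only [Finset.mem_insert, Finset.mem_singleton, not_or]
    exact ⟨fun h => hay h.symm, fun h => hcy h.symm⟩)
  have h3 := h2.sub h1
  convert h3 using 2 with w
  simp only [Finset.sum_pair hac]
  simp only [Dq]
  ring

lemma rel_R1 (hodd : Odd P) (a c d y : α) (hay : a ≠ y) (hac : a ≠ c) (had : a ≠ d) (hcy : c ≠ y)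
    (hdy : d ≠ y) (hcd : c ≠ d) :
    Acc (fun w : List α => Dq P c d a y w + Dq P d c a y w) := by
  have h1 := rel_R0 P hodd a y hay
  have h2 := rel_R2 P hodd a c y hay hac hcy
  have h3 := rel_R2 P hodd a d y hay had hdy
  have h4 := rel_Phi P {a, c, d} a y hodd (by simp) (by
    simp only [Finset.mem_insert, Finset.mem_singleton, not_or]
    exact ⟨fun h => hay h.symm, fun h => hcy h.symm, fun h => hdy h.symm⟩)
  have h5 := ((h4.sub h1).sub h2).sub h3
  convert h5 using 2 with w
  have hm1 : a ∉ ({c, d} : Finset α) := by simp [hac, had]
  have hm2 : c ∉ ({d} : Finset α) := by simp [hcd]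
  simp only [Finset.sum_insert hm1, Finset.sum_insert hm2, Finset.sum_singleton]
  simp only [Dq]
  ring

/-- Dividing by a number which is not zero modulo the prime. -/
lemma acc_of_mul {f : List α → ZMod P} (m : ZMod P) (hm : m ≠ 0)
    (h : Acc (fun w => m * f w)) : Acc f := by
  haveI : NeZero P := ⟨(Fact.out : P.Prime).ne_zero⟩
  have h1 := (Acc.const (m⁻¹)).mul h
  convert h1 using 2 with w
  rw [← mul_assoc, inv_mul_cancel₀ hm, one_mul]

end relations

end Vale.Agent.helper1.Gsh
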