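import Vale.Agent.helper1.Gsh.Sw4

/-!
The subword counts of length four, modulo a prime at least five, from the relations, by explicit
linear combinations.
-/

set_option linter.unusedSectionVars false
set_option linter.unusedSimpArgs false
set_option linter.style.haveILetI false
set_option linter.unusedVariables false

namespace Vale.Agent.helper1.Gsh

open Vale.Agent.helper5.GSH Vale.Agent.helper3.Gsh

section patterns

variable {α : Type} [DecidableEq α] [Fintype α] (P : ℕ) [Fact P.Prime]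

lemma rel_a' (p q r y : α) : Acc (fun w : List α =>
    Bq P [p, q, r, y] w + Bq P [q, p, r, y] w + Bq P [q, r, p, y] w + Bq P [q, r, y, p] w) := by
  haveI : NeZero P := ⟨(Fact.out : P.Prime).ne_zero⟩
  have h := rel_a p q r y P
  simpa [Bq] using h

lemma rel_b' (p q r y : α) : Acc (fun w : List α =>
    Bq P [p, q, r, y] w + Bq P [p, r, q, y] w + Bq P [p, r, y, q] w + Bq P [r, p, q, y] w +
      Bq P [r, p, y, q] w + Bq P [r, y, p, q] w) := by
  haveI : NeZero P := ⟨(Fact.out : P.Prime).ne_zero⟩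
  have h := rel_b p q r y P
  simpa [Bq] using h

lemma pat_abcd (hodd : Odd P) (h2 : (2 : ZMod P) ≠ 0) (h3 : (3 : ZMod P) ≠ 0) (a b c d : α) (hab : a ≠ b) (hac : a ≠ c) (had : a ≠ d) (hbc : b ≠ c) (hbd : b ≠ d) (hcd : c ≠ d) :
    Acc (fun w : List α => Bq P [a, b, c, d] w) := by
  haveI : NeZero P := ⟨(Fact.out : P.Prime).ne_zero⟩
  apply acc_of_mul P (2*3 : ZMod P) (mul_ne_zero h2 h3)
  have r0 := (Acc.const ((1 : ZMod P))).mul (rel_R1 P hodd b a c d hbd (Ne.symm hab) hbc had hcd hac)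
  have r1 := (Acc.const ((4 : ZMod P))).mul (rel_R1 P hodd c a b d hcd (Ne.symm hac) (Ne.symm hbc) had hbd hab)
  have r2 := (Acc.const ((4 : ZMod P))).mul (rel_R1 P hodd a b c d had hab hac hbd hcd hbc)
  have r3 := (Acc.const ((-12 : ZMod P))).mul (rel_a' P a b c d)
  have r4 := (Acc.const ((2 : ZMod P))).mul (rel_R1 P hodd c b d a (Ne.symm hac) (Ne.symm hbc) hcd (Ne.symm hab) (Ne.symm had) hbd)
  have r5 := (Acc.const ((5 : ZMod P))).mul (rel_R1 P hodd d b c a (Ne.symm had) (Ne.symm hbd) (Ne.symm hcd) (Ne.symm hab) (Ne.symm hac) hbc)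
  have r6 := (Acc.const ((6 : ZMod P))).mul (rel_a' P d a b c)
  have r7 := (Acc.const ((-3 : ZMod P))).mul (rel_R1 P hodd b a d c hbc (Ne.symm hab) hbd hac (Ne.symm hcd) had)
  have r8 := (Acc.const ((3 : ZMod P))).mul (rel_R1 P hodd d a b c (Ne.symm hcd) (Ne.symm had) (Ne.symm hbd) hac hbc hab)
  have r9 := (Acc.const ((3 : ZMod P))).mul (rel_R1 P hodd a b d c hac hab had hbc (Ne.symm hcd) hbd)
  have r10 := (Acc.const ((-9 : ZMod P))).mul (rel_a' P a b d c)
  have r11 := (Acc.const ((-1 : ZMod P))).mul (rel_R1 P hodd b c d a (Ne.symm hab) hbc hbd (Ne.symm hac) (Ne.symm had) hcd)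
  have r12 := (Acc.const ((-3 : ZMod P))).mul (rel_a' P a d b c)
  have r13 := (Acc.const ((-9 : ZMod P))).mul (rel_a' P a c b d)
  have r14 := (Acc.const ((3 : ZMod P))).mul (rel_b' P a b c d)
  have r15 := (Acc.const ((-3 : ZMod P))).mul (rel_a' P a c d b)
  have s5 := (((((r0.add r1).add r2).add r3).add r4).add r5)
  have s11 := ((((((s5.add r6).add r7).add r8).add r9).add r10).add r11)
  have h := ((((s11.add r12).add r13).add r14).add r15)
  convert h using 2 with w
  try simp only [Dq]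
  try simp only [Pi.mul_apply]
  ring

lemma pat_aabc (hodd : Odd P) (h2 : (2 : ZMod P) ≠ 0) (h3 : (3 : ZMod P) ≠ 0) (a b c : α) (hab : a ≠ b) (hac : a ≠ c) (hbc : b ≠ c) :
    Acc (fun w : List α => Bq P [a, a, b, c] w) := by
  haveI : NeZero P := ⟨(Fact.out : P.Prime).ne_zero⟩
  apply acc_of_mul P (2 : ZMod P) h2
  have r0 := (Acc.const ((2 : ZMod P))).mul (rel_a' P c a a b)
  have r1 := (Acc.const ((-1 : ZMod P))).mul (rel_V P a a c b)
  have h := (r0.add r1)
  convert h using 2 with w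
  try simp only [Dq]
  try simp only [Pi.mul_apply]
  ring

lemma pat_abac (hodd : Odd P) (h2 : (2 : ZMod P) ≠ 0) (h3 : (3 : ZMod P) ≠ 0) (a b c : α) (hab : a ≠ b) (hac : a ≠ c) (hbc : b ≠ c) :
    Acc (fun w : List α => Bq P [a, b, a, c] w) := by
  haveI : NeZero P := ⟨(Fact.out : P.Prime).ne_zero⟩
  apply acc_of_mul P (2*2*3 : ZMod P) (mul_ne_zero (mul_ne_zero h2 h2) h3)
  have r0 := (Acc.const ((-6 : ZMod P))).mul (rel_R2 P hodd a b c hac hab hbc)
  have r1 := (Acc.const ((9 : ZMod P))).mul (rel_V P a a b c)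
  have r2 := (Acc.const ((-24 : ZMod P))).mul (rel_a' P c a a b)
  have r3 := (Acc.const ((2 : ZMod P))).mul (rel_R2 P hodd a c b hab hac (Ne.symm hbc))
  have r4 := (Acc.const ((-4 : ZMod P))).mul (rel_R2 P hodd c a b (Ne.symm hbc) (Ne.symm hac) hab)
  have r5 := (Acc.const ((9 : ZMod P))).mul (rel_V P a a c b)
  have r6 := (Acc.const ((6 : ZMod P))).mul (rel_a' P a b c b)
  have r7 := (Acc.const ((6 : ZMod P))).mul (rel_b' P a b a c)
  have r8 := (Acc.const ((-6 : ZMod P))).mul (rel_b' P a b b c)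
  have r9 := (Acc.const ((-4 : ZMod P))).mul (rel_R2 P hodd c b a (Ne.symm hac) (Ne.symm hbc) (Ne.symm hab))
  have r10 := (Acc.const ((2 : ZMod P))).mul (rel_R2 P hodd b c a (Ne.symm hab) hbc (Ne.symm hac))
  have r11 := (Acc.const ((-3 : ZMod P))).mul (rel_V P b b c a)
  have r12 := (Acc.const ((12 : ZMod P))).mul (rel_a' P a b b c)
  have r13 := (Acc.const ((-6 : ZMod P))).mul (rel_b' P a c b c)
  have r14 := (Acc.const ((-12 : ZMod P))).mul (rel_V P a b c c)
  have r15 := (Acc.const ((12 : ZMod P))).mul (rel_a' P a b c c)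
  have r16 := (Acc.const ((12 : ZMod P))).mul (rel_a' P b a c c)
  have r17 := (Acc.const ((6 : ZMod P))).mul (rel_a' P b c a c)
  have r18 := (Acc.const ((6 : ZMod P))).mul (rel_a' P a c b c)
  have s5 := (((((r0.add r1).add r2).add r3).add r4).add r5)
  have s11 := ((((((s5.add r6).add r7).add r8).add r9).add r10).add r11)
  have s17 := ((((((s11.add r12).add r13).add r14).add r15).add r16).add r17)
  have h := (s17.add r18)
  convert h using 2 with w
  try simp only [Dq]
  try simp only [Pi.mul_apply]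
  ring

lemma pat_abca (hodd : Odd P) (h2 : (2 : ZMod P) ≠ 0) (h3 : (3 : ZMod P) ≠ 0) (a b c : α) (hab : a ≠ b) (hac : a ≠ c) (hbc : b ≠ c) :
    Acc (fun w : List α => Bq P [a, b, c, a] w) := by
  haveI : NeZero P := ⟨(Fact.out : P.Prime).ne_zero⟩
  apply acc_of_mul P (2*2*3 : ZMod P) (mul_ne_zero (mul_ne_zero h2 h2) h3)
  have r0 := (Acc.const ((12 : ZMod P))).mul (rel_a' P a a b c)
  have r1 := (Acc.const ((6 : ZMod P))).mul (rel_R2 P hodd a b c hac hab hbc)
  have r2 := (Acc.const ((-9 : ZMod P))).mul (rel_V P a a b c)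
  have r3 := (Acc.const ((-2 : ZMod P))).mul (rel_R2 P hodd a c b hab hac (Ne.symm hbc))
  have r4 := (Acc.const ((4 : ZMod P))).mul (rel_R2 P hodd c a b (Ne.symm hbc) (Ne.symm hac) hab)
  have r5 := (Acc.const ((3 : ZMod P))).mul (rel_V P a a c b)
  have r6 := (Acc.const ((-6 : ZMod P))).mul (rel_a' P a b c b)
  have r7 := (Acc.const ((-6 : ZMod P))).mul (rel_b' P a b a c)
  have r8 := (Acc.const ((6 : ZMod P))).mul (rel_b' P a b b c)
  have r9 := (Acc.const ((4 : ZMod P))).mul (rel_R2 P hodd c b a (Ne.symm hac) (Ne.symm hbc) (Ne.symm hab))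
  have r10 := (Acc.const ((-2 : ZMod P))).mul (rel_R2 P hodd b c a (Ne.symm hab) hbc (Ne.symm hac))
  have r11 := (Acc.const ((3 : ZMod P))).mul (rel_V P b b c a)
  have r12 := (Acc.const ((-12 : ZMod P))).mul (rel_a' P a b b c)
  have r13 := (Acc.const ((6 : ZMod P))).mul (rel_b' P a c b c)
  have r14 := (Acc.const ((12 : ZMod P))).mul (rel_V P a b c c)
  have r15 := (Acc.const ((-12 : ZMod P))).mul (rel_a' P a b c c)
  have r16 := (Acc.const ((-12 : ZMod P))).mul (rel_a' P b a c c)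
  have r17 := (Acc.const ((-6 : ZMod P))).mul (rel_a' P b c a c)
  have r18 := (Acc.const ((-6 : ZMod P))).mul (rel_a' P a c b c)
  have s5 := (((((r0.add r1).add r2).add r3).add r4).add r5)
  have s11 := ((((((s5.add r6).add r7).add r8).add r9).add r10).add r11)
  have s17 := ((((((s11.add r12).add r13).add r14).add r15).add r16).add r17)
  have h := (s17.add r18)
  convert h using 2 with w
  try simp only [Dq]
  try simp only [Pi.mul_apply]
  ring

lemma pat_baac (hodd : Odd P) (h2 : (2 : ZMod P) ≠ 0) (h3 : (3 : ZMod P) ≠ 0) (a b c : α) (hab : a ≠ b) (hac : a ≠ c) (hbc : b ≠ c) :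
    Acc (fun w : List α => Bq P [b, a, a, c] w) := by
  haveI : NeZero P := ⟨(Fact.out : P.Prime).ne_zero⟩
  apply acc_of_mul P (2*2*3 : ZMod P) (mul_ne_zero (mul_ne_zero h2 h2) h3)
  have r0 := (Acc.const ((12 : ZMod P))).mul (rel_a' P c a a b)
  have r1 := (Acc.const ((6 : ZMod P))).mul (rel_R2 P hodd a b c hac hab hbc)
  have r2 := (Acc.const ((-2 : ZMod P))).mul (rel_R2 P hodd a c b hab hac (Ne.symm hbc))
  have r3 := (Acc.const ((-3 : ZMod P))).mul (rel_V P a a b c)
  have r4 := (Acc.const ((4 : ZMod P))).mul (rel_R2 P hodd c a b (Ne.symm hbc) (Ne.symm hac) hab)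
  have r5 := (Acc.const ((-3 : ZMod P))).mul (rel_V P a a c b)
  have r6 := (Acc.const ((-6 : ZMod P))).mul (rel_a' P a b c b)
  have r7 := (Acc.const ((-6 : ZMod P))).mul (rel_b' P a b a c)
  have r8 := (Acc.const ((6 : ZMod P))).mul (rel_b' P a b b c)
  have r9 := (Acc.const ((4 : ZMod P))).mul (rel_R2 P hodd c b a (Ne.symm hac) (Ne.symm hbc) (Ne.symm hab))
  have r10 := (Acc.const ((-2 : ZMod P))).mul (rel_R2 P hodd b c a (Ne.symm hab) hbc (Ne.symm hac))
  have r11 := (Acc.const ((3 : ZMod P))).mul (rel_V P b b c a)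
  have r12 := (Acc.const ((-12 : ZMod P))).mul (rel_a' P a b b c)
  have r13 := (Acc.const ((6 : ZMod P))).mul (rel_b' P a c b c)
  have r14 := (Acc.const ((12 : ZMod P))).mul (rel_V P a b c c)
  have r15 := (Acc.const ((-12 : ZMod P))).mul (rel_a' P a b c c)
  have r16 := (Acc.const ((-12 : ZMod P))).mul (rel_a' P b a c c)
  have r17 := (Acc.const ((-6 : ZMod P))).mul (rel_a' P b c a c)
  have r18 := (Acc.const ((-6 : ZMod P))).mul (rel_a' P a c b c)
  have s5 := (((((r0.add r1).add r2).add r3).add r4).add r5)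
  have s11 := ((((((s5.add r6).add r7).add r8).add r9).add r10).add r11)
  have s17 := ((((((s11.add r12).add r13).add r14).add r15).add r16).add r17)
  have h := (s17.add r18)
  convert h using 2 with w
  try simp only [Dq]
  try simp only [Pi.mul_apply]
  ring

lemma pat_baca (hodd : Odd P) (h2 : (2 : ZMod P) ≠ 0) (h3 : (3 : ZMod P) ≠ 0) (a b c : α) (hab : a ≠ b) (hac : a ≠ c) (hbc : b ≠ c) :
    Acc (fun w : List α => Bq P [b, a, c, a] w) := by
  haveI : NeZero P := ⟨(Fact.out : P.Prime).ne_zero⟩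
  apply acc_of_mul P (2*2*3 : ZMod P) (mul_ne_zero (mul_ne_zero h2 h2) h3)
  have r0 := (Acc.const ((-3 : ZMod P))).mul (rel_V P a a b c)
  have r1 := (Acc.const ((-6 : ZMod P))).mul (rel_R2 P hodd a b c hac hab hbc)
  have r2 := (Acc.const ((6 : ZMod P))).mul (rel_a' P a b c b)
  have r3 := (Acc.const ((2 : ZMod P))).mul (rel_R2 P hodd a c b hab hac (Ne.symm hbc))
  have r4 := (Acc.const ((-4 : ZMod P))).mul (rel_R2 P hodd c a b (Ne.symm hbc) (Ne.symm hac) hab)
  have r5 := (Acc.const ((-3 : ZMod P))).mul (rel_V P a a c b)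
  have r6 := (Acc.const ((6 : ZMod P))).mul (rel_b' P a b a c)
  have r7 := (Acc.const ((12 : ZMod P))).mul (rel_a' P a b a c)
  have r8 := (Acc.const ((-6 : ZMod P))).mul (rel_b' P a b b c)
  have r9 := (Acc.const ((-4 : ZMod P))).mul (rel_R2 P hodd c b a (Ne.symm hac) (Ne.symm hbc) (Ne.symm hab))
  have r10 := (Acc.const ((2 : ZMod P))).mul (rel_R2 P hodd b c a (Ne.symm hab) hbc (Ne.symm hac))
  have r11 := (Acc.const ((-3 : ZMod P))).mul (rel_V P b b c a)
  have r12 := (Acc.const ((12 : ZMod P))).mul (rel_a' P a b b c)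
  have r13 := (Acc.const ((-6 : ZMod P))).mul (rel_b' P a c b c)
  have r14 := (Acc.const ((-12 : ZMod P))).mul (rel_V P a b c c)
  have r15 := (Acc.const ((12 : ZMod P))).mul (rel_a' P a b c c)
  have r16 := (Acc.const ((12 : ZMod P))).mul (rel_a' P b a c c)
  have r17 := (Acc.const ((6 : ZMod P))).mul (rel_a' P b c a c)
  have r18 := (Acc.const ((6 : ZMod P))).mul (rel_a' P a c b c)
  have s5 := (((((r0.add r1).add r2).add r3).add r4).add r5)
  have s11 := ((((((s5.add r6).add r7).add r8).add r9).add r10).add r11)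
  have s17 := ((((((s11.add r12).add r13).add r14).add r15).add r16).add r17)
  have h := (s17.add r18)
  convert h using 2 with w
  try simp only [Dq]
  try simp only [Pi.mul_apply]
  ring

lemma pat_bcaa (hodd : Odd P) (h2 : (2 : ZMod P) ≠ 0) (h3 : (3 : ZMod P) ≠ 0) (a b c : α) (hab : a ≠ b) (hac : a ≠ c) (hbc : b ≠ c) :
    Acc (fun w : List α => Bq P [b, c, a, a] w) := by
  haveI : NeZero P := ⟨(Fact.out : P.Prime).ne_zero⟩
  apply acc_of_mul P (2 : ZMod P) h2
  have r0 := (Acc.const ((-1 : ZMod P))).mul (rel_a' P a b a c)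
  have r1 := (Acc.const ((1 : ZMod P))).mul (rel_V P a a b c)
  have r2 := (Acc.const ((-1 : ZMod P))).mul (rel_a' P a a b c)
  have r3 := (Acc.const ((1 : ZMod P))).mul (rel_a' P a b c a)
  have h := (((r0.add r1).add r2).add r3)
  convert h using 2 with w
  try simp only [Dq]
  try simp only [Pi.mul_apply]
  ring

lemma pat_aabb (hodd : Odd P) (h2 : (2 : ZMod P) ≠ 0) (h3 : (3 : ZMod P) ≠ 0) (a b : α) (hab : a ≠ b) :
    Acc (fun w : List α => Bq P [a, a, b, b] w) := by
  haveI : NeZero P := ⟨(Fact.out : P.Prime).ne_zero⟩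
  apply acc_of_mul P (2 : ZMod P) h2
  have r0 := (Acc.const ((-1 : ZMod P))).mul (rel_V P a a b b)
  have r1 := (Acc.const ((2 : ZMod P))).mul (rel_a' P b a a b)
  have h := (r0.add r1)
  convert h using 2 with w
  try simp only [Dq]
  try simp only [Pi.mul_apply]
  ring

lemma pat_abab (hodd : Odd P) (h2 : (2 : ZMod P) ≠ 0) (h3 : (3 : ZMod P) ≠ 0) (a b : α) (hab : a ≠ b) :
    Acc (fun w : List α => Bq P [a, b, a, b] w) := by
  haveI : NeZero P := ⟨(Fact.out : P.Prime).ne_zero⟩
  apply acc_of_mul P (2 : ZMod P) h2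
  have r0 := (Acc.const ((2 : ZMod P))).mul (rel_V P a a b b)
  have r1 := (Acc.const ((-4 : ZMod P))).mul (rel_a' P b a a b)
  have r2 := (Acc.const ((1 : ZMod P))).mul (rel_b' P a b a b)
  have h := ((r0.add r1).add r2)
  convert h using 2 with w
  try simp only [Dq]
  try simp only [Pi.mul_apply]
  ring

lemma pat_abba (hodd : Odd P) (h2 : (2 : ZMod P) ≠ 0) (h3 : (3 : ZMod P) ≠ 0) (a b : α) (hab : a ≠ b) :
    Acc (fun w : List α => Bq P [a, b, b, a] w) := by
  haveI : NeZero P := ⟨(Fact.out : P.Prime).ne_zero⟩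
  apply acc_of_mul P (2 : ZMod P) h2
  have r0 := (Acc.const ((-1 : ZMod P))).mul (rel_b' P a b a b)
  have r1 := (Acc.const ((2 : ZMod P))).mul (rel_a' P a a b b)
  have h := (r0.add r1)
  convert h using 2 with w
  try simp only [Dq]
  try simp only [Pi.mul_apply]
  ring

lemma pat_aaab (hodd : Odd P) (h2 : (2 : ZMod P) ≠ 0) (h3 : (3 : ZMod P) ≠ 0) (a b : α) (hab : a ≠ b) :
    Acc (fun w : List α => Bq P [a, a, a, b] w) := by
  haveI : NeZero P := ⟨(Fact.out : P.Prime).ne_zero⟩
  apply acc_of_mul P (3 : ZMod P) h3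
  have r0 := (Acc.const ((1 : ZMod P))).mul (rel_R0 P hodd a b hab)
  have h := r0
  convert h using 2 with w
  try simp only [Dq]
  try simp only [Pi.mul_apply]
  ring

lemma pat_aaba (hodd : Odd P) (h2 : (2 : ZMod P) ≠ 0) (h3 : (3 : ZMod P) ≠ 0) (a b : α) (hab : a ≠ b) :
    Acc (fun w : List α => Bq P [a, a, b, a] w) := by
  haveI : NeZero P := ⟨(Fact.out : P.Prime).ne_zero⟩
  have r0 := (Acc.const ((1 : ZMod P))).mul (rel_a' P a a a b)
  have r1 := (Acc.const ((-1 : ZMod P))).mul (rel_R0 P hodd a b hab)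
  have h := (r0.add r1)
  convert h using 2 with w
  try simp only [Dq]
  try simp only [Pi.mul_apply]
  ring

lemma pat_abaa (hodd : Odd P) (h2 : (2 : ZMod P) ≠ 0) (h3 : (3 : ZMod P) ≠ 0) (a b : α) (hab : a ≠ b) :
    Acc (fun w : List α => Bq P [a, b, a, a] w) := by
  haveI : NeZero P := ⟨(Fact.out : P.Prime).ne_zero⟩
  apply acc_of_mul P (2 : ZMod P) h2
  have r0 := (Acc.const ((-2 : ZMod P))).mul (rel_a' P a a a b)
  have r1 := (Acc.const ((2 : ZMod P))).mul (rel_R0 P hodd a b hab)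
  have r2 := (Acc.const ((1 : ZMod P))).mul (rel_a' P a a b a)
  have h := ((r0.add r1).add r2)
  convert h using 2 with w
  try simp only [Dq]
  try simp only [Pi.mul_apply]
  ring

lemma pat_baaa (hodd : Odd P) (h2 : (2 : ZMod P) ≠ 0) (h3 : (3 : ZMod P) ≠ 0) (a b : α) (hab : a ≠ b) :
    Acc (fun w : List α => Bq P [b, a, a, a] w) := by
  haveI : NeZero P := ⟨(Fact.out : P.Prime).ne_zero⟩
  apply acc_of_mul P (2 : ZMod P) h2
  have r0 := (Acc.const ((-1 : ZMod P))).mul (rel_a' P a a b a)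
  have r1 := (Acc.const ((1 : ZMod P))).mul (rel_V P a a b a)
  have h := (r0.add r1)
  convert h using 2 with w
  try simp only [Dq]
  try simp only [Pi.mul_apply]
  ring

lemma pat_aaaa (hodd : Odd P) (h2 : (2 : ZMod P) ≠ 0) (h3 : (3 : ZMod P) ≠ 0) (a : α)  :
    Acc (fun w : List α => Bq P [a, a, a, a] w) := by
  haveI : NeZero P := ⟨(Fact.out : P.Prime).ne_zero⟩
  apply acc_of_mul P (2*3 : ZMod P) (mul_ne_zero h2 h3)
  have r0 := (Acc.const ((1 : ZMod P))).mul (rel_V P a a a a)
  have h := r0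
  convert h using 2 with w
  try simp only [Dq]
  try simp only [Pi.mul_apply]
  ring

/-- Every subword count of length four is accessible modulo a prime at least five. -/
theorem acc_four (hodd : Odd P) (h2 : (2 : ZMod P) ≠ 0) (h3 : (3 : ZMod P) ≠ 0) (c1 c2 c3 c4 : α) :
    Acc (fun w : List α => Bq P [c1, c2, c3, c4] w) := by
  by_cases h12 : c1 = c2
  · subst h12
    by_cases h13 : c1 = c3
    · subst h13
      by_cases h14 : c1 = c4
      · subst h14
        exact pat_aaaa P hodd h2 h3 c1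
      · exact pat_aaab P hodd h2 h3 c1 c4 h14
    · by_cases h14 : c1 = c4
      · subst h14
        exact pat_aaba P hodd h2 h3 c1 c3 h13
      · by_cases h34 : c3 = c4
        · subst h34
          exact pat_aabb P hodd h2 h3 c1 c3 h13
        · exact pat_aabc P hodd h2 h3 c1 c3 c4 h13 h14 h34
  · by_cases h13 : c1 = c3
    · subst h13
      by_cases h14 : c1 = c4
      · subst h14
        exact pat_abaa P hodd h2 h3 c1 c2 h12
      · by_cases h24 : c2 = c4
        · subst h24
          exact pat_abab P hodd h2 h3 c1 c2 h12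
        · exact pat_abac P hodd h2 h3 c1 c2 c4 h12 h14 h24
    · by_cases h14 : c1 = c4
      · subst h14
        by_cases h23 : c2 = c3
        · subst h23
          exact pat_abba P hodd h2 h3 c1 c2 h12
        · exact pat_abca P hodd h2 h3 c1 c2 c3 h12 h13 h23
      · by_cases h23 : c2 = c3
        · subst h23
          by_cases h24 : c2 = c4
          · subst h24
            exact pat_baaa P hodd h2 h3 c2 c1 (Ne.symm h12)
          · exact pat_baac P hodd h2 h3 c2 c1 c4 (Ne.symm h12) h24 h14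
        · by_cases h24 : c2 = c4
          · subst h24
            exact pat_baca P hodd h2 h3 c2 c1 c3 (Ne.symm h12) h23 h13
          · by_cases h34 : c3 = c4
            · subst h34
              exact pat_bcaa P hodd h2 h3 c3 c1 c2 (Ne.symm h13) (Ne.symm h23) h12
            · exact pat_abcd P hodd h2 h3 c1 c2 c3 c4 h12 h13 h14 h23 h24 h34

end patterns

end Vale.Agent.helper1.Gsh
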